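import Crest.Prelude.Def_StreamLearn

/-!
# Row 322 (S0499): from the sample-by-sample run to a Markov chain on blocks of rows.

`g : Fin T → Z → E d → ℝ → Z` is a deterministic step (`Z` finite).  We cut the `T` samples into
`J` blocks of `w` rows (padding if `T < J w`), define the block map `blockMap`, the transition
probabilities `τ` and the conditional laws `Lz`, and prove

`(σ × γ^T){(s, xs) | run s xs ∈ A s} = ∫⁻ s, ∑ z, (if z ∈ A s then Lz J z s else 0) ∂σ`.
-/

set_option autoImplicit false

noncomputable section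

namespace MemSample.BlockChain

open MeasureTheory ProbabilityTheory Crest.StreamLearn
open scoped ENNReal

variable {d T w : ℕ} {Z : Type}

/-! ### Running a step function, indexed by `ℕ` -/

/-- Iterate `F 0, F 1, ...` -/
def natRun (F : ℕ → Z → Z) (z0 : Z) : ℕ → Z
  | 0 => z0
  | n + 1 => F n (natRun F z0 n)

@[simp] theorem natRun_zero (F : ℕ → Z → Z) (z0 : Z) : natRun F z0 0 = z0 := rfl

theorem natRun_succ (F : ℕ → Z → Z) (z0 : Z) (n : ℕ) :
    natRun F z0 (n + 1) = F n (natRun F z0 n) := rfl

/-- `ℕ`-indexed version of a `Fin T`-indexed family. -/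
def natStep {T : ℕ} (F : Fin T → Z → Z) (n : ℕ) (z : Z) : Z :=
  if h : n < T then F ⟨n, h⟩ z else z

theorem natRun_congr {F G : ℕ → Z → Z} {z0 : Z} {m : ℕ} (h : ∀ n, n < m → F n = G n) :
    ∀ n, n ≤ m → natRun F z0 n = natRun G z0 n := by
  intro n
  induction n with
  | zero => intro _; rfl
  | succ n ih =>
    intro hn
    rw [natRun_succ, natRun_succ, ih (by omega), h n (by omega)]

theorem foldl_finRange {T : ℕ} (F : Fin T → Z → Z) (z0 : Z) :
    (List.finRange T).foldl (fun q t => F t q) z0 = natRun (natStep F) z0 T := by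
  induction T generalizing z0 with
  | zero => simp
  | succ T ih =>
    rw [List.finRange_succ_last, List.foldl_append, List.foldl_map]
    have h1 := ih (fun t => F (Fin.castSucc t)) z0
    simp only [List.foldl_cons, List.foldl_nil]
    rw [h1, natRun_succ]
    have h2 : natStep F T = F (Fin.last T) := by
      funext z
      simp [natStep, Fin.last]
    rw [h2]
    congr 1
    refine natRun_congr (fun n hn => ?_) T le_rfl
    funext z
    have : n < T + 1 := by omega
    simp [natStep, hn, this]

theorem natRun_stable {F : ℕ → Z → Z} {z0 : Z} {T : ℕ} (h : ∀ n, T ≤ n → F n = id) (k : ℕ) :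
    natRun F z0 (T + k) = natRun F z0 T := by
  induction k with
  | zero => rfl
  | succ k ih =>
    rw [← add_assoc, natRun_succ, h _ (by omega), ih]
    rfl

/-! ### Measurable fibres -/

/-- All fibres are measurable. -/
def MF {α : Type*} [MeasurableSpace α] (ρ : α → Z) : Prop := ∀ z, MeasurableSet {a | ρ a = z}

theorem MF.const {α : Type*} [MeasurableSpace α] (z0 : Z) : MF (fun _ : α => z0) := by
  intro z
  by_cases h : z0 = z
  · simp [h]
  · simp [h]

theorem MF.comp_measurable {α β : Type*} [MeasurableSpace α] [MeasurableSpace β] {ρ : β → Z}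
    (hρ : MF ρ) {u : α → β} (hu : Measurable u) : MF (fun a => ρ (u a)) :=
  fun z => hu (hρ z)

theorem MF.step [Countable Z] {α : Type*} [MeasurableSpace α] {ρ : α → Z} (hρ : MF ρ)
    {Φ : Z → α → Z} (hΦ : ∀ q, MF (Φ q)) : MF (fun a => Φ (ρ a) a) := by
  intro z
  have : {a | Φ (ρ a) a = z} = ⋃ q, ({a | ρ a = q} ∩ {a | Φ q a = z}) := by
    ext a
    simp only [Set.mem_ofPred_eq, Set.mem_iUnion, Set.mem_inter_iff]
    constructor
    · intro h
      exact ⟨ρ a, rfl, h⟩
    · rintro ⟨q, rfl, h⟩
      exact h
  rw [this]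
  exact MeasurableSet.iUnion fun q => (hρ q).inter (hΦ q z)

theorem MF.natRun [Countable Z] {α : Type*} [MeasurableSpace α] {F : α → ℕ → Z → Z} {z0 : Z}
    (hF : ∀ n q, MF (fun a => F a n q)) (n : ℕ) : MF (fun a => natRun (F a) z0 n) := by
  induction n with
  | zero => exact MF.const z0
  | succ n ih =>
    exact MF.step ih (fun q => hF n q)

/-! ### Steps and blocks -/

/-- The inner product of a row with a signal. -/
noncomputable def mv (x : Fin w → E d) (s : E d) : Fin w → ℝ := fun i => inner ℝ (x i) s

theorem measurable_mv (s : E d) : Measurable (fun x : Fin w → E d => mv x s) := by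
  refine measurable_pi_lambda _ fun i => ?_
  have h1 : Measurable (fun x : E d => inner ℝ x s) := (continuous_id.inner continuous_const).measurable
  exact h1.comp (measurable_pi_apply i)

/-- The `ℕ`-indexed step, the identity beyond the horizon. -/
def gN (g : Fin T → Z → E d → ℝ → Z) (n : ℕ) (z : Z) (x : E d) (y : ℝ) : Z :=
  if h : n < T then g ⟨n, h⟩ z x y else z

/-- The block map: process the rows `j w, ..., j w + w - 1`. -/
def blockMap (g : Fin T → Z → E d → ℝ → Z) (j : ℕ) (z : Z) (x : Fin w → E d) (y : Fin w → ℝ) : Z :=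
  (List.finRange w).foldl (fun q (i : Fin w) => gN g (j * w + i) q (x i) (y i)) z

/-- The run of the chain on `J` blocks. -/
def chainRun (f : ℕ → Z → (Fin w → E d) → (Fin w → ℝ) → Z) (z0 : Z) (s : E d) :
    (J : ℕ) → (Fin J → Fin w → E d) → Z
  | 0, _ => z0
  | J + 1, X => f J (chainRun f z0 s J (Fin.init X)) (X (Fin.last J)) (mv (X (Fin.last J)) s)

/-- The sample by sample run. -/
def runT (g : Fin T → Z → E d → ℝ → Z) (z0 : Z) (s : E d) (xs : Fin T → E d) : Z :=
  (List.finRange T).foldl (fun q t => g t q (xs t) (inner ℝ (xs t) s)) z0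

/-- `ℕ`-indexed samples. -/
noncomputable def xsN (xs : Fin T → E d) (n : ℕ) : E d := if h : n < T then xs ⟨n, h⟩ else 0

theorem runT_eq_natRun (g : Fin T → Z → E d → ℝ → Z) (z0 : Z) (s : E d) (xs : Fin T → E d) :
    runT g z0 s xs =
      natRun (fun n q => gN g n q (xsN xs n) (inner ℝ (xsN xs n) s)) z0 T := by
  unfold runT
  rw [foldl_finRange (fun t q => g t q (xs t) (inner ℝ (xs t) s)) z0]
  refine natRun_congr (fun n hn => ?_) T le_rfl
  funext z
  simp [natStep, gN, xsN, hn]

/-- One block of the run. -/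
theorem natRun_block (g : Fin T → Z → E d → ℝ → Z) (z0 : Z) (s : E d) (xs : ℕ → E d) (j : ℕ)
    (x : Fin w → E d) (hx : ∀ i : Fin w, j * w + i < T → xs (j * w + i) = x i) :
    natRun (fun n q => gN g n q (xs n) (inner ℝ (xs n) s)) z0 ((j + 1) * w) =
      blockMap g j (natRun (fun n q => gN g n q (xs n) (inner ℝ (xs n) s)) z0 (j * w)) x (mv x s) := by
  set G : ℕ → Z → Z := fun n q => gN g n q (xs n) (inner ℝ (xs n) s) with hG
  unfold blockMap
  rw [foldl_finRange (fun i q => gN g (j * w + i) q (x i) (mv x s i))]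
  have key : ∀ i, i ≤ w →
      natRun (natStep fun (i : Fin w) q => gN g (j * w + i) q (x i) (mv x s i))
        (natRun G z0 (j * w)) i = natRun G z0 (j * w + i) := by
    intro i
    induction i with
    | zero => intro _; rfl
    | succ i ih =>
      intro hi
      rw [natRun_succ, ih (by omega), ← add_assoc, natRun_succ]
      have hiw : i < w := by omega
      simp only [natStep, hiw, dif_pos, hG]
      by_cases hT : j * w + i < T
      · have := hx ⟨i, hiw⟩ hT
        simp only at this
        rw [this]
        rfl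
      · simp [gN, hT]
  rw [key w le_rfl]
  congr 1
  ring

/-- The padded samples read off the blocks. -/
theorem natRun_chain (g : Fin T → Z → E d → ℝ → Z) (z0 : Z) (s : E d) (xs : ℕ → E d) :
    ∀ (J : ℕ) (X : Fin J → Fin w → E d),
      (∀ (j : Fin J) (i : Fin w), j * w + i < T → xs (j * w + i) = X j i) →
      natRun (fun n q => gN g n q (xs n) (inner ℝ (xs n) s)) z0 (J * w) =
        chainRun (blockMap g) z0 s J X := by
  intro J
  induction J with
  | zero =>
    intro X _
    simp [chainRun]
  | succ J ih =>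
    intro X hX
    rw [natRun_block g z0 s xs J (X (Fin.last J))
      (fun i hi => by simpa using hX (Fin.last J) i (by simpa using hi))]
    rw [ih (Fin.init X) (fun j i hi => ?_)]
    · rfl
    · have := hX j.castSucc i (by simpa using hi)
      simpa [Fin.init] using this

/-! ### Blocks from samples -/

variable {J : ℕ}

theorem w_pos_of_fin (hJ : T ≤ J * w) (t : Fin T) : 0 < w := by
  rcases Nat.eq_zero_or_pos w with h | h
  · subst h
    have := t.2
    simp at hJ
    omega
  · exact h

theorem div_lt_of_fin (hJ : T ≤ J * w) (t : Fin T) : (t : ℕ) / w < J :=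
  Nat.div_lt_of_lt_mul (by have := t.2; rw [mul_comm]; omega)

/-- The samples read off from `J` blocks of `w` rows. -/
def pull (hJ : T ≤ J * w) (X : Fin J → Fin w → E d) : Fin T → E d := fun t =>
  X ⟨t / w, div_lt_of_fin hJ t⟩ ⟨t % w, Nat.mod_lt _ (w_pos_of_fin hJ t)⟩

theorem pull_apply (hJ : T ≤ J * w) (X : Fin J → Fin w → E d) (j : Fin J) (i : Fin w)
    (h : j * w + i < T) : xsN (pull hJ X) (j * w + i) = X j i := by
  have hw : 0 < w := lt_of_le_of_lt (Nat.zero_le _) i.2
  have h1 : ((j : ℕ) * w + i) / w = j := by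
    rw [add_comm, Nat.add_mul_div_right _ _ hw, Nat.div_eq_of_lt i.2, zero_add]
  have h2 : ((j : ℕ) * w + i) % w = i := by
    rw [add_comm, Nat.add_mul_mod_self_right, Nat.mod_eq_of_lt i.2]
  unfold xsN pull
  simp only [h, dif_pos]
  congr 1
  · exact Fin.ext h1
  · exact Fin.ext h2

/-- The run read off the blocks. -/
theorem runT_pull (g : Fin T → Z → E d → ℝ → Z) (z0 : Z) (s : E d) (hJ : T ≤ J * w)
    (X : Fin J → Fin w → E d) :
    runT g z0 s (pull hJ X) = chainRun (blockMap g) z0 s J X := by
  rw [runT_eq_natRun]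
  rw [← natRun_chain g z0 s (xsN (pull hJ X)) J X (fun j i h => pull_apply hJ X j i h)]
  obtain ⟨k, hk⟩ := Nat.exists_eq_add_of_le hJ
  rw [hk]
  symm
  refine natRun_stable (fun n hn => ?_) k
  funext z
  have : ¬ n < T := by omega
  simp [gN, this]

/-- The block Gaussian measure. -/
noncomputable def γB (d w : ℕ) : Measure (Fin w → E d) :=
  Measure.pi fun _ : Fin w => stdGaussian (E d)

instance : IsProbabilityMeasure (γB d w) := by
  unfold γB; infer_instance

theorem measurable_pull (hJ : T ≤ J * w) : Measurable (pull (d := d) hJ) := by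
  refine measurable_pi_lambda _ fun t => ?_
  unfold pull
  exact (measurable_pi_apply _).eval

/-- The law of the padded samples. -/
theorem map_pull (hJ : T ≤ J * w) :
    (Measure.pi fun _ : Fin J => γB d w).map (pull hJ) =
      Measure.pi fun _ : Fin T => stdGaussian (E d) := by
  classical
  symm
  refine Measure.pi_eq fun S hS => ?_
  rw [Measure.map_apply (measurable_pull hJ) (MeasurableSet.univ_pi hS)]
  have hw : ∀ t : Fin T, 0 < w := w_pos_of_fin hJ
  have hpre : pull hJ ⁻¹' Set.univ.pi S =
      Set.univ.pi fun j : Fin J => Set.univ.pi fun i : Fin w =>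
        if h : (j : ℕ) * w + i < T then S ⟨j * w + i, h⟩ else Set.univ := by
    ext X
    simp only [Set.mem_preimage, Set.mem_pi, Set.mem_univ, true_implies]
    constructor
    · intro h j i
      split_ifs with hlt
      · have h1 := h ⟨j * w + i, hlt⟩
        have h2 := pull_apply hJ X j i hlt
        unfold xsN at h2
        simp only [hlt, dif_pos] at h2
        rwa [h2] at h1
      · trivial
    · intro h t
      have hwt := hw t
      have hj : t / w < J := Nat.div_lt_of_lt_mul (by have := t.2; rw [mul_comm]; omega)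
      have hi : t % w < w := Nat.mod_lt _ hwt
      have hlt : t / w * w + t % w < T := by
        rw [Nat.div_add_mod']
        exact t.2
      have := h ⟨t / w, hj⟩ ⟨t % w, hi⟩
      simp only [hlt, dif_pos] at this
      have he : (⟨t / w * w + t % w, hlt⟩ : Fin T) = t := Fin.ext (Nat.div_add_mod' _ _)
      rw [he] at this
      exact this
  rw [hpre, Measure.pi_pi]
  simp only [γB]
  have h1 : ∀ j : Fin J, (Measure.pi fun _ : Fin w => stdGaussian (E d))
      (Set.univ.pi fun i : Fin w =>
        if h : (j : ℕ) * w + i < T then S ⟨j * w + i, h⟩ else Set.univ) =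
      ∏ i : Fin w, if h : (j : ℕ) * w + i < T then stdGaussian (E d) (S ⟨j * w + i, h⟩) else 1 := by
    intro j
    rw [Measure.pi_pi]
    refine Finset.prod_congr rfl fun i _ => ?_
    split_ifs <;> simp
  simp_rw [h1]
  rw [← Finset.prod_product']
  rw [Finset.prod_dite]
  simp only [Finset.prod_const_one, mul_one]
  have hwT : ∀ t : Fin T, t / w < J := div_lt_of_fin hJ
  let e : {x // x ∈ (Finset.univ ×ˢ Finset.univ : Finset (Fin J × Fin w)).filter
      (fun x => (x.1 : ℕ) * w + x.2 < T)} ≃ Fin T :=
    { toFun := fun x => ⟨(x.1.1 : ℕ) * w + x.1.2, (Finset.mem_filter.mp x.2).2⟩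
      invFun := fun t => ⟨(⟨t / w, hwT t⟩, ⟨t % w, Nat.mod_lt _ (hw t)⟩), by
        simp only [Finset.mem_filter, Finset.mem_product, Finset.mem_univ, true_and]
        rw [Nat.div_add_mod']
        exact t.2⟩
      left_inv := by
        rintro ⟨⟨j, i⟩, hx⟩
        have hwpos : 0 < w := lt_of_le_of_lt (Nat.zero_le _) i.2
        have h1 : ((j : ℕ) * w + i) / w = j := by
          rw [add_comm, Nat.add_mul_div_right _ _ hwpos, Nat.div_eq_of_lt i.2, zero_add]
        have h2 : ((j : ℕ) * w + i) % w = i := by
          rw [add_comm, Nat.add_mul_mod_self_right, Nat.mod_eq_of_lt i.2]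
        apply Subtype.ext
        apply Prod.ext
        · exact Fin.ext h1
        · exact Fin.ext h2
      right_inv := by
        intro t
        exact Fin.ext (Nat.div_add_mod' _ _) }
  exact Fintype.prod_equiv e _ _ (fun x => rfl)

/-! ### The Markov chain: kernels and conditional laws -/

variable [Fintype Z] [DecidableEq Z]

/-- The transition kernel of block `j`. -/
def τ (f : ℕ → Z → (Fin w → E d) → (Fin w → ℝ) → Z) (j : ℕ) (z z' : Z) (s : E d) : ℝ≥0∞ :=
  γB d w {x | f j z x (mv x s) = z'}

/-- The conditional law of the state after `j` blocks given the signal. -/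
def Lz (f : ℕ → Z → (Fin w → E d) → (Fin w → ℝ) → Z) (z0 : Z) : ℕ → Z → E d → ℝ≥0∞
  | 0, z, _ => if z = z0 then 1 else 0
  | j + 1, z', s => ∑ z, Lz f z0 j z s * τ f j z z' s

/-- Measurability of the block step. -/
def FMeas (f : ℕ → Z → (Fin w → E d) → (Fin w → ℝ) → Z) : Prop :=
  ∀ j z z', MeasurableSet {p : (Fin w → E d) × (Fin w → ℝ) | f j z p.1 p.2 = z'}

theorem measurableSet_f {f : ℕ → Z → (Fin w → E d) → (Fin w → ℝ) → Z} (hf : FMeas f) (j : ℕ)
    (z z' : Z) (s : E d) : MeasurableSet {x : Fin w → E d | f j z x (mv x s) = z'} :=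
  (measurable_id.prodMk (measurable_mv s)) (hf j z z')

theorem MF_chainRun {f : ℕ → Z → (Fin w → E d) → (Fin w → ℝ) → Z} (hf : FMeas f) (z0 : Z) (s : E d)
    (J : ℕ) : MF (chainRun f z0 s J) := by
  induction J with
  | zero =>
    exact MF.const z0
  | succ J ih =>
    have h1 : MF fun X : Fin (J + 1) → Fin w → E d => chainRun f z0 s J (Fin.init X) :=
      MF.comp_measurable ih (by
        refine measurable_pi_lambda _ fun i => ?_
        exact measurable_pi_apply _)
    refine MF.step h1 (Φ := fun q X => f J q (X (Fin.last J)) (mv (X (Fin.last J)) s)) fun q z' => ?_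
    exact (measurable_pi_apply (Fin.last J) :
      Measurable fun X : Fin (J + 1) → Fin w → E d => X (Fin.last J)) (measurableSet_f hf J q z' s)

/-- The Markov property. -/
theorem measure_chainRun {f : ℕ → Z → (Fin w → E d) → (Fin w → ℝ) → Z} (hf : FMeas f) (z0 : Z)
    (s : E d) (J : ℕ) (z : Z) :
    (Measure.pi fun _ : Fin J => γB d w) {X | chainRun f z0 s J X = z} = Lz f z0 J z s := by
  induction J generalizing z with
  | zero =>
    by_cases h : z0 = z
    · subst h
      simp [chainRun, Lz]
    · have h' : ¬ z = z0 := fun e => h e.symm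
      simp [chainRun, Lz, h, h']
  | succ J ih =>
    have hmp := measurePreserving_piFinSuccAbove (fun _ : Fin (J + 1) => γB d w) (Fin.last J)
    have h1st : ∀ X : Fin (J + 1) → Fin w → E d,
        ((MeasurableEquiv.piFinSuccAbove (fun _ : Fin (J + 1) => Fin w → E d) (Fin.last J)) X).1
          = X (Fin.last J) := fun X => by
      simp [MeasurableEquiv.piFinSuccAbove]
    have h2nd : ∀ X : Fin (J + 1) → Fin w → E d,
        ((MeasurableEquiv.piFinSuccAbove (fun _ : Fin (J + 1) => Fin w → E d) (Fin.last J)) X).2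
          = Fin.init X := fun X => by
      funext j
      simp [MeasurableEquiv.piFinSuccAbove, Fin.init]
    have hset : {X : Fin (J + 1) → Fin w → E d | chainRun f z0 s (J + 1) X = z} =
        (MeasurableEquiv.piFinSuccAbove (fun _ : Fin (J + 1) => Fin w → E d) (Fin.last J)) ⁻¹'
          (⋃ q, ({x | f J q x (mv x s) = z} ×ˢ {X' | chainRun f z0 s J X' = q})) := by
      ext X
      simp only [Set.mem_ofPred_eq, Set.mem_preimage, Set.mem_iUnion, Set.mem_prod, h1st, h2nd]
      constructor
      · intro h
        exact ⟨chainRun f z0 s J (Fin.init X), h, rfl⟩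
      · rintro ⟨q, h1, h2⟩
        change f J (chainRun f z0 s J (Fin.init X)) (X (Fin.last J)) (mv (X (Fin.last J)) s) = z
        rw [h2]
        exact h1
    have hmeas : ∀ q, MeasurableSet (({x | f J q x (mv x s) = z} : Set (Fin w → E d)) ×ˢ
        ({X' | chainRun f z0 s J X' = q} : Set (Fin J → Fin w → E d))) := fun q =>
      (measurableSet_f hf J q z s).prod (MF_chainRun hf z0 s J q)
    rw [hset, hmp.measure_preimage_equiv, measure_iUnion _ hmeas, tsum_fintype]
    · change _ = ∑ q, Lz f z0 J q s * τ f J q z s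
      refine Finset.sum_congr rfl fun q _ => ?_
      rw [Measure.prod_prod, ih q, mul_comm]
      rfl
    · intro q q' hqq'
      refine Set.disjoint_left.mpr ?_
      rintro ⟨x, X'⟩ ⟨_, h2⟩ ⟨_, h4⟩
      exact hqq' (h2.symm.trans h4)

/-! ### The run of the sample by sample process -/

theorem FMeas_blockMap {g : Fin T → Z → E d → ℝ → Z}
    (hg : ∀ t q z', MeasurableSet {p : E d × ℝ | g t q p.1 p.2 = z'}) :
    FMeas (blockMap (w := w) g) := by
  intro j z z'
  have key : MF (fun p : (Fin w → E d) × (Fin w → ℝ) => blockMap (w := w) g j z p.1 p.2) := by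
    have e : (fun p : (Fin w → E d) × (Fin w → ℝ) => blockMap (w := w) g j z p.1 p.2) =
        fun p => natRun (natStep fun (i : Fin w) q => gN g (j * w + i) q (p.1 i) (p.2 i)) z w := by
      funext p
      exact foldl_finRange (fun (i : Fin w) q => gN g (j * w + i) q (p.1 i) (p.2 i)) z
    rw [e]
    refine MF.natRun (fun n q => ?_) w
    by_cases hn : n < w
    · simp only [natStep, hn, dif_pos]
      by_cases hT : j * w + n < T
      · simp only [gN, hT, dif_pos]
        intro z''
        have hm : Measurable (fun p : (Fin w → E d) × (Fin w → ℝ) => (p.1 ⟨n, hn⟩, p.2 ⟨n, hn⟩)) :=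
          ((measurable_pi_apply _).comp measurable_fst).prodMk
            ((measurable_pi_apply _).comp measurable_snd)
        exact hm (hg ⟨j * w + n, hT⟩ q z'')
      · simp only [gN, hT, dif_neg, not_false_eq_true]
        exact MF.const q
    · simp only [natStep, hn, dif_neg, not_false_eq_true]
      exact MF.const q
  exact key z'

/-- Measurability of the sample by sample run in `(s, xs)`. -/
theorem MF_runT {g : Fin T → Z → E d → ℝ → Z}
    (hg : ∀ t q z', MeasurableSet {p : E d × ℝ | g t q p.1 p.2 = z'}) (z0 : Z) :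
    MF (fun p : E d × (Fin T → E d) => runT g z0 p.1 p.2) := by
  have e : (fun p : E d × (Fin T → E d) => runT g z0 p.1 p.2) =
      fun p => natRun (natStep fun (t : Fin T) q => g t q (p.2 t) (inner ℝ (p.2 t) p.1)) z0 T := by
    funext p
    exact foldl_finRange (fun (t : Fin T) q => g t q (p.2 t) (inner ℝ (p.2 t) p.1)) z0
  rw [e]
  refine MF.natRun (fun n q => ?_) T
  by_cases hn : n < T
  · simp only [natStep, hn, dif_pos]
    intro z''
    have hm : Measurable (fun p : E d × (Fin T → E d) =>
        (p.2 ⟨n, hn⟩, (inner ℝ (p.2 ⟨n, hn⟩) p.1 : ℝ))) := by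
      have h1 : Measurable (fun p : E d × (Fin T → E d) => p.2 ⟨n, hn⟩) :=
        (measurable_pi_apply _).comp measurable_snd
      exact h1.prodMk (h1.inner measurable_fst)
    exact hm (hg ⟨n, hn⟩ q z'')
  · simp only [natStep, hn, dif_neg, not_false_eq_true]
    exact MF.const q

/-- The conditional law of the sample by sample run. -/
theorem measure_runT {g : Fin T → Z → E d → ℝ → Z}
    (hg : ∀ t q z', MeasurableSet {p : E d × ℝ | g t q p.1 p.2 = z'}) (z0 : Z) {J : ℕ}
    (hJ : T ≤ J * w) (s : E d) (z : Z) :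
    (Measure.pi fun _ : Fin T => stdGaussian (E d)) {xs | runT g z0 s xs = z} =
      Lz (blockMap (w := w) g) z0 J z s := by
  have hms : MeasurableSet {xs : Fin T → E d | runT g z0 s xs = z} :=
    (measurable_const.prodMk measurable_id) (MF_runT hg z0 z)
  rw [← map_pull (d := d) hJ, Measure.map_apply (measurable_pull hJ) hms,
    ← measure_chainRun (FMeas_blockMap hg) z0 s J z]
  congr 1
  ext X
  simp only [Set.mem_preimage, Set.mem_ofPred_eq]
  rw [runT_pull]

/-- **Main theorem of this file.** -/
theorem prod_run_eq (σ : Measure (Sphere d)) [IsProbabilityMeasure σ] {g : Fin T → Z → E d → ℝ → Z}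
    (hg : ∀ t q z', MeasurableSet {p : E d × ℝ | g t q p.1 p.2 = z'}) (z0 : Z) {J : ℕ}
    (hJ : T ≤ J * w) (A : Sphere d → Z → Prop) [∀ s z, Decidable (A s z)]
    (hA : ∀ z, MeasurableSet {s | A s z}) :
    (σ.prod (Measure.pi fun _ : Fin T => stdGaussian (E d)))
        {p : Sphere d × (Fin T → E d) | A p.1 (runT g z0 (p.1 : E d) p.2)} =
      ∫⁻ s : Sphere d, ∑ z, (if A s z then Lz (blockMap (w := w) g) z0 J z (s : E d) else 0) ∂σ := by
  have hms : MeasurableSet
      {p : Sphere d × (Fin T → E d) | A p.1 (runT g z0 (p.1 : E d) p.2)} := by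
    have : {p : Sphere d × (Fin T → E d) | A p.1 (runT g z0 (p.1 : E d) p.2)} =
        ⋃ z, ({p | runT g z0 (p.1 : E d) p.2 = z} ∩ {p | A p.1 z}) := by
      ext p
      simp only [Set.mem_ofPred_eq, Set.mem_iUnion, Set.mem_inter_iff]
      constructor
      · intro h
        exact ⟨_, rfl, h⟩
      · rintro ⟨z, rfl, h⟩
        exact h
    rw [this]
    refine MeasurableSet.iUnion fun z => ?_
    have hm : Measurable (fun p : Sphere d × (Fin T → E d) => ((p.1 : E d), p.2)) :=
      (measurable_subtype_coe.comp measurable_fst).prodMk measurable_snd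
    exact (hm (MF_runT hg z0 z)).inter (measurable_fst (hA z))
  rw [Measure.prod_apply hms]
  refine lintegral_congr fun s => ?_
  have hset : Prod.mk s ⁻¹' {p : Sphere d × (Fin T → E d) | A p.1 (runT g z0 (p.1 : E d) p.2)} =
      ⋃ z, {xs | A s z ∧ runT g z0 (s : E d) xs = z} := by
    ext xs
    simp only [Set.mem_preimage, Set.mem_ofPred_eq, Set.mem_iUnion]
    constructor
    · intro h
      exact ⟨_, h, rfl⟩
    · rintro ⟨z, h, rfl⟩
      exact h
  rw [hset, measure_iUnion _ _, tsum_fintype]
  · refine Finset.sum_congr rfl fun z _ => ?_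
    by_cases h : A s z
    · simp only [h, true_and, if_true]
      exact measure_runT hg z0 hJ (s : E d) z
    · simp [h]
  · intro z z' hzz'
    refine Set.disjoint_left.mpr ?_
    rintro xs ⟨_, h1⟩ ⟨_, h2⟩
    exact hzz' (h1.symm.trans h2)
  · intro z
    by_cases h : A s z
    · simp only [h, true_and]
      exact (measurable_const.prodMk measurable_id) (MF_runT hg z0 z)
    · simp [h]

end MemSample.BlockChain
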