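import Crest.Agent.Lib.MemSample.ReduceChain

/-!
# Row 322 (S0499): the final arithmetic

`final_of_bound`: the statement of S0499 follows from the block bound
`(d/8)(log₂(1/ε) - C) ≤ C d + J (12 log₂|Z|/d + C d)` for all `J ≥ 1` with `T ≤ J * (d/16)`
(rank lemma and counting are used for the small-`T` and small-`ε` regimes).
-/

set_option autoImplicit false

namespace Crest.Agent.Lib.MemSample.Combine

open MeasureTheory Set
open Crest.StreamLearn
open Crest.Agent.Lib.MemSample.ReduceChain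

variable {d T M : ℕ}

/-- From counting: `(d-1) log₂(1/ε) ≤ d + 1 + log₂ N`. -/
lemma log_bound_of_counting {N : ℕ} (hN : 0 < N) {ε : ℝ} (h0 : 0 < ε) (h1 : ε ≤ 1)
    (hd : 1 ≤ d) (h : 2 / 3 ≤ (N : ℝ) * (2 ^ d * ε ^ (d - 1))) :
    ((d : ℝ) - 1) * Real.logb 2 (1 / ε) ≤ d + 1 + Real.logb 2 N := by
  have hNpos : (0 : ℝ) < N := by exact_mod_cast hN
  have h2 : (0 : ℝ) < 2 ^ d * ε ^ (d - 1) := by positivity
  have hlog := Real.logb_le_logb_of_le (b := 2) (by norm_num) (by norm_num : (0 : ℝ) < 2 / 3) h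
  rw [Real.logb_mul hNpos.ne' h2.ne', Real.logb_mul (by positivity) (by positivity),
    Real.logb_pow, Real.logb_pow, Real.logb_self_eq_one (by norm_num)] at hlog
  have hl : Real.logb 2 (1 / ε) = - Real.logb 2 ε := by
    rw [one_div, Real.logb_inv]
  have h23 : -1 ≤ Real.logb 2 (2 / 3) := by
    rw [show (-1 : ℝ) = Real.logb 2 (1 / 2) by
      rw [one_div, Real.logb_inv, Real.logb_self_eq_one (by norm_num)]]
    exact Real.logb_le_logb_of_le (by norm_num) (by norm_num) (by norm_num)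
  have hc : ((d - 1 : ℕ) : ℝ) = (d : ℝ) - 1 := by
    rw [Nat.cast_sub hd]; simp
  rw [hc] at hlog
  rw [hl]
  nlinarith

/-- Bound on `log₂ (T+2)` when `T` is small compared with `d log₂(1/ε)`. -/
lemma log_T_bound {c L2 : ℝ} {T d M : ℕ} (hc : 0 < c) (hc1 : c ≤ 1) (hd : 2 ≤ d) (hL2 : 0 ≤ L2)
    (hT : (T : ℝ) < c * d * L2)
    (hcount : ((d : ℝ) - 1) * L2 ≤ d + 1 + (M + Real.logb 2 (T + 2))) :
    Real.logb 2 (T + 2) ≤ d + M + 9 := by
  set u := Real.logb 2 ((T : ℝ) + 2) with hu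
  have hy : (0 : ℝ) < (T : ℝ) + 2 := by positivity
  have hdr : (2 : ℝ) ≤ d := by exact_mod_cast hd
  -- `log₂ y ≤ y/4 + 3`
  have hlog : u ≤ ((T : ℝ) + 2) / 4 + 3 := by
    have h1 := Real.log_le_sub_one_of_pos (show (0 : ℝ) < ((T : ℝ) + 2) / 8 by positivity)
    rw [Real.log_div hy.ne' (by norm_num)] at h1
    have h8 : Real.log 8 = 3 * Real.log 2 := by
      rw [show (8 : ℝ) = 2 ^ 3 by norm_num, Real.log_pow]; norm_num
    have hl2 : (0.6931471803 : ℝ) < Real.log 2 := Real.log_two_gt_d9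
    rw [hu, Real.logb, div_le_iff₀ (by linarith)]
    rw [h8] at h1
    have hypos : (0 : ℝ) ≤ (T : ℝ) + 2 := hy.le
    nlinarith
  -- `d L2 ≤ 2 (d-1) L2`
  have h2 : (d : ℝ) * L2 ≤ 2 * (((d : ℝ) - 1) * L2) := by nlinarith
  have h3 : (T : ℝ) ≤ 2 * (d + 1 + (M + u)) := by
    calc (T : ℝ) ≤ c * d * L2 := hT.le
      _ = c * (d * L2) := by ring
      _ ≤ 1 * (d * L2) := by gcongr
      _ ≤ 2 * (((d : ℝ) - 1) * L2) := by linarith
      _ ≤ 2 * (d + 1 + (M + u)) := by linarith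
  linarith

/-- The final arithmetic: S0499 from the block bound. -/
theorem final_of_bound (C : ℝ) (hC : 0 < C) (d₁ : ℕ)
    (hbound : ∀ d ≥ d₁, ∀ (T M : ℕ) (ε : ℝ) (L : RLearner d T M), 0 < ε → ε ≤ 1 / 10 →
      2 / 3 ≤ L.successProb ε → ∀ J : ℕ, 1 ≤ J → T ≤ J * (d / 16) →
        ((d : ℝ) / 8) * (Real.logb 2 (1 / ε) - C) ≤
          C * d + J * (12 * Real.logb 2 (Fintype.card (ZT L)) / d + C * d)) :
    ∀ A : ℝ, 0 < A → ∃ c : ℝ, 0 < c ∧ ∃ d₀ : ℕ, ∀ d ≥ d₀, ∀ (M T : ℕ),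
      (M : ℝ) ≤ A * (d : ℝ) ^ 2 → ∀ ε : ℝ, 0 < ε → ε ≤ 1 / 10 →
        ∀ L : RLearner d T M,
          2 / 3 ≤ L.successProb ε → c * d * Real.log (1 / ε) ≤ T := by
  intro A hA
  set A' : ℝ := max A 1 with hA'
  have hA'1 : 1 ≤ A' := le_max_right _ _
  have hAA' : A ≤ A' := le_max_left _ _
  set K : ℝ := 36 * A' + C with hK
  have hKpos : 0 < K := by positivity
  set LA : ℝ := 2 * (9 * C + 8 * K) with hLA
  have hLApos : 0 < LA := by positivity
  set c : ℝ := min 1 (min (1 / (512 * K)) (1 / (4 * LA))) with hc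
  have hcpos : 0 < c := by positivity
  have hc1 : c ≤ 1 := min_le_left _ _
  have hc2 : c ≤ 1 / (512 * K) := (min_le_right _ _).trans (min_le_left _ _)
  have hc3 : c ≤ 1 / (4 * LA) := (min_le_right _ _).trans (min_le_right _ _)
  refine ⟨c, hcpos, max d₁ 64, ?_⟩
  intro d hd M T hM ε h0 h1 L hs
  have hd1 : d₁ ≤ d := (le_max_left _ _).trans hd
  have hd64 : 64 ≤ d := (le_max_right _ _).trans hd
  haveI : NeZero d := ⟨by omega⟩
  have hdr : (64 : ℝ) ≤ d := by exact_mod_cast hd64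
  have hdpos : (0 : ℝ) < d := by linarith
  -- logs
  have hε1 : 1 < 1 / ε := by
    rw [lt_div_iff₀ h0]; linarith
  set L2 := Real.logb 2 (1 / ε) with hL2
  have hL2pos : 0 < L2 := Real.logb_pos (by norm_num) hε1
  have hlog : Real.log (1 / ε) ≤ L2 := by
    have hlpos : 0 < Real.log (1 / ε) := Real.log_pos hε1
    have hl2 : Real.log 2 ≤ 1 := by
      have := Real.log_two_lt_d9; linarith
    have hl2pos : 0 < Real.log 2 := Real.log_pos (by norm_num)
    rw [hL2, Real.logb, le_div_iff₀ hl2pos]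
    nlinarith
  have hgoal : c * d * Real.log (1 / ε) ≤ c * d * L2 := by gcongr
  refine hgoal.trans ?_
  -- rank
  have hrank : (d : ℝ) < 4 * T := by
    by_contra hcon
    push Not at hcon
    have h4T : 4 * T ≤ d := by exact_mod_cast hcon
    have := Rank.rank_lemma h4T h0 h1 L
    linarith
  by_cases hsmall : L2 < LA
  · -- small accuracy
    have h2 : c * d * L2 ≤ (1 / (4 * LA)) * d * LA := by gcongr
    have h3 : (1 / (4 * LA)) * d * LA = d / 4 := by field_simp
    rw [h3] at h2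
    linarith
  push Not at hsmall
  by_contra hcon
  push Not at hcon
  -- counting
  have hπ : ε ≤ Real.pi := by linarith [Real.pi_gt_three]
  have hcount := ReduceChain.counting L h0 hπ hs
  have hNpos : 0 < Fintype.card (ZT L) := by
    have : Nonempty (ZT L) := by
      letI := L.mΩ
      haveI := L.prob
      obtain ⟨ω⟩ : Nonempty L.Ω := by
        by_contra hno
        rw [not_nonempty_iff] at hno
        have : L.ρ = 0 := Measure.eq_zero_of_isEmpty _
        exact IsProbabilityMeasure.ne_zero L.ρ this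
      exact ⟨z0F L ω⟩
    exact Fintype.card_pos
  have hcount' := Combine.log_bound_of_counting hNpos h0 (by linarith) (by omega) hcount
  -- N ≤ 2^M (T+2)
  have hN : Real.logb 2 (Fintype.card (ZT L)) ≤ M + Real.logb 2 (T + 2) := by
    have h2 : ((Fintype.card (ZT L) : ℕ) : ℝ) ≤ 2 ^ M * ((T : ℝ) + 2) := by
      exact_mod_cast card_ZT L
    have h3 := Real.logb_le_logb_of_le (b := 2) (by norm_num)
      (show (0 : ℝ) < (Fintype.card (ZT L) : ℝ) by exact_mod_cast hNpos) h2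
    rw [Real.logb_mul (by positivity) (by positivity), Real.logb_pow,
      Real.logb_self_eq_one (by norm_num), mul_one] at h3
    exact h3
  have hTlog : Real.logb 2 ((T : ℝ) + 2) ≤ d + M + 9 :=
    log_T_bound hcpos hc1 (by omega) hL2pos.le hcon (by linarith)
  have hMA : (M : ℝ) ≤ A' * (d : ℝ) ^ 2 := by
    refine hM.trans ?_
    gcongr
  have hNle : Real.logb 2 (Fintype.card (ZT L)) ≤ 3 * A' * (d : ℝ) ^ 2 := by
    have hd9 : (d : ℝ) + 9 ≤ (d : ℝ) ^ 2 := by nlinarith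
    have hd10 : (d : ℝ) ^ 2 ≤ A' * (d : ℝ) ^ 2 := by nlinarith [sq_nonneg (d : ℝ)]
    linarith
  -- the block bound
  set w := d / 16 with hw
  have hwpos : 0 < w := by omega
  set J := T / w + 1 with hJ
  have hTJ : T ≤ J * w := by
    have := Nat.lt_mul_div_succ T hwpos
    rw [mul_comm] at this
    exact this.le
  have hb := hbound d hd1 T M ε L h0 h1 hs J (Nat.le_add_left 1 (T / w)) hTJ
  have hJnn : (0 : ℝ) ≤ J := Nat.cast_nonneg _
  have h11 : 12 * Real.logb 2 (Fintype.card (ZT L)) / d ≤ 36 * A' * d := by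
    rw [div_le_iff₀ hdpos]
    nlinarith
  have hb2 : ((d : ℝ) / 8) * (L2 - C) ≤ C * d + J * (K * d) := by
    refine hb.trans ?_
    have : 12 * Real.logb 2 (Fintype.card (ZT L)) / d + C * d ≤ K * d := by
      rw [hK]; nlinarith
    have h' := mul_le_mul_of_nonneg_left this hJnn
    linarith
  have hb3 : L2 ≤ 9 * C + 8 * J * K := by
    have h1 : (d : ℝ) * (L2 - C) ≤ (d : ℝ) * (8 * C + 8 * J * K) := by nlinarith
    have h2 := le_of_mul_le_mul_left h1 hdpos
    linarith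
  -- `w ≥ d/32`
  have hwr : (d : ℝ) / 32 ≤ w := by
    have h1 : d ≤ 16 * w + 15 := by omega
    have h2 : (d : ℝ) ≤ 16 * w + 15 := by exact_mod_cast h1
    linarith
  have hwpos' : (0 : ℝ) < w := by exact_mod_cast hwpos
  have hJle : (J : ℝ) ≤ 32 * T / d + 1 := by
    have h1 : ((T / w : ℕ) : ℝ) ≤ (T : ℝ) / w := Nat.cast_div_le
    have h2 : (T : ℝ) / w ≤ 32 * T / d := by
      rw [div_le_div_iff₀ hwpos' hdpos]
      have hTnn : (0 : ℝ) ≤ T := Nat.cast_nonneg _
      nlinarith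
    rw [hJ]
    push_cast
    linarith
  have hb4 : L2 ≤ 9 * C + 8 * K + 256 * K * (T / d) := by
    have h1 : 8 * (J : ℝ) * K ≤ 8 * (32 * T / d + 1) * K := by gcongr
    have h2 : 8 * (32 * (T : ℝ) / d + 1) * K = 8 * K + 256 * K * (T / d) := by ring
    linarith
  have hb5 : L2 ≤ 512 * K * (T / d) := by
    have : 9 * C + 8 * K ≤ L2 / 2 := by
      rw [hLA] at hsmall; linarith
    linarith
  have hb6 : d * L2 ≤ 512 * K * T := by
    have h1 : (d : ℝ) * L2 ≤ d * (512 * K * (T / d)) := by gcongr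
    have h2 : (d : ℝ) * (512 * K * (T / d)) = 512 * K * T := by field_simp
    linarith
  have hb7 : c * d * L2 ≤ T := by
    have h1 : c * (d * L2) ≤ (1 / (512 * K)) * (512 * K * T) := by
      gcongr
    have h2 : (1 / (512 * K)) * (512 * K * (T : ℝ)) = T := by field_simp
    calc c * d * L2 = c * (d * L2) := by ring
      _ ≤ T := by rw [h2] at h1; exact h1
  exact absurd hcon (not_lt.2 hb7)

end Crest.Agent.Lib.MemSample.Combine
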