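import Crest.Agent.Lib.MemSample.SphereFacts

/-!
# Row 322 (S0499): level-`q` grid cubes on `E d`

`idx q x : Fin d → ℤ` is the index of the half-open cube of side `2^(-q)/√d` containing `x`.
Two points in the same cube are at distance `≤ 2^(-q)`; a ball of radius `R 2^(-q)` meets at most
`(3·2^(R+1))^d` cubes; a cube has `σ`-measure at most `2^d (2^(-q))^(d-1)`.
-/

set_option autoImplicit false

namespace Crest.Agent.Lib.MemSample.Cubes

open MeasureTheory Set
open Crest.StreamLearn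
open Crest.Agent.Lib.MemSample.SphereFacts

variable {d : ℕ}

/-- The mesh `2^(-q)`. -/
noncomputable def mesh (q : ℕ) : ℝ := (2 : ℝ)⁻¹ ^ q

lemma mesh_pos (q : ℕ) : 0 < mesh q := by unfold mesh; positivity

/-- The side of a level-`q` cube. -/
noncomputable def side (d q : ℕ) : ℝ := mesh q / Real.sqrt d

lemma side_pos [NeZero d] (q : ℕ) : 0 < side d q := by
  have hd : (0 : ℝ) < d := by exact_mod_cast Nat.pos_of_ne_zero (NeZero.ne d)
  exact div_pos (mesh_pos q) (Real.sqrt_pos.2 hd)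

/-- The index of the level-`q` cube containing `x`. -/
noncomputable def idx (q : ℕ) (x : E d) : Fin d → ℤ := fun i => ⌊x i / side d q⌋

lemma measurable_idx (q : ℕ) : Measurable (idx (d := d) q) := by
  refine measurable_pi_lambda _ fun i => ?_
  refine Int.measurable_floor.comp ?_
  exact (measurable_pi_apply i |>.comp (MeasurableEquiv.toLp 2 (Fin d → ℝ)).symm.measurable).div_const _

/-- The level-`q` cube of index `m`. -/
def cube (q : ℕ) (m : Fin d → ℤ) : Set (E d) := {x | idx q x = m}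

lemma measurableSet_cube (q : ℕ) (m : Fin d → ℤ) : MeasurableSet (cube q m) :=
  measurable_idx q (measurableSet_singleton m)

lemma mem_cube_idx (q : ℕ) (x : E d) : x ∈ cube q (idx q x) := rfl

lemma cube_disjoint (q : ℕ) {m m' : Fin d → ℤ} (h : m ≠ m') : Disjoint (cube q m) (cube q m') := by
  rw [Set.disjoint_left]
  intro x hx hx'
  exact h (hx.symm.trans hx')

/-- Two points of one cube are at distance `≤ 2^(-q)`. -/
theorem norm_sub_le_of_idx_eq [NeZero d] {q : ℕ} {x y : E d} (h : idx q x = idx q y) :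
    ‖x - y‖ ≤ mesh q := by
  have hs := side_pos (d := d) q
  have hd : (0 : ℝ) < d := by exact_mod_cast Nat.pos_of_ne_zero (NeZero.ne d)
  have hcoord : ∀ i, |x i - y i| ≤ side d q := by
    intro i
    have hi : ⌊x i / side d q⌋ = ⌊y i / side d q⌋ := congrFun h i
    have h1 := Int.abs_sub_lt_one_of_floor_eq_floor hi
    have h2 : x i / side d q - y i / side d q = (x i - y i) / side d q := by ring
    rw [h2, abs_div, abs_of_pos hs, div_lt_one hs] at h1
    exact h1.le
  have hsq : ‖x - y‖ ^ 2 ≤ mesh q ^ 2 := by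
    rw [EuclideanSpace.real_norm_sq_eq]
    calc ∑ i, ((x - y) i) ^ 2 ≤ ∑ _i : Fin d, side d q ^ 2 := by
          refine Finset.sum_le_sum fun i _ => ?_
          have : (x - y) i = x i - y i := rfl
          rw [this, ← sq_abs]
          gcongr
          exact hcoord i
      _ = mesh q ^ 2 := by
          simp only [Finset.sum_const, Finset.card_univ, Fintype.card_fin, nsmul_eq_mul, side]
          rw [div_pow, Real.sq_sqrt hd.le]
          field_simp
  exact (pow_le_pow_iff_left₀ (norm_nonneg _) (mesh_pos q).le (by norm_num)).1 hsq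

/-! ### Counting lattice points -/

lemma sum_Icc_le (S : ℕ) :
    ∑ m ∈ Finset.Icc (-(S : ℤ)) S, (2 : ℝ)⁻¹ ^ m.natAbs ≤ 3 - 2 * (2 : ℝ)⁻¹ ^ S := by
  induction S with
  | zero => norm_num
  | succ S ih =>
    have hset : Finset.Icc (-((S + 1 : ℕ) : ℤ)) ((S + 1 : ℕ) : ℤ) =
        insert ((S + 1 : ℕ) : ℤ) (insert (-((S + 1 : ℕ) : ℤ)) (Finset.Icc (-(S : ℤ)) S)) := by
      ext m
      simp only [Finset.mem_Icc, Finset.mem_insert]
      push_cast
      omega
    rw [hset, Finset.sum_insert, Finset.sum_insert]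
    · have h1 : ((S + 1 : ℕ) : ℤ).natAbs = S + 1 := Int.natAbs_natCast _
      have h2 : (-((S + 1 : ℕ) : ℤ)).natAbs = S + 1 := by rw [Int.natAbs_neg]; exact Int.natAbs_natCast _
      rw [h1, h2]
      have h3 : (2 : ℝ)⁻¹ ^ (S + 1) = (2 : ℝ)⁻¹ ^ S * 2⁻¹ := pow_succ _ _
      rw [h3]
      linarith
    · simp only [Finset.mem_Icc, not_and, not_le]
      push_cast
      omega
    · simp only [Finset.mem_insert, Finset.mem_Icc, not_or, not_and, not_le]
      push_cast
      constructor <;> omega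

lemma sum_Icc_le_three (S : ℕ) :
    ∑ m ∈ Finset.Icc (-(S : ℤ)) S, (2 : ℝ)⁻¹ ^ m.natAbs ≤ 3 := by
  have := sum_Icc_le S
  have h : (0 : ℝ) ≤ 2 * (2 : ℝ)⁻¹ ^ S := by positivity
  linarith

/-- The set of lattice points with `ℓ¹`-norm at most `S`. -/
noncomputable def l1Ball (d S : ℕ) : Finset (Fin d → ℤ) :=
  (Fintype.piFinset fun _ : Fin d => Finset.Icc (-(S : ℤ)) S).filter
    fun n => ∑ i, (n i).natAbs ≤ S

lemma mem_l1Ball {S : ℕ} {n : Fin d → ℤ} (h : ∑ i, (n i).natAbs ≤ S) : n ∈ l1Ball d S := by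
  refine Finset.mem_filter.2 ⟨Fintype.mem_piFinset.2 fun i => ?_, h⟩
  have h1 : (n i).natAbs ≤ ∑ j, (n j).natAbs :=
    Finset.single_le_sum (f := fun j => (n j).natAbs) (fun _ _ => Nat.zero_le _) (Finset.mem_univ i)
  have h2 : (n i).natAbs ≤ S := h1.trans h
  rw [Finset.mem_Icc]
  omega

/-- `#{n ∈ ℤ^d : |n|₁ ≤ S} ≤ 3^d 2^S`. -/
theorem card_l1Ball_le (d S : ℕ) : ((l1Ball d S).card : ℝ) ≤ 3 ^ d * 2 ^ S := by
  classical
  have hprod : ∏ _i : Fin d, ∑ m ∈ Finset.Icc (-(S : ℤ)) S, (2 : ℝ)⁻¹ ^ m.natAbs =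
      ∑ n ∈ Fintype.piFinset (fun _ : Fin d => Finset.Icc (-(S : ℤ)) S),
        ∏ i, (2 : ℝ)⁻¹ ^ (n i).natAbs :=
    Finset.prod_univ_sum _ _
  have hle3 : ∏ _i : Fin d, ∑ m ∈ Finset.Icc (-(S : ℤ)) S, (2 : ℝ)⁻¹ ^ m.natAbs ≤ 3 ^ d := by
    calc ∏ _i : Fin d, ∑ m ∈ Finset.Icc (-(S : ℤ)) S, (2 : ℝ)⁻¹ ^ m.natAbs
        ≤ ∏ _i : Fin d, (3 : ℝ) :=
          Finset.prod_le_prod (fun _ _ => Finset.sum_nonneg fun _ _ => by positivity)
            (fun _ _ => sum_Icc_le_three S)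
      _ = 3 ^ d := by simp
  have hlow : ((l1Ball d S).card : ℝ) * (2 : ℝ)⁻¹ ^ S ≤
      ∑ n ∈ l1Ball d S, ∏ i, (2 : ℝ)⁻¹ ^ (n i).natAbs := by
    rw [← nsmul_eq_mul]
    apply Finset.card_nsmul_le_sum
    intro n hn
    rw [Finset.prod_pow_eq_pow_sum]
    exact pow_le_pow_of_le_one (by positivity) (by norm_num) (Finset.mem_filter.1 hn).2
  have hsub : ∑ n ∈ l1Ball d S, ∏ i, (2 : ℝ)⁻¹ ^ (n i).natAbs ≤
      ∑ n ∈ Fintype.piFinset (fun _ : Fin d => Finset.Icc (-(S : ℤ)) S),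
        ∏ i, (2 : ℝ)⁻¹ ^ (n i).natAbs :=
    Finset.sum_le_sum_of_subset_of_nonneg (Finset.filter_subset _ _)
      (fun _ _ _ => by positivity)
  have hfin : ((l1Ball d S).card : ℝ) * (2 : ℝ)⁻¹ ^ S ≤ 3 ^ d := by
    rw [← hprod] at hsub
    linarith
  have h2 : (2 : ℝ)⁻¹ ^ S * 2 ^ S = 1 := by
    rw [← mul_pow]; norm_num
  calc ((l1Ball d S).card : ℝ) = ((l1Ball d S).card : ℝ) * ((2 : ℝ)⁻¹ ^ S * 2 ^ S) := by
        rw [h2, mul_one]
    _ = (((l1Ball d S).card : ℝ) * (2 : ℝ)⁻¹ ^ S) * 2 ^ S := by ring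
    _ ≤ 3 ^ d * 2 ^ S := by gcongr

/-! ### Balls meet few cubes -/

/-- `|⌊u⌋ - ⌊v⌋| ≤ |u-v| + 1`. -/
lemma natAbs_floor_sub_le (u v : ℝ) : ((⌊u⌋ - ⌊v⌋).natAbs : ℝ) ≤ |u - v| + 1 := by
  have h1 := Int.floor_le u
  have h2 := Int.lt_floor_add_one u
  have h3 := Int.floor_le v
  have h4 := Int.lt_floor_add_one v
  have h5 : ((⌊u⌋ - ⌊v⌋).natAbs : ℝ) = |((⌊u⌋ : ℝ) - (⌊v⌋ : ℝ))| := by
    rw [Nat.cast_natAbs]
    push_cast
    rfl
  rw [h5, abs_le]
  have h6 := le_abs_self (u - v)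
  have h7 := neg_abs_le (u - v)
  constructor <;> linarith

/-- The ball of radius `R 2^(-q)` around `x` meets at most `(3·2^(R+1))^d` cubes of level `q`. -/
theorem exists_cover [NeZero d] (R q : ℕ) (x : E d) :
    ∃ F : Finset (Fin d → ℤ), (F.card : ℝ) ≤ (3 * 2 ^ (R + 1)) ^ d ∧
      ∀ y : E d, ‖y - x‖ ≤ R * mesh q → idx q y ∈ F := by
  classical
  have hs := side_pos (d := d) q
  have hd : (0 : ℝ) < d := by exact_mod_cast Nat.pos_of_ne_zero (NeZero.ne d)
  let a := idx q x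
  let S := (R + 1) * d
  refine ⟨(l1Ball d S).image (fun n => n + a), ?_, ?_⟩
  · have h1 : (((l1Ball d S).image (fun n => n + a)).card : ℝ) ≤ (l1Ball d S).card := by
      exact_mod_cast Finset.card_image_le
    refine h1.trans ((card_l1Ball_le d S).trans ?_)
    rw [mul_pow, ← pow_mul]
  · intro y hy
    refine Finset.mem_image.2 ⟨idx q y - a, mem_l1Ball ?_, by simp⟩
    -- the ℓ¹ bound
    have hcoord : ∀ i, (((idx q y - a) i).natAbs : ℝ) ≤ |y i - x i| / side d q + 1 := by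
      intro i
      have h := natAbs_floor_sub_le (y i / side d q) (x i / side d q)
      have h2 : y i / side d q - x i / side d q = (y i - x i) / side d q := by ring
      rw [h2, abs_div, abs_of_pos hs] at h
      exact h
    have hcs : ∑ i, |y i - x i| ≤ Real.sqrt d * ‖y - x‖ := by
      have h1 : (∑ i, |y i - x i|) ^ 2 ≤ (Finset.univ : Finset (Fin d)).card * ∑ i, |y i - x i| ^ 2 :=
        sq_sum_le_card_mul_sum_sq
      have h2 : ∑ i, |y i - x i| ^ 2 = ‖y - x‖ ^ 2 := by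
        rw [EuclideanSpace.real_norm_sq_eq]
        refine Finset.sum_congr rfl fun i _ => ?_
        rw [sq_abs]; rfl
      rw [h2] at h1
      simp only [Finset.card_univ, Fintype.card_fin] at h1
      have h3 : (∑ i, |y i - x i|) ^ 2 ≤ (Real.sqrt d * ‖y - x‖) ^ 2 := by
        rw [mul_pow, Real.sq_sqrt hd.le]
        exact h1
      exact (pow_le_pow_iff_left₀ (Finset.sum_nonneg fun _ _ => abs_nonneg _) (by positivity)
        (by norm_num)).1 h3
    have hsum : (∑ i, ((idx q y - a) i).natAbs : ℝ) ≤ ((R + 1) * d : ℕ) := by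
      calc (∑ i, (((idx q y - a) i).natAbs : ℝ))
          ≤ ∑ i, (|y i - x i| / side d q + 1) := Finset.sum_le_sum fun i _ => hcoord i
        _ = (∑ i, |y i - x i|) / side d q + d := by
            rw [Finset.sum_add_distrib, Finset.sum_div]; simp
        _ ≤ (Real.sqrt d * (R * mesh q)) / side d q + d := by
            gcongr
            exact hcs.trans (by gcongr)
        _ = ((R + 1) * d : ℕ) := by
            have hsq : Real.sqrt d * Real.sqrt d = d := Real.mul_self_sqrt hd.le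
            have hsqpos : 0 < Real.sqrt d := Real.sqrt_pos.2 hd
            have hm := (mesh_pos q).ne'
            simp only [side]
            push_cast
            field_simp
            rw [Real.sq_sqrt hd.le]
            ring
    have : ∑ i, ((idx q y - a) i).natAbs ≤ (R + 1) * d := by
      have h' : ((∑ i, ((idx q y - a) i).natAbs : ℕ) : ℝ) ≤ ((R + 1) * d : ℕ) := by
        push_cast at hsum ⊢
        exact hsum
      exact_mod_cast h'
    exact this

/-- All cubes meeting the unit sphere, at level `0`: at most `12^d`. -/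
theorem exists_cover_sphere [NeZero d] :
    ∃ F : Finset (Fin d → ℤ), (F.card : ℝ) ≤ 12 ^ d ∧ ∀ s : Sphere d, idx 0 (s : E d) ∈ F := by
  obtain ⟨F, hF, h⟩ := exists_cover (d := d) 1 0 (0 : E d)
  refine ⟨F, ?_, fun s => h _ ?_⟩
  · refine hF.trans (le_of_eq ?_)
    norm_num
  · have hsn : ‖(s : E d)‖ = 1 := by simpa using s.2
    simp [hsn, mesh]

/-- Measure of a ball from measures of cubes. -/
theorem measure_ball_le_of_cubes [NeZero d] (μ : Measure (E d)) (R q : ℕ) (x : E d) {η : ENNReal}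
    (h : ∀ m, μ (cube q m) ≤ η) :
    μ {y | ‖y - x‖ ≤ R * mesh q} ≤ ENNReal.ofReal ((3 * 2 ^ (R + 1)) ^ d) * η := by
  classical
  obtain ⟨F, hF, hcov⟩ := exists_cover (d := d) R q x
  have hsub : {y | ‖y - x‖ ≤ R * mesh q} ⊆ ⋃ m ∈ F, cube q m := by
    intro y hy
    exact mem_biUnion (hcov y hy) rfl
  calc μ {y | ‖y - x‖ ≤ R * mesh q} ≤ μ (⋃ m ∈ F, cube q m) := measure_mono hsub
    _ ≤ ∑ m ∈ F, μ (cube q m) := measure_biUnion_finset_le _ _
    _ ≤ ∑ _m ∈ F, η := Finset.sum_le_sum fun m _ => h m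
    _ = (F.card : ENNReal) * η := by simp
    _ ≤ ENNReal.ofReal ((3 * 2 ^ (R + 1)) ^ d) * η := by
        gcongr
        rw [← ENNReal.ofReal_natCast]
        exact ENNReal.ofReal_le_ofReal hF

/-- A cube has `σ`-measure at most `2^d (2^(-q))^(d-1)`. -/
theorem sphere_cube_le [NeZero d] (q : ℕ) (m : Fin d → ℤ) :
    sphereUniform d {s : Sphere d | (s : E d) ∈ cube q m} ≤
      ENNReal.ofReal (2 ^ d * mesh q ^ (d - 1)) := by
  by_cases hne : ∃ s0 : Sphere d, (s0 : E d) ∈ cube q m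
  · obtain ⟨s0, hs0⟩ := hne
    refine (measure_mono ?_).trans (cap_le (s0 : E d) (mesh_pos q))
    intro s hs
    have hs' : idx q (s : E d) = m := hs
    have hs0' : idx q (s0 : E d) = m := hs0
    exact norm_sub_le_of_idx_eq (hs'.trans hs0'.symm)
  · have : {s : Sphere d | (s : E d) ∈ cube q m} = ∅ := by
      ext s
      simp only [mem_setOf_eq, mem_empty_iff_false, iff_false]
      exact fun h => hne ⟨s, h⟩
    rw [this]; simp

end Crest.Agent.Lib.MemSample.Cubes
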