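import Mathlib

/-!
# Abstract potential argument for the memory-sample lower bound (row 322, S0499)

Abstract probability space `(S, σ)`, countable nested levels `cube q : S → α`, finite memory
alphabet `Z`.  No Gaussians here: the Window Lemma enters as a hypothesis.
All logarithms are natural.
-/

set_option autoImplicit false

namespace MemSample.Potential

open MeasureTheory Real Set

/-! ### Real inequalities -/

lemma mul_log_div_le {x y : ℝ} (hx : 0 ≤ x) (hy : 0 ≤ y) (h : 0 < x → 0 < y) :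
    x * log (y / x) ≤ y - x := by
  rcases hx.eq_or_lt with rfl | hx'
  · simpa using hy
  · have hy' := h hx'
    have h1 := Real.log_le_sub_one_of_pos (div_pos hy' hx')
    calc x * log (y / x) ≤ x * (y / x - 1) := by gcongr
      _ = y - x := by field_simp

lemma abs_mul_log_le_one {x : ℝ} (hx0 : 0 ≤ x) (hx1 : x ≤ 1) : |x * log x| ≤ 1 := by
  rcases hx0.eq_or_lt with rfl | hx
  · simp
  · have := Real.abs_log_mul_self_lt x hx hx1
    rw [mul_comm]; exact this.le

/-- `|x log g| ≤ 1` when `0 ≤ x ≤ g ≤ 1`. -/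
lemma abs_mul_log_le_of_le {x g : ℝ} (hx0 : 0 ≤ x) (hxg : x ≤ g) (hg1 : g ≤ 1) :
    |x * log g| ≤ 1 := by
  have hg0 : 0 ≤ g := hx0.trans hxg
  have h1 : |x * log g| ≤ |g * log g| := by
    rw [abs_mul, abs_mul, abs_of_nonneg hx0, abs_of_nonneg hg0]
    gcongr
  exact h1.trans (abs_mul_log_le_one hg0 hg1)

/-! ### Level data -/

variable {S : Type*} [MeasurableSpace S] {σ : Measure S} {α : Type*}

/-- The level structure: cells of every level, their measure decays geometrically. -/
structure LevelData (σ : Measure S) (α : Type*) where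
  cube : ℕ → S → α
  cell_meas : ∀ q c, MeasurableSet {s | cube q s = c}
  a : ℝ
  b : ℝ
  B : ℝ
  a_pos : 0 < a
  b_pos : 0 < b
  B_nonneg : 0 ≤ B
  size : ∀ q c, σ.real {s | cube q s = c} ≤ exp (B - (a + b) * q)
  fin0 : (range (cube 0)).Finite

/-- Admissible densities: measurable with values in `[0,1]`. -/
structure Good (ℓ : S → ℝ) : Prop where
  meas : Measurable ℓ
  nonneg : ∀ s, 0 ≤ ℓ s
  le_one : ∀ s, ℓ s ≤ 1

namespace LevelData

variable [IsProbabilityMeasure σ] (D : LevelData σ α)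

/-- cell of level `q` with index `c` -/
def cell (q : ℕ) (c : α) : Set S := {s | D.cube q s = c}

/-- mass of `ℓ` on a cell -/
noncomputable def mass (ℓ : S → ℝ) (q : ℕ) (c : α) : ℝ := ∫ s in D.cell q c, ℓ s ∂σ

/-- the Frostman function at level `q` -/
noncomputable def val (ℓ : S → ℝ) (q : ℕ) (s : S) : ℝ :=
  D.mass ℓ q (D.cube q s) * exp (D.b * q)

/-- smallest maximising level -/
noncomputable def Fmax (ℓ : S → ℝ) (s : S) : ℕ := sInf {q | ∀ q', D.val ℓ q' s ≤ D.val ℓ q s}

variable {D}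

lemma Good.integrable {ℓ : S → ℝ} (h : Good ℓ) : Integrable ℓ σ := by
  refine Integrable.of_bound h.meas.aestronglyMeasurable 1 (Filter.Eventually.of_forall fun s => ?_)
  rw [Real.norm_eq_abs, abs_of_nonneg (h.nonneg s)]; exact h.le_one s

lemma mass_nonneg {ℓ : S → ℝ} (h : Good ℓ) (q : ℕ) (c : α) : 0 ≤ D.mass ℓ q c :=
  setIntegral_nonneg (D.cell_meas q c) fun s _ => h.nonneg s

lemma mass_le_measure {ℓ : S → ℝ} (h : Good ℓ) (q : ℕ) (c : α) :
    D.mass ℓ q c ≤ σ.real (D.cell q c) := by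
  have h1 : D.mass ℓ q c ≤ ∫ _s in D.cell q c, (1 : ℝ) ∂σ :=
    setIntegral_mono_on (Good.integrable h).integrableOn (integrable_const _).integrableOn
      (D.cell_meas q c) fun s _ => h.le_one s
  simpa using h1

lemma mass_le_size {ℓ : S → ℝ} (h : Good ℓ) (q : ℕ) (c : α) :
    D.mass ℓ q c ≤ exp (D.B - (D.a + D.b) * q) :=
  (mass_le_measure h q c).trans (D.size q c)

lemma val_nonneg {ℓ : S → ℝ} (h : Good ℓ) (q : ℕ) (s : S) : 0 ≤ D.val ℓ q s :=
  mul_nonneg (mass_nonneg h q _) (exp_pos _).le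

lemma val_le {ℓ : S → ℝ} (h : Good ℓ) (q : ℕ) (s : S) :
    D.val ℓ q s ≤ exp (D.B - D.a * q) := by
  unfold val
  calc _ ≤ exp (D.B - (D.a + D.b) * q) * exp (D.b * q) := by
        gcongr; exact mass_le_size h q _
    _ = exp (D.B - D.a * q) := by rw [← exp_add]; congr 1; ring

lemma exists_max {ℓ : S → ℝ} (h : Good ℓ) (s : S) :
    {q | ∀ q', D.val ℓ q' s ≤ D.val ℓ q s}.Nonempty := by
  by_cases h0 : ∀ q, D.val ℓ q s = 0
  · exact ⟨0, fun q' => by rw [h0 q', h0 0]⟩
  · push Not at h0
    obtain ⟨q0, hq0⟩ := h0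
    have hq0pos : 0 < D.val ℓ q0 s := lt_of_le_of_ne (val_nonneg h q0 s) (Ne.symm hq0)
    -- beyond `K` the value is below `val q0`
    obtain ⟨K, hK⟩ : ∃ K : ℕ, exp (D.B - D.a * K) < D.val ℓ q0 s := by
      obtain ⟨K, hK⟩ := exists_nat_gt ((D.B - log (D.val ℓ q0 s)) / D.a)
      refine ⟨K, ?_⟩
      rw [← lt_log_iff_exp_lt hq0pos]
      have := (div_lt_iff₀ D.a_pos).1 hK
      linarith
    have hne : (Finset.range (max K q0 + 1)).Nonempty := ⟨0, by simp⟩
    obtain ⟨m, -, hm⟩ := Finset.exists_max_image (Finset.range (max K q0 + 1))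
      (fun q => D.val ℓ q s) hne
    refine ⟨m, fun q' => ?_⟩
    by_cases hq' : q' ∈ Finset.range (max K q0 + 1)
    · exact hm q' hq'
    · have hq0m : D.val ℓ q0 s ≤ D.val ℓ m s := hm q0 (by simp)
      have hKq' : K ≤ q' := by
        simp only [Finset.mem_range, not_lt] at hq'
        omega
      have h1 : D.val ℓ q' s ≤ exp (D.B - D.a * K) := by
        refine (val_le h q' s).trans ?_
        apply exp_le_exp.2
        have : (K : ℝ) ≤ q' := by exact_mod_cast hKq'
        have := D.a_pos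
        nlinarith
      linarith

lemma Fmax_spec {ℓ : S → ℝ} (h : Good ℓ) (s : S) (q' : ℕ) :
    D.val ℓ q' s ≤ D.val ℓ (D.Fmax ℓ s) s :=
  Nat.sInf_mem (exists_max h s) q'

/-! ### Measurability -/

variable [Countable α]

lemma measurable_comp_cube (φ : α → ℝ) (q : ℕ) : Measurable fun s => φ (D.cube q s) := by
  intro t _
  have : (fun s => φ (D.cube q s)) ⁻¹' t = ⋃ c ∈ {c | φ c ∈ t}, {s | D.cube q s = c} := by
    ext s; simp
  rw [this]
  exact MeasurableSet.biUnion (Set.to_countable _) fun c _ => D.cell_meas q c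

lemma measurable_val (ℓ : S → ℝ) (q : ℕ) : Measurable (D.val ℓ q) :=
  measurable_comp_cube (fun c => D.mass ℓ q c * exp (D.b * q)) q

lemma measurableSet_isMax (ℓ : S → ℝ) (q : ℕ) :
    MeasurableSet {s | ∀ q', D.val ℓ q' s ≤ D.val ℓ q s} := by
  have : {s | ∀ q', D.val ℓ q' s ≤ D.val ℓ q s} = ⋂ q', {s | D.val ℓ q' s ≤ D.val ℓ q s} := by
    ext s; simp
  rw [this]
  exact MeasurableSet.iInter fun q' => measurableSet_le (measurable_val ℓ q') (measurable_val ℓ q)

lemma measurable_Fmax {ℓ : S → ℝ} (h : Good ℓ) : Measurable (D.Fmax ℓ) := by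
  apply measurable_to_countable'
  intro q
  have : D.Fmax ℓ ⁻¹' {q} = {s | ∀ q', D.val ℓ q' s ≤ D.val ℓ q s} ∩
      ⋂ r ∈ Finset.range q, {s | ∀ q', D.val ℓ q' s ≤ D.val ℓ r s}ᶜ := by
    ext s
    simp only [mem_preimage, mem_singleton_iff, mem_inter_iff, Set.mem_ofPred_eq, mem_iInter,
      Finset.mem_range, mem_compl_iff]
    constructor
    · rintro rfl
      refine ⟨Fmax_spec h s, fun r hr => Nat.notMem_of_lt_sInf hr⟩
    · rintro ⟨h1, h2⟩
      apply le_antisymm
      · exact Nat.sInf_le h1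
      · by_contra hlt
        push Not at hlt
        exact h2 _ hlt (Fmax_spec h s)
  rw [this]
  refine (measurableSet_isMax ℓ q).inter ?_
  exact Finset.measurableSet_biInter _ fun r _ => (measurableSet_isMax ℓ r).compl

lemma measurable_valF {ℓ : S → ℝ} (h : Good ℓ) :
    Measurable fun s => D.val ℓ (D.Fmax ℓ s) s := by
  have h1 : Measurable fun p : ℕ × S => D.val ℓ p.1 p.2 :=
    measurable_from_prod_countable_right fun q => measurable_val ℓ q
  exact h1.comp ((measurable_Fmax h).prodMk measurable_id)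

/-! ### The potential -/

variable (D) in
/-- potential integrand -/
noncomputable def pot (ℓ : S → ℝ) (s : S) : ℝ :=
  ℓ s * log (ℓ s / D.val ℓ (D.Fmax ℓ s) s)

lemma measurable_pot {ℓ : S → ℝ} (h : Good ℓ) : Measurable (D.pot ℓ) :=
  h.meas.mul ((h.meas.div (measurable_valF h)).log)

/-- a cell of zero mass carries no density a.e.; hence a.e. the level-0 cell of `s` has positive
mass wherever `ℓ s > 0`. -/
lemma ae_mass0_pos {ℓ : S → ℝ} (h : Good ℓ) :
    ∀ᵐ s ∂σ, 0 < ℓ s → 0 < D.mass ℓ 0 (D.cube 0 s) := by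
  have key : ∀ c : α, ∀ᵐ s ∂σ, D.cube 0 s = c → 0 < ℓ s → 0 < D.mass ℓ 0 c := by
    intro c
    by_cases hc : 0 < D.mass ℓ 0 c
    · exact Filter.Eventually.of_forall fun s _ _ => hc
    · have hc0 : D.mass ℓ 0 c = 0 := le_antisymm (not_lt.1 hc) (mass_nonneg h 0 c)
      have h1 : ∫ s in D.cell 0 c, ℓ s ∂σ = 0 := hc0
      have h2 := (setIntegral_eq_zero_iff_of_nonneg_ae
        (Filter.Eventually.of_forall fun s => h.nonneg s) (Good.integrable h).integrableOn).1 h1
      have h3 : ∀ᵐ s ∂σ, s ∈ D.cell 0 c → ℓ s = 0 :=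
        (ae_restrict_iff' (D.cell_meas 0 c)).1 h2
      filter_upwards [h3] with s hs hsc hpos
      have := hs hsc
      linarith
  filter_upwards [ae_all_iff.2 key] with s hs hpos
  exact hs _ rfl hpos

/-- the bound for `log val` on the relevant part -/
lemma integrable_pot {ℓ : S → ℝ} (h : Good ℓ) : Integrable (D.pot ℓ) σ := by
  classical
  let R : Finset α := D.fin0.toFinset
  let K : ℝ := ∑ c ∈ R, |log (D.mass ℓ 0 c)|
  refine Integrable.of_bound (measurable_pot h).aestronglyMeasurable (1 + (D.B + K)) ?_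
  filter_upwards [ae_mass0_pos (D := D) h] with s hs
  have hK0 : 0 ≤ K := Finset.sum_nonneg fun c _ => abs_nonneg _
  have hB := D.B_nonneg
  unfold pot
  rw [Real.norm_eq_abs]
  rcases (h.nonneg s).eq_or_lt with h0 | hpos
  · rw [← h0]; simp; linarith
  have hm := hs hpos
  have hmem : D.cube 0 s ∈ R := by simp [R]
  have hlogm : |log (D.mass ℓ 0 (D.cube 0 s))| ≤ K :=
    Finset.single_le_sum (f := fun c => |log (D.mass ℓ 0 c)|) (fun c _ => abs_nonneg _) hmem
  set v := D.val ℓ (D.Fmax ℓ s) s with hv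
  have hv0 : D.val ℓ 0 s = D.mass ℓ 0 (D.cube 0 s) := by simp [val]
  have hvge : D.mass ℓ 0 (D.cube 0 s) ≤ v := by rw [← hv0]; exact Fmax_spec h s 0
  have hvpos : 0 < v := lt_of_lt_of_le hm hvge
  have hvle : v ≤ exp D.B := by
    refine (val_le h _ s).trans (exp_le_exp.2 ?_)
    have := D.a_pos
    have h3 : (0 : ℝ) ≤ (D.Fmax ℓ s : ℝ) := Nat.cast_nonneg _
    nlinarith
  have hlogv : |log v| ≤ D.B + K := by
    rw [abs_le]
    constructor
    · have h4 : log (D.mass ℓ 0 (D.cube 0 s)) ≤ log v := log_le_log hm hvge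
      have h5 := (abs_le.1 hlogm).1
      linarith
    · have h4 : log v ≤ D.B := by simpa using log_le_log hvpos hvle
      linarith
  rw [log_div hpos.ne' hvpos.ne', mul_sub]
  have h6 := abs_mul_log_le_one (h.nonneg s) (h.le_one s)
  have h7 : |ℓ s * log v| ≤ D.B + K := by
    rw [abs_mul, abs_of_nonneg (h.nonneg s)]
    calc ℓ s * |log v| ≤ 1 * |log v| := by gcongr; exact h.le_one s
      _ ≤ D.B + K := by simpa using hlogv
  calc |ℓ s * log (ℓ s) - ℓ s * log v| ≤ |ℓ s * log (ℓ s)| + |ℓ s * log v| := abs_sub _ _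
    _ ≤ 1 + (D.B + K) := by gcongr

/-! ### Bounded integrands -/

omit [IsProbabilityMeasure σ] [Countable α] in
/-- pointwise bound used for integrability of `x log (g / K)` -/
lemma abs_mul_log_div_le {x g K : ℝ} (hx0 : 0 ≤ x) (hxg : x ≤ g) (hg1 : g ≤ 1) (hK : 0 ≤ K) :
    |x * log (g / K)| ≤ 1 + |log K| := by
  rcases hx0.eq_or_lt with rfl | hx
  · simp; positivity
  have hg : 0 < g := hx.trans_le hxg
  rcases hK.eq_or_lt with rfl | hK'
  · simp
  rw [log_div hg.ne' hK'.ne', mul_sub]
  have h1 := abs_mul_log_le_of_le hx0 hxg hg1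
  have hx1 : x ≤ 1 := hxg.trans hg1
  have h2 : |x * log K| ≤ |log K| := by
    rw [abs_mul, abs_of_nonneg hx0]
    calc x * |log K| ≤ 1 * |log K| := by gcongr
      _ = |log K| := one_mul _
  calc |x * log g - x * log K| ≤ |x * log g| + |x * log K| := abs_sub _ _
    _ ≤ 1 + |log K| := by gcongr

omit [Countable α] in
lemma integrable_mul_log_div {x g : S → ℝ} (hx : Measurable x) (hg : Measurable g)
    (hx0 : ∀ s, 0 ≤ x s) (hxg : ∀ s, x s ≤ g s) (hg1 : ∀ s, g s ≤ 1) {K : ℝ} (hK : 0 ≤ K) :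
    Integrable (fun s => x s * log (g s / K)) σ := by
  refine Integrable.of_bound (hx.mul ((hg.div_const K).log)).aestronglyMeasurable
    (1 + |log K|) (Filter.Eventually.of_forall fun s => ?_)
  rw [Real.norm_eq_abs]
  exact abs_mul_log_div_le (hx0 s) (hxg s) (hg1 s) hK

/-- domination by the potential integrand -/
lemma integrable_mul_log_div_val {x g : S → ℝ} (hx : Measurable x) (hg : Good g)
    (hx0 : ∀ s, 0 ≤ x s) (hxg : ∀ s, x s ≤ g s) :
    Integrable (fun s => x s * log (g s / D.val g (D.Fmax g s) s)) σ := by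
  refine (integrable_pot (D := D) hg).norm.mono'
    (hx.mul ((hg.meas.div (measurable_valF hg)).log)).aestronglyMeasurable
    (Filter.Eventually.of_forall fun s => ?_)
  rw [Real.norm_eq_abs, Real.norm_eq_abs, pot, abs_mul, abs_mul, abs_of_nonneg (hx0 s),
    abs_of_nonneg ((hx0 s).trans (hxg s))]
  gcongr
  exact hxg s

/-! ### Gibbs on a class -/

omit [IsProbabilityMeasure σ] [Countable α] in
lemma setIntegral_eq_zero_of_ae_zero {W : Set S} {x h : S → ℝ}
    (hx : ∀ᵐ s ∂(σ.restrict W), x s = 0) :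
    ∫ s in W, x s * h s ∂σ = 0 := by
  apply integral_eq_zero_of_ae
  filter_upwards [hx] with s hs
  simp [hs]

/-- Gibbs on a class: `W ⊆ C`, `0 ≤ x ≤ g ≤ 1`. -/
lemma class_gibbs {W C : Set S} (hW : MeasurableSet W) (hWC : W ⊆ C)
    {x g : S → ℝ} (hx : Measurable x) (hg : Measurable g)
    (hx0 : ∀ s, 0 ≤ x s) (hxg : ∀ s, x s ≤ g s) (hg1 : ∀ s, g s ≤ 1) :
    ∫ s in W, x s * log (g s / ∫ s in C, g s ∂σ) ∂σ ≤
      ∫ s in W, x s * log (x s / ∫ s in W, x s ∂σ) ∂σ := by
  have hg0 : ∀ s, 0 ≤ g s := fun s => (hx0 s).trans (hxg s)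
  have hgi : Integrable g σ := Good.integrable ⟨hg, hg0, hg1⟩
  have hxi : Integrable x σ := Good.integrable ⟨hx, hx0, fun s => (hxg s).trans (hg1 s)⟩
  set β := ∫ s in W, x s ∂σ with hβ
  set A := ∫ s in C, g s ∂σ with hA
  have hβ0 : 0 ≤ β := setIntegral_nonneg hW fun s _ => hx0 s
  have hWg : ∫ s in W, g s ∂σ ≤ A :=
    setIntegral_mono_set hgi.integrableOn (Filter.Eventually.of_forall fun s => hg0 s)
      (LE.le.eventuallyLE hWC)
  have hβg : β ≤ ∫ s in W, g s ∂σ :=
    setIntegral_mono_on hxi.integrableOn hgi.integrableOn hW fun s _ => hxg s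
  have hA0 : 0 ≤ A := hβ0.trans (hβg.trans hWg)
  rcases hβ0.eq_or_lt with hzero | hpos
  · -- `x = 0` a.e. on `W`
    have hae : ∀ᵐ s ∂(σ.restrict W), x s = 0 :=
      (setIntegral_eq_zero_iff_of_nonneg_ae (Filter.Eventually.of_forall hx0)
        hxi.integrableOn).1 hzero.symm
    rw [setIntegral_eq_zero_of_ae_zero hae, setIntegral_eq_zero_of_ae_zero hae]
  have hApos : 0 < A := hpos.trans_le (hβg.trans hWg)
  have hi1 : Integrable (fun s => x s * log (g s / A)) σ :=
    integrable_mul_log_div hx hg hx0 hxg hg1 hA0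
  have hi2 : Integrable (fun s => x s * log (x s / β)) σ :=
    integrable_mul_log_div hx hx hx0 (fun s => le_rfl) (fun s => (hxg s).trans (hg1 s)) hβ0
  have hpt : ∀ s, x s * log (g s / A) - x s * log (x s / β) ≤ g s * (β / A) - x s := by
    intro s
    rcases (hx0 s).eq_or_lt with h0 | hxp
    · rw [← h0]; simp; have := hg0 s; positivity
    · have hgp : 0 < g s := hxp.trans_le (hxg s)
      have h1 := mul_log_div_le (x := x s) (y := g s * (β / A)) hxp.le (by positivity)
        (fun _ => by positivity)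
      have h2 : log (g s * (β / A) / x s) = log (g s / A) - log (x s / β) := by
        rw [← log_div (by positivity) (by positivity)]
        congr 1
        field_simp
      rw [h2, mul_sub] at h1
      exact h1
  have hint : ∫ s in W, (x s * log (g s / A) - x s * log (x s / β)) ∂σ ≤
      ∫ s in W, (g s * (β / A) - x s) ∂σ :=
    setIntegral_mono_on (hi1.sub hi2).integrableOn
      ((hgi.mul_const _).sub hxi).integrableOn hW fun s _ => hpt s
  rw [integral_sub hi1.integrableOn hi2.integrableOn,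
    integral_sub (hgi.mul_const _).integrableOn hxi.integrableOn, integral_mul_const, ← hβ] at hint
  have h3 : (∫ s in W, g s ∂σ) * (β / A) ≤ A * (β / A) := by gcongr
  have h4 : A * (β / A) = β := by field_simp
  linarith

/-! ### Classes -/

variable (D) in
/-- The class of the pair `p = (q, c)`: points of `cell q c` whose maximal level is `q`. -/
def classSet (ℓ : S → ℝ) (p : ℕ × α) : Set S := {s | D.cube p.1 s = p.2 ∧ D.Fmax ℓ s = p.1}

lemma measurableSet_classSet {ℓ : S → ℝ} (h : Good ℓ) (p : ℕ × α) :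
    MeasurableSet (D.classSet ℓ p) :=
  (D.cell_meas p.1 p.2).inter (measurable_Fmax h (measurableSet_singleton p.1))

omit [IsProbabilityMeasure σ] [Countable α] in
lemma classSet_disjoint (ℓ : S → ℝ) : Pairwise (Function.onFun Disjoint (D.classSet ℓ)) := by
  rintro ⟨q, c⟩ ⟨q', c'⟩ hne
  refine Set.disjoint_left.2 ?_
  rintro s ⟨h1, h2⟩ ⟨h3, h4⟩
  simp only at h1 h2 h3 h4
  apply hne
  have hq : q = q' := h2.symm.trans h4
  subst hq
  have hc : c = c' := h1.symm.trans h3
  rw [hc]

omit [IsProbabilityMeasure σ] [Countable α] in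
lemma classSet_iUnion (ℓ : S → ℝ) : ⋃ p, D.classSet ℓ p = univ := by
  ext s
  simp only [mem_iUnion, mem_univ, iff_true]
  exact ⟨(D.Fmax ℓ s, D.cube (D.Fmax ℓ s) s), rfl, rfl⟩

omit [IsProbabilityMeasure σ] [Countable α] in
lemma classSet_subset (ℓ : S → ℝ) (p : ℕ × α) : D.classSet ℓ p ⊆ D.cell p.1 p.2 :=
  fun _ hs => hs.1

omit [IsProbabilityMeasure σ] [Countable α] in
lemma val_eq_on_class {ℓ : S → ℝ} {p : ℕ × α} {s : S} (hs : s ∈ D.classSet ℓ p) :
    D.val ℓ (D.Fmax ℓ s) s = D.mass ℓ p.1 p.2 * exp (D.b * p.1) := by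
  rw [hs.2, val, hs.1]

lemma frostman_on_class {ℓ : S → ℝ} (h : Good ℓ) {p : ℕ × α} {s : S}
    (hs : s ∈ D.classSet ℓ p) (q' : ℕ) : D.val ℓ q' s ≤ D.val ℓ p.1 s := by
  have := Fmax_spec (D := D) h s q'
  rwa [hs.2] at this

lemma hasSum_over_classes {ℓ h : S → ℝ} (hℓ : Good ℓ) (hi : Integrable h σ) :
    HasSum (fun p => ∫ s in D.classSet ℓ p, h s ∂σ) (∫ s, h s ∂σ) := by
  have := hasSum_integral_iUnion (f := h) (μ := σ) (measurableSet_classSet (D := D) hℓ)
    (classSet_disjoint ℓ) (by rw [classSet_iUnion]; exact hi.integrableOn)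
  rwa [classSet_iUnion, setIntegral_univ] at this

/-! ### One class -/

/-- The information quantity of the Window Lemma: on a measurable set `W`. -/
noncomputable def info {ι : Type*} [Fintype ι] (f : S → ℝ) (τ : ι → S → ℝ) (W : Set S) (σ : Measure S) :
    ℝ :=
  ∑ i, ∫ s in W, (f s / ∫ u in W, f u ∂σ) * τ i s *
    log (τ i s / ∫ u in W, (f u / ∫ v in W, f v ∂σ) * τ i u ∂σ) ∂σ

/-- per-index bound on a class -/
lemma class_index {f τ g : S → ℝ} (hf : Good f) (hτ : Good τ) (hg : Good g)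
    (hle : ∀ s, f s * τ s ≤ g s) (p : ℕ × α)
    (haW : 0 < ∫ s in D.classSet f p, f s ∂σ) :
    ∫ s in D.classSet f p, f s * τ s * log (g s / D.val g (D.Fmax g s) s) ∂σ ≤
      ∫ s in D.classSet f p, f s * τ s *
          log (f s / (D.mass f p.1 p.2 * exp (D.b * p.1))) ∂σ
      + (∫ s in D.classSet f p, f s ∂σ) *
        ∫ s in D.classSet f p, (f s / ∫ u in D.classSet f p, f u ∂σ) * τ s *
          log (τ s / ∫ u in D.classSet f p, (f u / ∫ v in D.classSet f p, f v ∂σ) * τ u ∂σ) ∂σ
      + (∫ s in D.classSet f p, f s * τ s ∂σ) *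
          log (D.mass f p.1 p.2 / ∫ s in D.classSet f p, f s ∂σ) := by
  set W := D.classSet f p with hW
  have hWm : MeasurableSet W := measurableSet_classSet hf p
  have hWC : W ⊆ D.cell p.1 p.2 := classSet_subset f p
  set q := p.1 with hq
  set aW := ∫ s in W, f s ∂σ with haWdef
  set A := D.mass f q p.2 with hA
  set x : S → ℝ := fun s => f s * τ s with hxdef
  have hxm : Measurable x := hf.meas.mul hτ.meas
  have hx0 : ∀ s, 0 ≤ x s := fun s => mul_nonneg (hf.nonneg s) (hτ.nonneg s)
  have hxf : ∀ s, x s ≤ f s := fun s =>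
    mul_le_of_le_one_right (hf.nonneg s) (hτ.le_one s)
  have hxτ : ∀ s, x s ≤ τ s := fun s =>
    mul_le_of_le_one_left (hτ.nonneg s) (hf.le_one s)
  have hxi : Integrable x σ :=
    Good.integrable ⟨hxm, hx0, fun s => (hxf s).trans (hf.le_one s)⟩
  set β := ∫ s in W, x s ∂σ with hβ
  have hβ0 : 0 ≤ β := setIntegral_nonneg hWm fun s _ => hx0 s
  have hAW : aW ≤ A :=
    setIntegral_mono_set (Good.integrable hf).integrableOn
      (Filter.Eventually.of_forall fun s => hf.nonneg s) (LE.le.eventuallyLE hWC)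
  have hApos : 0 < A := haW.trans_le hAW
  have hpexp : 0 < A * exp (D.b * q) := mul_pos hApos (exp_pos _)
  -- rewrite the normalised weight
  have hp : (∫ u in W, (f u / aW) * τ u ∂σ) = β / aW := by
    rw [hβ, ← integral_div]
    congr 1; ext u
    simp only [hxdef]; ring
  rw [hp]
  set P := β / aW with hP
  have hP0 : 0 ≤ P := div_nonneg hβ0 haW.le
  have hnorm : aW * ∫ s in W, (f s / aW) * τ s * log (τ s / P) ∂σ =
      ∫ s in W, x s * log (τ s / P) ∂σ := by
    rw [← integral_const_mul]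
    congr 1; ext s
    simp only [hxdef]; field_simp
  rw [hnorm]
  -- integrability
  have hi1 : Integrable (fun s => x s * log (f s / (A * exp (D.b * q)))) σ :=
    integrable_mul_log_div hxm hf.meas hx0 hxf hf.le_one hpexp.le
  have hi2 : Integrable (fun s => x s * log (τ s / P)) σ :=
    integrable_mul_log_div hxm hτ.meas hx0 hxτ hτ.le_one hP0
  rcases hβ0.eq_or_lt with hzero | hpos
  · have hae : ∀ᵐ s ∂(σ.restrict W), x s = 0 :=
      (setIntegral_eq_zero_iff_of_nonneg_ae (Filter.Eventually.of_forall hx0)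
        hxi.integrableOn).1 hzero.symm
    rw [setIntegral_eq_zero_of_ae_zero hae, setIntegral_eq_zero_of_ae_zero hae,
      setIntegral_eq_zero_of_ae_zero hae, ← hzero]
    simp
  -- the main case
  have hPpos : 0 < P := div_pos hpos haW
  have hCm : MeasurableSet (D.cell q p.2) := D.cell_meas q p.2
  set A' := ∫ s in D.cell q p.2, g s ∂σ with hA'
  have hgi : Integrable g σ := Good.integrable hg
  have hA'pos : 0 < A' := by
    have h1 : β ≤ ∫ s in W, g s ∂σ :=
      setIntegral_mono_on hxi.integrableOn hgi.integrableOn hWm fun s _ => hle s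
    have h2 : ∫ s in W, g s ∂σ ≤ A' :=
      setIntegral_mono_set hgi.integrableOn
        (Filter.Eventually.of_forall fun s => hg.nonneg s) (LE.le.eventuallyLE hWC)
    linarith
  have hi3 : Integrable (fun s => x s * log (g s / D.val g (D.Fmax g s) s)) σ :=
    integrable_mul_log_div_val hxm hg hx0 hle
  have hi4 : Integrable (fun s => x s * log (g s / A')) σ :=
    integrable_mul_log_div hxm hg.meas hx0 hle hg.le_one hA'pos.le
  have hi5 : Integrable (fun s => x s * log (x s / β)) σ :=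
    integrable_mul_log_div hxm hxm hx0 (fun _ => le_rfl)
      (fun s => (hxf s).trans (hf.le_one s)) hβ0
  -- step (1): from `val` to the old level
  have hstep1 : ∫ s in W, x s * log (g s / D.val g (D.Fmax g s) s) ∂σ ≤
      ∫ s in W, (x s * log (g s / A') - x s * (D.b * q)) ∂σ := by
    refine setIntegral_mono_on hi3.integrableOn (hi4.sub (hxi.mul_const _)).integrableOn hWm ?_
    intro s hs
    rcases (hx0 s).eq_or_lt with h0 | hxp
    · rw [← h0]; simp
    have hgp : 0 < g s := hxp.trans_le (hle s)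
    have hcube : D.cube q s = p.2 := hs.1
    have hv : D.val g q s = A' * exp (D.b * q) := by rw [val, hcube]; rfl
    have hge : A' * exp (D.b * q) ≤ D.val g (D.Fmax g s) s := by
      rw [← hv]; exact Fmax_spec hg s q
    have hvp : 0 < A' * exp (D.b * q) := mul_pos hA'pos (exp_pos _)
    have h1 : log (g s / D.val g (D.Fmax g s) s) ≤ log (g s / (A' * exp (D.b * q))) := by
      apply log_le_log (div_pos hgp (hvp.trans_le hge))
      exact div_le_div_of_nonneg_left hgp.le hvp hge
    have h2 : log (g s / (A' * exp (D.b * q))) = log (g s / A') - D.b * q := by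
      rw [← div_div, log_div (by positivity) (exp_pos _).ne', log_exp]
    rw [h2] at h1
    calc x s * log (g s / D.val g (D.Fmax g s) s) ≤ x s * (log (g s / A') - D.b * q) := by gcongr
      _ = _ := by ring
  -- step (2): Gibbs
  have hstep2 : ∫ s in W, x s * log (g s / A') ∂σ ≤ ∫ s in W, x s * log (x s / β) ∂σ :=
    class_gibbs hWm hWC hxm hg.meas hx0 hle hg.le_one
  -- step (3): pointwise identity
  have hstep3 : ∫ s in W, (x s * log (x s / β) - x s * (D.b * q)) ∂σ =
      ∫ s in W, (x s * log (f s / (A * exp (D.b * q))) + x s * log (τ s / P) +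
        x s * log (A / aW)) ∂σ := by
    congr 1; ext s
    rcases (hx0 s).eq_or_lt with h0 | hxp
    · rw [← h0]; simp
    have hfp : 0 < f s := hxp.trans_le (hxf s)
    have hτp : 0 < τ s := hxp.trans_le (hxτ s)
    have h1 : log (x s / β) = log (f s / (A * exp (D.b * q))) + log (τ s / P) + log (A / aW)
        + D.b * q := by
      have hE : D.b * q = log (exp (D.b * q)) := (log_exp _).symm
      have hEpos : 0 < exp (D.b * q) := exp_pos _
      generalize exp (D.b * q) = E at hE hEpos ⊢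
      rw [hE, ← log_mul (by positivity) (by positivity),
        ← log_mul (by positivity) (by positivity), ← log_mul (by positivity) (by positivity)]
      congr 1
      simp only [hxdef, hP]
      field_simp
    rw [h1]; ring
  have hi12 : Integrable (fun s => x s * log (f s / (A * exp (D.b * q))) + x s * log (τ s / P)) σ :=
    hi1.add hi2
  rw [integral_sub hi5.integrableOn (hxi.mul_const _).integrableOn,
    integral_add hi12.integrableOn (hxi.mul_const _).integrableOn,
    integral_add hi1.integrableOn hi2.integrableOn, integral_mul_const, integral_mul_const] at hstep3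
  rw [integral_sub hi4.integrableOn (hxi.mul_const _).integrableOn, integral_mul_const] at hstep1
  linarith

/-! ### Sum over the next states, on one class -/

section Step

variable {Z : Type*} [Fintype Z]

/-- Bound on one class: all next states together. -/
lemma class_sum {f : S → ℝ} {τ g : Z → S → ℝ} (hf : Good f) (hτ : ∀ i, Good (τ i))
    (hsum : ∀ s, ∑ i, τ i s = 1) (hg : ∀ i, Good (g i))
    (hle : ∀ i s, f s * τ i s ≤ g i s) (p : ℕ × α)
    (haW : 0 < ∫ s in D.classSet f p, f s ∂σ) :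
    ∑ i, ∫ s in D.classSet f p, f s * τ i s * log (g i s / D.val (g i) (D.Fmax (g i) s) s) ∂σ ≤
      ∫ s in D.classSet f p, D.pot f s ∂σ
      + (∫ s in D.classSet f p, f s ∂σ) * info f τ (D.classSet f p) σ
      + (∫ s in D.classSet f p, f s ∂σ) *
          log (D.mass f p.1 p.2 / ∫ s in D.classSet f p, f s ∂σ) := by
  set W := D.classSet f p with hW
  have hWm : MeasurableSet W := measurableSet_classSet hf p
  set aW := ∫ s in W, f s ∂σ with haWdef
  set A := D.mass f p.1 p.2 with hA
  set E := A * exp (D.b * p.1) with hE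
  have hAW : aW ≤ A :=
    setIntegral_mono_set (Good.integrable hf).integrableOn
      (Filter.Eventually.of_forall fun s => hf.nonneg s)
      (LE.le.eventuallyLE (classSet_subset f p))
  have hApos : 0 < A := haW.trans_le hAW
  have hEpos : 0 < E := mul_pos hApos (exp_pos _)
  have hxm : ∀ i, Measurable fun s => f s * τ i s := fun i => hf.meas.mul (hτ i).meas
  have hx0 : ∀ i s, 0 ≤ f s * τ i s := fun i s => mul_nonneg (hf.nonneg s) ((hτ i).nonneg s)
  have hxf : ∀ i s, f s * τ i s ≤ f s := fun i s =>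
    mul_le_of_le_one_right (hf.nonneg s) ((hτ i).le_one s)
  have hxi : ∀ i, Integrable (fun s => f s * τ i s) σ := fun i =>
    Good.integrable ⟨hxm i, hx0 i, fun s => (hxf i s).trans (hf.le_one s)⟩
  have hi1 : ∀ i, Integrable (fun s => f s * τ i s * log (f s / E)) σ := fun i =>
    integrable_mul_log_div (hxm i) hf.meas (hx0 i) (hxf i) hf.le_one hEpos.le
  -- the potential on the class
  have hpot : ∫ s in W, D.pot f s ∂σ = ∑ i, ∫ s in W, f s * τ i s * log (f s / E) ∂σ := by
    rw [← integral_finset_sum _ fun i _ => (hi1 i).integrableOn]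
    refine setIntegral_congr_fun hWm fun s hs => ?_
    simp only [pot]
    rw [val_eq_on_class hs, ← hE, ← Finset.sum_mul, ← Finset.mul_sum, hsum s, mul_one]
  -- sum of the weights
  have hweights : ∑ i, ∫ s in W, f s * τ i s ∂σ = aW := by
    rw [← integral_finset_sum _ fun i _ => (hxi i).integrableOn]
    refine setIntegral_congr_fun hWm fun s _ => ?_
    show _ = f s
    rw [← Finset.mul_sum, hsum s, mul_one]
  have hind := fun i => class_index (D := D) hf (hτ i) (hg i) (hle i) p haW
  have hsumb := Finset.sum_le_sum (s := Finset.univ) fun i _ => hind i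
  refine hsumb.trans (le_of_eq ?_)
  rw [Finset.sum_add_distrib, Finset.sum_add_distrib, ← Finset.sum_mul, hweights, ← hpot, info,
    Finset.mul_sum]

/-! ### The weights `π q = 1 / ((q+1)(q+2))` -/

/-- `π q` -/
noncomputable def piW (q : ℕ) : ℝ := 1 / (((q : ℝ) + 1) * ((q : ℝ) + 2))

/-- `λ q = log (1 / π q)` -/
noncomputable def lam (q : ℕ) : ℝ := log (((q : ℝ) + 1) * ((q : ℝ) + 2))

lemma piW_pos (q : ℕ) : 0 < piW q := by unfold piW; positivity

lemma lam_nonneg (q : ℕ) : 0 ≤ lam q := by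
  unfold lam
  apply log_nonneg
  have : (0 : ℝ) ≤ q := Nat.cast_nonneg q
  nlinarith

lemma log_piW (q : ℕ) : log (piW q) = - lam q := by
  unfold piW lam
  rw [one_div, log_inv]

lemma lam_le (q : ℕ) : lam q ≤ 2 * log ((q : ℝ) + 2) := by
  unfold lam
  have hq : (0 : ℝ) ≤ q := Nat.cast_nonneg q
  rw [show 2 * log ((q : ℝ) + 2) = log (((q : ℝ) + 2) * ((q : ℝ) + 2)) by
    rw [log_mul (by positivity) (by positivity)]; ring]
  apply log_le_log (by positivity)
  nlinarith

lemma hasSum_piW : HasSum piW 1 := by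
  have hnn : ∀ q, 0 ≤ piW q := fun q => (piW_pos q).le
  rw [hasSum_iff_tendsto_nat_of_nonneg hnn]
  have hpart : ∀ n : ℕ, ∑ i ∈ Finset.range n, piW i = 1 - 1 / ((n : ℝ) + 1) := by
    intro n
    induction n with
    | zero => simp
    | succ n ih =>
      rw [Finset.sum_range_succ, ih]
      unfold piW
      push_cast
      have h1 : (n : ℝ) + 1 ≠ 0 := by positivity
      have h2 : (n : ℝ) + 2 ≠ 0 := by positivity
      have h3 : (n : ℝ) + 1 + 1 ≠ 0 := by positivity
      field_simp
      ring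
  simp_rw [hpart]
  have h : Filter.Tendsto (fun n : ℕ => 1 / ((n : ℝ) + 1)) Filter.atTop (nhds 0) :=
    tendsto_one_div_add_atTop_nhds_zero_nat
  simpa using h.const_sub 1

lemma gibbs_class {x A : ℝ} (hx : 0 < x) (hA : 0 < A) (q : ℕ) :
    x * log (A / x) ≤ x * lam q + piW q * A - x := by
  have h := mul_log_div_le (x := x) (y := piW q * A) hx.le
    (mul_pos (piW_pos q) hA).le (fun _ => mul_pos (piW_pos q) hA)
  have h2 : log (piW q * A / x) = - lam q + log (A / x) := by
    rw [mul_div_assoc, log_mul (piW_pos q).ne' (by positivity), log_piW]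
  rw [h2, mul_add] at h
  nlinarith

/-- Masses on level `q` sum to the total integral. -/
lemma hasSum_mass {f : S → ℝ} (hf : Good f) (q : ℕ) :
    HasSum (fun c => D.mass f q c) (∫ s, f s ∂σ) := by
  have hd : Pairwise (Function.onFun Disjoint fun c => D.cell q c) := by
    intro c c' hne
    refine Set.disjoint_left.2 fun s h1 h2 => hne ?_
    exact h1.symm.trans h2
  have hU : ⋃ c, D.cell q c = univ := by
    ext s; simp only [mem_iUnion, mem_univ, iff_true]; exact ⟨D.cube q s, rfl⟩
  have := hasSum_integral_iUnion (f := f) (μ := σ) (s := fun c => D.cell q c)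
    (fun c => D.cell_meas q c) hd
    (by rw [hU]; exact (Good.integrable hf).integrableOn)
  rwa [hU, setIntegral_univ] at this

lemma integral_nonneg_good {f : S → ℝ} (hf : Good f) : 0 ≤ ∫ s, f s ∂σ :=
  integral_nonneg hf.nonneg

/-- weighted masses over all pairs `(q, c)` sum to the total integral. -/
lemma hasSum_piW_mass {f : S → ℝ} (hf : Good f) :
    HasSum (fun p : ℕ × α => piW p.1 * D.mass f p.1 p.2) (∫ s, f s ∂σ) := by
  set A := ∫ s, f s ∂σ with hA
  have hnn : 0 ≤ (fun p : ℕ × α => piW p.1 * D.mass f p.1 p.2) := fun p =>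
    mul_nonneg (piW_pos _).le (mass_nonneg hf _ _)
  have hfib : ∀ q, HasSum (fun c => piW q * D.mass f q c) (piW q * A) :=
    fun q => (hasSum_mass (D := D) hf q).mul_left _
  have hsummable : Summable (fun p : ℕ × α => piW p.1 * D.mass f p.1 p.2) := by
    rw [summable_prod_of_nonneg hnn]
    refine ⟨fun q => (hfib q).summable, ?_⟩
    have : (fun q => ∑' c, piW q * D.mass f q c) = fun q => piW q * A := by
      ext q; exact (hfib q).tsum_eq
    simp only [this]
    exact (hasSum_piW.mul_right A).summable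
  have h1 := hsummable.hasSum.prod_fiberwise hfib
  have h2 := hasSum_piW.mul_right A
  rw [one_mul] at h2
  rw [h2.unique h1]
  exact hsummable.hasSum

/-! ### Integrability of level functions -/

/-- where `f > 0` (a.e.), the maximal level is bounded -/
lemma ae_Fmax_le {f : S → ℝ} (hf : Good f) :
    ∀ᵐ s ∂σ, 0 < f s → D.a * (D.Fmax f s : ℝ) ≤ D.B - log (D.mass f 0 (D.cube 0 s)) := by
  filter_upwards [ae_mass0_pos (D := D) hf] with s hs hpos
  have hm := hs hpos
  have hv0 : D.val f 0 s = D.mass f 0 (D.cube 0 s) := by simp [val]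
  have hge : D.mass f 0 (D.cube 0 s) ≤ D.val f (D.Fmax f s) s := by
    rw [← hv0]; exact Fmax_spec hf s 0
  have hle := val_le (D := D) hf (D.Fmax f s) s
  have h1 := log_le_log hm (hge.trans hle)
  rw [log_exp] at h1
  linarith

lemma integrable_mul_comp_Fmax {f : S → ℝ} (hf : Good f) (φ : ℕ → ℝ) :
    Integrable (fun s => f s * φ (D.Fmax f s)) σ := by
  classical
  let R : Finset α := D.fin0.toFinset
  let K : ℝ := ∑ c ∈ R, |log (D.mass f 0 c)|
  obtain ⟨N, hN⟩ := exists_nat_ge ((D.B + K) / D.a)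
  have hmeas : Measurable fun s => f s * φ (D.Fmax f s) :=
    hf.meas.mul ((measurable_of_countable φ).comp (measurable_Fmax hf))
  refine Integrable.of_bound hmeas.aestronglyMeasurable
    (∑ q ∈ Finset.range (N + 1), |φ q|) ?_
  filter_upwards [ae_Fmax_le (D := D) hf] with s hs
  rw [Real.norm_eq_abs, abs_mul, abs_of_nonneg (hf.nonneg s)]
  have hnn : 0 ≤ ∑ q ∈ Finset.range (N + 1), |φ q| := Finset.sum_nonneg fun _ _ => abs_nonneg _
  rcases (hf.nonneg s).eq_or_lt with h0 | hpos
  · rw [← h0]; simpa using hnn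
  have h1 := hs hpos
  have hmem : D.cube 0 s ∈ R := by simp [R]
  have hlogm : |log (D.mass f 0 (D.cube 0 s))| ≤ K :=
    Finset.single_le_sum (f := fun c => |log (D.mass f 0 c)|) (fun c _ => abs_nonneg _) hmem
  have h2 : (D.Fmax f s : ℝ) ≤ N := by
    refine le_trans ?_ hN
    rw [le_div_iff₀ D.a_pos]
    have := (abs_le.1 hlogm).1
    linarith
  have h3 : D.Fmax f s ≤ N := by exact_mod_cast h2
  have hmem2 : D.Fmax f s ∈ Finset.range (N + 1) := by simp; omega
  calc f s * |φ (D.Fmax f s)| ≤ 1 * |φ (D.Fmax f s)| := by gcongr; exact hf.le_one s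
    _ = |φ (D.Fmax f s)| := one_mul _
    _ ≤ _ := Finset.single_le_sum (f := fun q => |φ q|) (fun _ _ => abs_nonneg _) hmem2

/-! ### The main one-step bound for a fixed old state -/

omit [Countable α] in
lemma setIntegral_eq_zero_of_mass_zero {f : S → ℝ} (hf : Good f) {W : Set S}
    (h : ∫ s in W, f s ∂σ = 0) : ∀ᵐ s ∂(σ.restrict W), f s = 0 :=
  (setIntegral_eq_zero_iff_of_nonneg_ae (Filter.Eventually.of_forall hf.nonneg)
    (Good.integrable hf).integrableOn).1 h

theorem step_one {f : S → ℝ} {τ g : Z → S → ℝ} (hf : Good f) (hτ : ∀ i, Good (τ i))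
    (hsum : ∀ s, ∑ i, τ i s = 1) (hg : ∀ i, Good (g i))
    (hle : ∀ i s, f s * τ i s ≤ g i s) {Δ ρ : ℝ} (hρ : 0 ≤ ρ)
    (hWL : ∀ p : ℕ × α, 0 < ∫ s in D.classSet f p, f s ∂σ →
      info f τ (D.classSet f p) σ ≤
        Δ + ρ * log (D.mass f p.1 p.2 / ∫ s in D.classSet f p, f s ∂σ)) :
    ∑ i, ∫ s, f s * τ i s * log (g i s / D.val (g i) (D.Fmax (g i) s) s) ∂σ ≤
      ∫ s, D.pot f s ∂σ + (∫ s, f s ∂σ) * Δ + (1 + ρ) * ∫ s, f s * lam (D.Fmax f s) ∂σ := by
  have hxm : ∀ i, Measurable fun s => f s * τ i s := fun i => hf.meas.mul (hτ i).meas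
  have hx0 : ∀ i s, 0 ≤ f s * τ i s := fun i s => mul_nonneg (hf.nonneg s) ((hτ i).nonneg s)
  have hiT : ∀ i, Integrable
      (fun s => f s * τ i s * log (g i s / D.val (g i) (D.Fmax (g i) s) s)) σ := fun i =>
    integrable_mul_log_div_val (hxm i) (hg i) (hx0 i) (hle i)
  have hT : HasSum (fun p => ∑ i, ∫ s in D.classSet f p,
        f s * τ i s * log (g i s / D.val (g i) (D.Fmax (g i) s) s) ∂σ)
      (∑ i, ∫ s, f s * τ i s * log (g i s / D.val (g i) (D.Fmax (g i) s) s) ∂σ) :=
    hasSum_sum fun i _ => hasSum_over_classes hf (hiT i)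
  have hP : HasSum (fun p => ∫ s in D.classSet f p, D.pot f s ∂σ) (∫ s, D.pot f s ∂σ) :=
    hasSum_over_classes hf (integrable_pot hf)
  have hA : HasSum (fun p => ∫ s in D.classSet f p, f s ∂σ) (∫ s, f s ∂σ) :=
    hasSum_over_classes hf (Good.integrable hf)
  have hLam : HasSum (fun p => ∫ s in D.classSet f p, f s * lam (D.Fmax f s) ∂σ)
      (∫ s, f s * lam (D.Fmax f s) ∂σ) :=
    hasSum_over_classes hf (integrable_mul_comp_Fmax hf lam)
  have hPi := hasSum_piW_mass (D := D) hf
  have hR : HasSum (fun p => ∫ s in D.classSet f p, D.pot f s ∂σ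
        + (∫ s in D.classSet f p, f s ∂σ) * Δ
        + (1 + ρ) * (∫ s in D.classSet f p, f s * lam (D.Fmax f s) ∂σ
            + piW p.1 * D.mass f p.1 p.2 - ∫ s in D.classSet f p, f s ∂σ))
      (∫ s, D.pot f s ∂σ + (∫ s, f s ∂σ) * Δ + (1 + ρ) * ∫ s, f s * lam (D.Fmax f s) ∂σ) := by
    have h := (hP.add (hA.mul_right Δ)).add (((hLam.add hPi).sub hA).mul_left (1 + ρ))
    have e : ∫ s, f s * lam (D.Fmax f s) ∂σ + (∫ s, f s ∂σ) - ∫ s, f s ∂σ =
        ∫ s, f s * lam (D.Fmax f s) ∂σ := by ring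
    rwa [e] at h
  refine hasSum_le (fun p => ?_) hT hR
  have hWm := measurableSet_classSet (D := D) hf p
  set W := D.classSet f p with hW
  have hlamW : ∫ s in W, f s * lam (D.Fmax f s) ∂σ = (∫ s in W, f s ∂σ) * lam p.1 := by
    rw [← integral_mul_const]
    refine setIntegral_congr_fun hWm fun s hs => ?_
    show f s * lam (D.Fmax f s) = f s * lam p.1
    rw [hs.2]
  have hA0 : 0 ≤ D.mass f p.1 p.2 := mass_nonneg hf _ _
  have haW0 : 0 ≤ ∫ s in W, f s ∂σ := setIntegral_nonneg hWm fun s _ => hf.nonneg s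
  have h1ρ : 0 ≤ 1 + ρ := by linarith
  rcases haW0.eq_or_lt with hzero | hpos
  · -- empty class
    have hae := setIntegral_eq_zero_of_mass_zero hf hzero.symm
    have hT0 : ∀ i, ∫ s in W, f s * τ i s *
        log (g i s / D.val (g i) (D.Fmax (g i) s) s) ∂σ = 0 := by
      intro i
      apply integral_eq_zero_of_ae
      filter_upwards [hae] with s hs
      simp [hs]
    have hP0 : ∫ s in W, D.pot f s ∂σ = 0 := by
      apply integral_eq_zero_of_ae
      filter_upwards [hae] with s hs
      simp [pot, hs]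
    simp only [hT0, Finset.sum_const_zero, hP0]
    rw [hlamW, ← hzero]
    have : 0 ≤ piW p.1 * D.mass f p.1 p.2 := mul_nonneg (piW_pos _).le hA0
    simp only [zero_mul, zero_add, add_zero, sub_zero]
    positivity
  · set aW := ∫ s in W, f s ∂σ with haW
    have hAW : aW ≤ D.mass f p.1 p.2 :=
      setIntegral_mono_set (Good.integrable hf).integrableOn
        (Filter.Eventually.of_forall fun s => hf.nonneg s)
        (LE.le.eventuallyLE (classSet_subset f p))
    have hApos : 0 < D.mass f p.1 p.2 := hpos.trans_le hAW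
    have hcs := class_sum (D := D) hf hτ hsum hg hle p hpos
    have hwl := hWL p hpos
    have hG := gibbs_class hpos hApos p.1
    rw [hlamW]
    have h2 : aW * info f τ W σ ≤ aW * Δ + ρ * (aW * log (D.mass f p.1 p.2 / aW)) := by
      calc aW * info f τ W σ ≤ aW * (Δ + ρ * log (D.mass f p.1 p.2 / aW)) := by gcongr
        _ = _ := by ring
    have h3 : (1 + ρ) * (aW * log (D.mass f p.1 p.2 / aW)) ≤
        (1 + ρ) * (aW * lam p.1 + piW p.1 * D.mass f p.1 p.2 - aW) := by gcongr
    nlinarith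

/-! ### Lower bound (END) -/

theorem pot_lower {f : S → ℝ} (hf : Good f) :
    D.a * ∫ s, f s * ((D.Fmax f s : ℕ) : ℝ) ∂σ - D.B * ∫ s, f s ∂σ
        - ∫ s, f s * lam (D.Fmax f s) ∂σ ≤ ∫ s, D.pot f s ∂σ := by
  have hP : HasSum (fun p => ∫ s in D.classSet f p, D.pot f s ∂σ) (∫ s, D.pot f s ∂σ) :=
    hasSum_over_classes hf (integrable_pot hf)
  have hA : HasSum (fun p => ∫ s in D.classSet f p, f s ∂σ) (∫ s, f s ∂σ) :=
    hasSum_over_classes hf (Good.integrable hf)
  have hLam : HasSum (fun p => ∫ s in D.classSet f p, f s * lam (D.Fmax f s) ∂σ)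
      (∫ s, f s * lam (D.Fmax f s) ∂σ) :=
    hasSum_over_classes hf (integrable_mul_comp_Fmax hf lam)
  have hFF : HasSum (fun p => ∫ s in D.classSet f p, f s * ((D.Fmax f s : ℕ) : ℝ) ∂σ)
      (∫ s, f s * ((D.Fmax f s : ℕ) : ℝ) ∂σ) :=
    hasSum_over_classes hf (integrable_mul_comp_Fmax hf fun q => (q : ℝ))
  have hPi := hasSum_piW_mass (D := D) hf
  have hL : HasSum (fun p => D.a * (∫ s in D.classSet f p, f s * ((D.Fmax f s : ℕ) : ℝ) ∂σ)
        - D.B * (∫ s in D.classSet f p, f s ∂σ)
        - (∫ s in D.classSet f p, f s * lam (D.Fmax f s) ∂σ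
            + piW p.1 * D.mass f p.1 p.2 - ∫ s in D.classSet f p, f s ∂σ))
      (D.a * (∫ s, f s * ((D.Fmax f s : ℕ) : ℝ) ∂σ) - D.B * (∫ s, f s ∂σ)
        - ∫ s, f s * lam (D.Fmax f s) ∂σ) := by
    have h := ((hFF.mul_left D.a).sub (hA.mul_left D.B)).sub ((hLam.add hPi).sub hA)
    have e : ∫ s, f s * lam (D.Fmax f s) ∂σ + (∫ s, f s ∂σ) - ∫ s, f s ∂σ =
        ∫ s, f s * lam (D.Fmax f s) ∂σ := by ring
    rwa [e] at h
  refine hasSum_le (fun p => ?_) hL hP
  have hWm := measurableSet_classSet (D := D) hf p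
  set W := D.classSet f p with hW
  have hlamW : ∫ s in W, f s * lam (D.Fmax f s) ∂σ = (∫ s in W, f s ∂σ) * lam p.1 := by
    rw [← integral_mul_const]
    refine setIntegral_congr_fun hWm fun s hs => ?_
    show f s * lam (D.Fmax f s) = f s * lam p.1
    rw [hs.2]
  have hFW : ∫ s in W, f s * ((D.Fmax f s : ℕ) : ℝ) ∂σ = (∫ s in W, f s ∂σ) * (p.1 : ℝ) := by
    rw [← integral_mul_const]
    refine setIntegral_congr_fun hWm fun s hs => ?_
    show f s * ((D.Fmax f s : ℕ) : ℝ) = f s * (p.1 : ℝ)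
    rw [hs.2]
  have hA0 : 0 ≤ D.mass f p.1 p.2 := mass_nonneg hf _ _
  have haW0 : 0 ≤ ∫ s in W, f s ∂σ := setIntegral_nonneg hWm fun s _ => hf.nonneg s
  rw [hlamW, hFW]
  rcases haW0.eq_or_lt with hzero | hpos
  · have hae := setIntegral_eq_zero_of_mass_zero hf hzero.symm
    have hP0 : ∫ s in W, D.pot f s ∂σ = 0 := by
      apply integral_eq_zero_of_ae
      filter_upwards [hae] with s hs
      simp [pot, hs]
    rw [hP0, ← hzero]
    have : 0 ≤ piW p.1 * D.mass f p.1 p.2 := mul_nonneg (piW_pos _).le hA0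
    simp only [zero_mul, mul_zero, sub_zero, zero_add]
    linarith
  · set aW := ∫ s in W, f s ∂σ with haW
    have hAW : aW ≤ D.mass f p.1 p.2 :=
      setIntegral_mono_set (Good.integrable hf).integrableOn
        (Filter.Eventually.of_forall fun s => hf.nonneg s)
        (LE.le.eventuallyLE (classSet_subset f p))
    have hApos : 0 < D.mass f p.1 p.2 := hpos.trans_le hAW
    set A := D.mass f p.1 p.2 with hAdef
    set m := σ.real W with hm
    have hm0 : 0 ≤ m := measureReal_nonneg
    have haWm : aW ≤ m := by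
      have h1 : aW ≤ ∫ _s in W, (1 : ℝ) ∂σ :=
        setIntegral_mono_on (Good.integrable hf).integrableOn (integrable_const _).integrableOn
          hWm fun s _ => hf.le_one s
      simpa using h1
    have hmpos : 0 < m := hpos.trans_le haWm
    have hmle : m ≤ exp (D.B - (D.a + D.b) * p.1) := by
      refine le_trans ?_ (D.size p.1 p.2)
      exact measureReal_mono (classSet_subset f p)
    set E := A * exp (D.b * p.1) with hE
    have hEpos : 0 < E := mul_pos hApos (exp_pos _)
    set y := aW / m with hy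
    have hypos : 0 < y := div_pos hpos hmpos
    have hymass : y * m = aW := by rw [hy]; field_simp
    -- pointwise
    have hpt : ∀ s ∈ W, f s * log (y / E) + f s - y ≤ D.pot f s := by
      intro s hs
      rw [pot, val_eq_on_class hs, ← hAdef, ← hE]
      rcases (hf.nonneg s).eq_or_lt with h0 | hfp
      · rw [← h0]; simp; exact hypos.le
      · have h1 := mul_log_div_le (x := f s) (y := y) hfp.le hypos.le (fun _ => hypos)
        have h2 : log (y / f s) = log (y / E) - log (f s / E) := by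
          rw [← log_div (by positivity) (by positivity)]
          congr 1
          field_simp
        rw [h2, mul_sub] at h1
        linarith
    have hint : ∫ s in W, (f s * log (y / E) + f s - y) ∂σ ≤ ∫ s in W, D.pot f s ∂σ := by
      refine setIntegral_mono_on ?_ (integrable_pot hf).integrableOn hWm hpt
      exact (((Good.integrable hf).mul_const _).add (Good.integrable hf)).integrableOn.sub
        (integrable_const _).integrableOn
    have hi1 : IntegrableOn (fun s => f s * log (y / E)) W σ :=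
      ((Good.integrable hf).mul_const _).integrableOn
    have hi2 : IntegrableOn f W σ := (Good.integrable hf).integrableOn
    have hi12 : IntegrableOn (fun s => f s * log (y / E) + f s) W σ := hi1.add hi2
    have hev : ∫ s in W, (f s * log (y / E) + f s - y) ∂σ = aW * log (y / E) := by
      rw [integral_sub hi12 (integrable_const _).integrableOn,
        integral_add hi1 hi2, integral_mul_const, setIntegral_const]
      simp only [smul_eq_mul, ← hm]
      rw [mul_comm m y, hymass]
      ring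
    rw [hev] at hint
    -- estimate `log (y / E)`
    have hlog : log (aW / A) + D.a * p.1 - D.B ≤ log (y / E) := by
      have h1 : log (y / E) = log (aW / A) - log m - D.b * p.1 := by
        have hEe : y / E = aW / A / m / exp (D.b * p.1) := by
          rw [hy, hE]; field_simp
        rw [hEe, log_div (by positivity) (exp_pos _).ne', log_div (by positivity) hmpos.ne',
          log_exp]
      have h2 : log m ≤ D.B - (D.a + D.b) * p.1 := by
        have := log_le_log hmpos hmle
        rwa [log_exp] at this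
      rw [h1]
      nlinarith
    have hneg : aW * log (aW / A) = - (aW * log (A / aW)) := by
      rw [show A / aW = (aW / A)⁻¹ by field_simp, log_inv]; ring
    have hG := gibbs_class hpos hApos p.1
    have hfin : aW * (log (aW / A) + D.a * p.1 - D.B) ≤ aW * log (y / E) := by gcongr
    nlinarith

/-! ### Upper bound and a priori bound -/

variable (D) in
/-- Entropy of the level-0 masses of `f` -/
noncomputable def H0 (f : S → ℝ) : ℝ :=
  open Classical in
  ∑ c ∈ D.fin0.toFinset, D.mass f 0 c * (- log (D.mass f 0 c))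

lemma integral_mul_comp_cube0 {f : S → ℝ} (hf : Good f) (φ : α → ℝ) :
    Integrable (fun s => f s * φ (D.cube 0 s)) σ ∧
    (open Classical in
      ∫ s, f s * φ (D.cube 0 s) ∂σ = ∑ c ∈ D.fin0.toFinset, D.mass f 0 c * φ c) := by
  classical
  have hmeas : Measurable fun s => f s * φ (D.cube 0 s) :=
    hf.meas.mul (measurable_comp_cube φ 0)
  have hint : Integrable (fun s => f s * φ (D.cube 0 s)) σ := by
    refine Integrable.of_bound hmeas.aestronglyMeasurable
      (∑ c ∈ D.fin0.toFinset, |φ c|) (Filter.Eventually.of_forall fun s => ?_)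
    rw [Real.norm_eq_abs, abs_mul, abs_of_nonneg (hf.nonneg s)]
    have hmem : D.cube 0 s ∈ D.fin0.toFinset := by simp
    calc f s * |φ (D.cube 0 s)| ≤ 1 * |φ (D.cube 0 s)| := by gcongr; exact hf.le_one s
      _ = |φ (D.cube 0 s)| := one_mul _
      _ ≤ _ := Finset.single_le_sum (f := fun c => |φ c|) (fun _ _ => abs_nonneg _) hmem
  refine ⟨hint, ?_⟩
  have hU : (⋃ c ∈ D.fin0.toFinset, D.cell 0 c) = univ := by
    ext s
    simp only [mem_iUnion, mem_univ, iff_true]
    exact ⟨D.cube 0 s, by simp, rfl⟩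
  have hd : Set.PairwiseDisjoint (↑D.fin0.toFinset) fun c => D.cell 0 c := by
    intro c _ c' _ hne
    refine Set.disjoint_left.2 fun s h1 h2 => hne ?_
    exact h1.symm.trans h2
  have := integral_biUnion_finset (f := fun s => f s * φ (D.cube 0 s)) (μ := σ)
    (t := D.fin0.toFinset) (s := fun c => D.cell 0 c) (fun c _ => D.cell_meas 0 c) hd
    (fun c _ => hint.integrableOn)
  rw [hU, setIntegral_univ] at this
  rw [this]
  refine Finset.sum_congr rfl fun c _ => ?_
  rw [mass, ← integral_mul_const]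
  refine setIntegral_congr_fun (D.cell_meas 0 c) fun s hs => ?_
  have : D.cube 0 s = c := hs
  simp only [this]

theorem pot_upper {f : S → ℝ} (hf : Good f) : ∫ s, D.pot f s ∂σ ≤ D.H0 f := by
  classical
  obtain ⟨hi, he⟩ := integral_mul_comp_cube0 (D := D) hf fun c => - log (D.mass f 0 c)
  have h1 : ∫ s, D.pot f s ∂σ ≤ ∫ s, f s * (- log (D.mass f 0 (D.cube 0 s))) ∂σ := by
    refine integral_mono_ae (integrable_pot hf) hi ?_
    filter_upwards [ae_mass0_pos (D := D) hf] with s hs
    simp only [pot]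
    rcases (hf.nonneg s).eq_or_lt with h0 | hfp
    · rw [← h0]; simp
    have hm := hs hfp
    have hv0 : D.val f 0 s = D.mass f 0 (D.cube 0 s) := by simp [val]
    have hge : D.mass f 0 (D.cube 0 s) ≤ D.val f (D.Fmax f s) s := by
      rw [← hv0]; exact Fmax_spec hf s 0
    have hvp := hm.trans_le hge
    rw [log_div hfp.ne' hvp.ne', mul_sub]
    have h2 : f s * log (f s) ≤ 0 :=
      mul_nonpos_of_nonneg_of_nonpos hfp.le (log_nonpos hfp.le (hf.le_one s))
    have h3 : log (D.mass f 0 (D.cube 0 s)) ≤ log (D.val f (D.Fmax f s) s) := log_le_log hm hge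
    have h4 : f s * log (D.mass f 0 (D.cube 0 s)) ≤ f s * log (D.val f (D.Fmax f s) s) := by gcongr
    linarith
  refine h1.trans (le_of_eq ?_)
  rw [he, H0]

theorem Fmax_apriori {f : S → ℝ} (hf : Good f) :
    D.a * ∫ s, f s * ((D.Fmax f s : ℕ) : ℝ) ∂σ ≤ D.B * ∫ s, f s ∂σ + D.H0 f := by
  classical
  obtain ⟨hi, he⟩ := integral_mul_comp_cube0 (D := D) hf fun c => - log (D.mass f 0 c)
  have hiF : Integrable (fun s => f s * ((D.Fmax f s : ℕ) : ℝ)) σ :=
    integrable_mul_comp_Fmax hf fun q => (q : ℝ)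
  have h1 : ∫ s, D.a * (f s * ((D.Fmax f s : ℕ) : ℝ)) ∂σ ≤
      ∫ s, (D.B * f s + f s * (- log (D.mass f 0 (D.cube 0 s)))) ∂σ := by
    refine integral_mono_ae (hiF.const_mul _) (((Good.integrable hf).const_mul _).add hi) ?_
    filter_upwards [ae_Fmax_le (D := D) hf] with s hs
    rcases (hf.nonneg s).eq_or_lt with h0 | hfp
    · simp only [← h0]; simp
    have := hs hfp
    show D.a * (f s * ((D.Fmax f s : ℕ) : ℝ)) ≤ D.B * f s + f s * (- log (D.mass f 0 (D.cube 0 s)))
    nlinarith
  rw [integral_const_mul, integral_add ((Good.integrable hf).const_mul _) hi,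
    integral_const_mul, he] at h1
  rw [H0]
  exact h1

/-- Entropy bound for a finite probability vector. -/
lemma entropy_le_log_card {ι : Type*} (t : Finset ι) (hne : t.Nonempty) (p : ι → ℝ)
    (hp : ∀ i ∈ t, 0 ≤ p i) (hsum : ∑ i ∈ t, p i = 1) :
    ∑ i ∈ t, p i * (- log (p i)) ≤ log (t.card) := by
  have hn : (0 : ℝ) < t.card := by exact_mod_cast hne.card_pos
  have hpt : ∀ i ∈ t, p i * (- log (p i)) ≤ p i * log t.card + (1 / t.card - p i) := by
    intro i hi
    rcases (hp i hi).eq_or_lt with h0 | hpos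
    · rw [← h0]; simp
    have h := mul_log_div_le (x := p i) (y := 1 / t.card) hpos.le (by positivity)
      (fun _ => by positivity)
    have h2 : log (1 / (t.card : ℝ) / p i) = - log t.card - log (p i) := by
      rw [log_div (by positivity) hpos.ne', one_div, log_inv]
    rw [h2] at h
    nlinarith
  refine (Finset.sum_le_sum hpt).trans (le_of_eq ?_)
  rw [Finset.sum_add_distrib, ← Finset.sum_mul, hsum, Finset.sum_sub_distrib, hsum]
  simp only [Finset.sum_const, nsmul_eq_mul]
  field_simp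
  ring

/-! ### Success implies depth -/

/-- If the targets `T z` (covered by at most `nc` cells of level `qe`) carry total mass at least
`2/3`, then the average maximal level is at least `(qe - log (6 nc) / b) / 2`. -/
theorem success_depth {L : Z → S → ℝ} (hL : ∀ z, Good (L z)) (hLsum : ∀ s, ∑ z, L z s = 1)
    (qe : ℕ) (T : Z → Set S) (hT : ∀ z, MeasurableSet (T z)) (cov : Z → Finset α) (nc : ℕ)
    (hnc : 0 < nc) (hcard : ∀ z, (cov z).card ≤ nc) (hcov : ∀ z s, s ∈ T z → D.cube qe s ∈ cov z)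
    (hsucc : 2 / 3 ≤ ∑ z, ∫ s in T z, L z s ∂σ) :
    (1 / 2) * ((qe : ℝ) - log (6 * nc) / D.b) ≤
      ∑ z, ∫ s, L z s * ((D.Fmax (L z) s : ℕ) : ℝ) ∂σ := by
  classical
  set τ0 : ℝ := 1 / (6 * nc) with hτ0
  have hncR : (0 : ℝ) < nc := by exact_mod_cast hnc
  have hτ0pos : 0 < τ0 := by positivity
  set q1 : ℝ := (qe : ℝ) - log (6 * nc) / D.b with hq1
  have hA : ∀ z, 0 ≤ ∫ s, L z s ∂σ := fun z => integral_nonneg (hL z).nonneg
  have hAsum : ∑ z, ∫ s, L z s ∂σ = 1 := by
    rw [← integral_finset_sum _ fun z _ => Good.integrable (hL z)]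
    simp [hLsum]
  have hmeasF : ∀ z, Measurable fun s => L z s * ((D.Fmax (L z) s : ℕ) : ℝ) := fun z =>
    (hL z).meas.mul ((measurable_of_countable fun q : ℕ => (q : ℝ)).comp (measurable_Fmax (hL z)))
  have hFnn : ∀ z s, 0 ≤ L z s * ((D.Fmax (L z) s : ℕ) : ℝ) := fun z s =>
    mul_nonneg ((hL z).nonneg s) (Nat.cast_nonneg _)
  have hEnn : 0 ≤ ∑ z, ∫ s, L z s * ((D.Fmax (L z) s : ℕ) : ℝ) ∂σ :=
    Finset.sum_nonneg fun z _ => integral_nonneg (hFnn z)
  by_cases hq1neg : q1 ≤ 0
  · have : (1 / 2) * q1 ≤ 0 := by linarith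
    linarith
  push Not at hq1neg
  -- the good part of the target
  set G : Z → Set S := fun z => T z ∩ {s | τ0 * ∫ u, L z u ∂σ ≤ D.mass (L z) qe (D.cube qe s)}
    with hG
  have hGm : ∀ z, MeasurableSet (G z) := by
    intro z
    refine (hT z).inter ?_
    exact measurableSet_le measurable_const (measurable_comp_cube (fun c => D.mass (L z) qe c) qe)
  -- on the good part the level is at least `q1`
  have hdeep : ∀ z, ∀ s ∈ G z, 0 < ∫ u, L z u ∂σ → q1 ≤ (D.Fmax (L z) s : ℝ) := by
    intro z s hs hApos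
    have h1 : τ0 * (∫ u, L z u ∂σ) ≤ D.mass (L z) qe (D.cube qe s) := hs.2
    have h2 := Fmax_spec (D := D) (hL z) s qe
    have h3 : D.val (L z) (D.Fmax (L z) s) s ≤ (∫ u, L z u ∂σ) * exp (D.b * (D.Fmax (L z) s)) := by
      unfold val
      gcongr
      exact setIntegral_le_integral (Good.integrable (hL z))
        (Filter.Eventually.of_forall (hL z).nonneg)
    have h4 : τ0 * (∫ u, L z u ∂σ) * exp (D.b * qe) ≤ D.val (L z) qe s := by
      unfold val
      gcongr
    have h5 : τ0 * exp (D.b * qe) ≤ exp (D.b * (D.Fmax (L z) s)) := by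
      have : (∫ u, L z u ∂σ) * (τ0 * exp (D.b * qe)) ≤
          (∫ u, L z u ∂σ) * exp (D.b * (D.Fmax (L z) s)) := by nlinarith
      exact le_of_mul_le_mul_left this hApos
    have h6 := log_le_log (by positivity) h5
    rw [log_mul hτ0pos.ne' (exp_pos _).ne', log_exp, log_exp, hτ0, one_div, log_inv] at h6
    have hb := D.b_pos
    have h7 : ((qe : ℝ) - log (6 * nc) / D.b) * D.b = (qe : ℝ) * D.b - log (6 * nc) := by
      field_simp
    have h8 : ((qe : ℝ) - log (6 * nc) / D.b) * D.b ≤ (D.Fmax (L z) s : ℝ) * D.b := by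
      rw [h7]; nlinarith
    exact le_of_mul_le_mul_right h8 hb
  -- the remaining part of the target is small
  have hsmall : ∀ z, ∫ s in T z, L z s ∂σ ≤
      ∫ s in G z, L z s ∂σ + nc * τ0 * ∫ u, L z u ∂σ := by
    intro z
    have hi := Good.integrable (σ := σ) (hL z)
    set Bad := T z \ G z with hBad
    have hBadm : MeasurableSet Bad := (hT z).diff (hGm z)
    have hdec : ∫ s in T z, L z s ∂σ = ∫ s in G z, L z s ∂σ + ∫ s in Bad, L z s ∂σ := by
      have hsub : G z ⊆ T z := inter_subset_left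
      rw [← setIntegral_union disjoint_sdiff_self_right.symm.symm hBadm hi.integrableOn
        hi.integrableOn]
      congr 2
      rw [union_diff_cancel hsub]
    have hBadsmall : ∫ s in Bad, L z s ∂σ ≤ ∑ c ∈ cov z,
        (if D.mass (L z) qe c < τ0 * ∫ u, L z u ∂σ then D.mass (L z) qe c else 0) := by
      have hsubU : Bad ⊆ ⋃ c ∈ (cov z).filter
          (fun c => D.mass (L z) qe c < τ0 * ∫ u, L z u ∂σ), D.cell qe c := by
        intro s hs
        simp only [mem_iUnion]
        refine ⟨D.cube qe s, ?_, rfl⟩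
        simp only [Finset.mem_filter]
        refine ⟨hcov z s hs.1, ?_⟩
        by_contra hnot
        exact hs.2 ⟨hs.1, not_lt.1 hnot⟩
      have hUm : MeasurableSet (⋃ c ∈ (cov z).filter
          (fun c => D.mass (L z) qe c < τ0 * ∫ u, L z u ∂σ), D.cell qe c) :=
        Finset.measurableSet_biUnion _ fun c _ => D.cell_meas qe c
      have h1 : ∫ s in Bad, L z s ∂σ ≤ ∫ s in ⋃ c ∈ (cov z).filter
          (fun c => D.mass (L z) qe c < τ0 * ∫ u, L z u ∂σ), D.cell qe c, L z s ∂σ :=
        setIntegral_mono_set hi.integrableOn (Filter.Eventually.of_forall (hL z).nonneg)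
          (LE.le.eventuallyLE hsubU)
      have hd : Set.PairwiseDisjoint (↑((cov z).filter
          (fun c => D.mass (L z) qe c < τ0 * ∫ u, L z u ∂σ))) fun c => D.cell qe c := by
        intro c _ c' _ hne
        refine Set.disjoint_left.2 fun s h1 h2 => hne ?_
        exact h1.symm.trans h2
      rw [integral_biUnion_finset (s := fun c => D.cell qe c) _ (fun c _ => D.cell_meas qe c) hd
        (fun c _ => hi.integrableOn)] at h1
      refine h1.trans (le_of_eq ?_)
      rw [Finset.sum_filter]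
      rfl
    have hbound : ∑ c ∈ cov z,
        (if D.mass (L z) qe c < τ0 * ∫ u, L z u ∂σ then D.mass (L z) qe c else 0) ≤
        nc * τ0 * ∫ u, L z u ∂σ := by
      have hpos : 0 ≤ τ0 * ∫ u, L z u ∂σ := mul_nonneg hτ0pos.le (hA z)
      calc _ ≤ ∑ _c ∈ cov z, τ0 * ∫ u, L z u ∂σ := by
            refine Finset.sum_le_sum fun c _ => ?_
            split_ifs with h
            · exact h.le
            · exact hpos
        _ = (cov z).card * (τ0 * ∫ u, L z u ∂σ) := by simp
        _ ≤ nc * (τ0 * ∫ u, L z u ∂σ) := by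
            have : ((cov z).card : ℝ) ≤ nc := by exact_mod_cast hcard z
            gcongr
        _ = _ := by ring
    rw [hdec]
    linarith
  -- the good mass is at least `1/2`
  have hgoodmass : 1 / 2 ≤ ∑ z, ∫ s in G z, L z s ∂σ := by
    have h1 := Finset.sum_le_sum (s := Finset.univ) fun z _ => hsmall z
    rw [Finset.sum_add_distrib, ← Finset.mul_sum, hAsum] at h1
    have h2 : (nc : ℝ) * τ0 * 1 = 1 / 6 := by rw [hτ0]; field_simp
    linarith
  -- lower bound per state
  have hper : ∀ z, q1 * ∫ s in G z, L z s ∂σ ≤ ∫ s, L z s * ((D.Fmax (L z) s : ℕ) : ℝ) ∂σ := by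
    intro z
    have hi := integrable_mul_comp_Fmax (D := D) (hL z) fun q => (q : ℝ)
    have h1 : ∫ s in G z, L z s * ((D.Fmax (L z) s : ℕ) : ℝ) ∂σ ≤
        ∫ s, L z s * ((D.Fmax (L z) s : ℕ) : ℝ) ∂σ :=
      setIntegral_le_integral hi (Filter.Eventually.of_forall (hFnn z))
    refine le_trans ?_ h1
    rcases (hA z).eq_or_lt with hzero | hApos
    · -- no mass at all
      have hae : ∀ᵐ s ∂σ, L z s = 0 :=
        (integral_eq_zero_iff_of_nonneg (hL z).nonneg (Good.integrable (hL z))).1 hzero.symm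
      have h2 : ∫ s in G z, L z s ∂σ = 0 := by
        apply integral_eq_zero_of_ae
        exact ae_restrict_of_ae hae
      have h3 : ∫ s in G z, L z s * ((D.Fmax (L z) s : ℕ) : ℝ) ∂σ = 0 := by
        apply integral_eq_zero_of_ae
        filter_upwards [ae_restrict_of_ae hae] with s hs
        simp [hs]
      rw [h2, h3]; simp
    · rw [mul_comm, ← integral_mul_const]
      refine setIntegral_mono_on ((Good.integrable (hL z)).mul_const _).integrableOn hi.integrableOn
        (hGm z) fun s hs => ?_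
      exact mul_le_mul_of_nonneg_left (hdeep z s hs hApos) ((hL z).nonneg s)
  have hsumper := Finset.sum_le_sum (s := Finset.univ) fun z _ => hper z
  rw [← Finset.mul_sum] at hsumper
  have : q1 * (1 / 2) ≤ q1 * ∑ z, ∫ s in G z, L z s ∂σ := by gcongr
  linarith

lemma sum_mass0 {f : S → ℝ} (hf : Good f) :
    ∑ c ∈ D.fin0.toFinset, D.mass f 0 c = ∫ s, f s ∂σ := by
  have := (integral_mul_comp_cube0 (D := D) hf fun _ => (1 : ℝ)).2
  simpa using this.symm

end Step

/-! ### The chain -/

/-- The abstract chain of memory states: initial state and block transition probabilities. -/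
structure Chain (σ : Measure S) (Z : Type*) [Fintype Z] where
  z0 : Z
  τ : ℕ → Z → Z → S → ℝ
  good : ∀ j z z', Good (τ j z z')
  sum_one : ∀ j z s, ∑ z', τ j z z' s = 1

namespace Chain

variable {Z : Type*} [Fintype Z] [DecidableEq Z] (C : Chain σ Z)

/-- `L j z s = P[z_j = z | s]` -/
noncomputable def L : ℕ → Z → S → ℝ
  | 0, z, _ => if z = C.z0 then 1 else 0
  | j + 1, z', s => ∑ z, L j z s * C.τ j z z' s

lemma L_nonneg (j : ℕ) (z : Z) (s : S) : 0 ≤ C.L j z s := by
  induction j generalizing z with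
  | zero => simp only [L]; split_ifs <;> norm_num
  | succ j ih =>
    simp only [L]
    exact Finset.sum_nonneg fun z' _ => mul_nonneg (ih z') ((C.good _ _ _).nonneg s)

lemma L_sum (j : ℕ) (s : S) : ∑ z, C.L j z s = 1 := by
  induction j with
  | zero => simp [L]
  | succ j ih =>
    simp only [L]
    rw [Finset.sum_comm]
    simp_rw [← Finset.mul_sum, C.sum_one, mul_one]
    exact ih

lemma L_le_one (j : ℕ) (z : Z) (s : S) : C.L j z s ≤ 1 := by
  rw [← C.L_sum j s]
  exact Finset.single_le_sum (f := fun z => C.L j z s) (fun z _ => C.L_nonneg j z s) (Finset.mem_univ z)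

lemma L_meas (j : ℕ) (z : Z) : Measurable (C.L j z) := by
  induction j generalizing z with
  | zero => exact measurable_const
  | succ j ih =>
    have : C.L (j + 1) z = fun s => ∑ z', C.L j z' s * C.τ j z' z s := rfl
    rw [this]
    exact Finset.measurable_fun_sum _ fun z' _ => (ih z').mul (C.good _ _ _).meas

lemma L_good (j : ℕ) (z : Z) : Good (C.L j z) := ⟨C.L_meas j z, C.L_nonneg j z, C.L_le_one j z⟩

lemma sum_integral_L (j : ℕ) : ∑ z, ∫ s, C.L j z s ∂σ = 1 := by
  rw [← integral_finset_sum _ fun z _ => Good.integrable (C.L_good j z)]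
  simp [C.L_sum]

variable [Countable α] (D : LevelData σ α)

/-- The total potential at step `j`. -/
noncomputable def Phi (j : ℕ) : ℝ := ∑ z, ∫ s, D.pot (C.L j z) s ∂σ

/-- log of the number of level-0 cells -/
noncomputable def H00 : ℝ := log (D.fin0.toFinset.card)

/-- the a priori bound on the average level -/
noncomputable def Ebar : ℝ := (D.B + log (Fintype.card Z * (D.fin0.toFinset.card : ℝ))) / D.a

/-- the logarithmic loss -/
noncomputable def ell : ℝ := 2 * log (Ebar (Z := Z) D + 2)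

lemma nonempty_R : D.fin0.toFinset.Nonempty := by
  have : Nonempty S := by
    by_contra h
    rw [not_nonempty_iff] at h
    have h1 : σ univ = 1 := measure_univ
    rw [Set.univ_eq_empty_iff.2 h, measure_empty] at h1
    exact zero_ne_one h1
  obtain ⟨s⟩ := this
  exact ⟨D.cube 0 s, by simp⟩

/-- Entropy of all level-0 masses of all states -/
lemma sum_H0_le (j : ℕ) : ∑ z, D.H0 (C.L j z) ≤ log (Fintype.card Z * (D.fin0.toFinset.card : ℝ)) := by
  classical
  set R := D.fin0.toFinset with hR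
  have hZ : (Finset.univ : Finset Z).Nonempty := ⟨C.z0, Finset.mem_univ _⟩
  have hne : ((Finset.univ : Finset Z) ×ˢ R).Nonempty := hZ.product (nonempty_R D)
  have hsum : ∑ i ∈ (Finset.univ : Finset Z) ×ˢ R, D.mass (C.L j i.1) 0 i.2 = 1 := by
    rw [Finset.sum_product]
    simp_rw [hR, sum_mass0 (C.L_good j _)]
    exact C.sum_integral_L j
  have h := entropy_le_log_card ((Finset.univ : Finset Z) ×ˢ R) hne
    (fun i => D.mass (C.L j i.1) 0 i.2) (fun i _ => mass_nonneg (C.L_good j _) _ _) hsum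
  rw [Finset.sum_product] at h
  simp only [H0]
  refine h.trans (le_of_eq ?_)
  rw [Finset.card_product]
  push_cast
  rfl

lemma expF_le (j : ℕ) :
    ∑ z, ∫ s, C.L j z s * ((D.Fmax (C.L j z) s : ℕ) : ℝ) ∂σ ≤ Ebar (Z := Z) D := by
  have h1 : ∀ z, D.a * ∫ s, C.L j z s * ((D.Fmax (C.L j z) s : ℕ) : ℝ) ∂σ ≤
      D.B * ∫ s, C.L j z s ∂σ + D.H0 (C.L j z) := fun z => Fmax_apriori (C.L_good j z)
  have h2 := Finset.sum_le_sum (s := Finset.univ) fun z _ => h1 z
  rw [Finset.sum_add_distrib, ← Finset.mul_sum, ← Finset.mul_sum, C.sum_integral_L, mul_one] at h2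
  have h3 := C.sum_H0_le D j
  unfold Ebar
  rw [le_div_iff₀ D.a_pos]
  linarith

lemma expF_nonneg (j : ℕ) :
    0 ≤ ∑ z, ∫ s, C.L j z s * ((D.Fmax (C.L j z) s : ℕ) : ℝ) ∂σ :=
  Finset.sum_nonneg fun z _ => integral_nonneg fun s =>
    mul_nonneg (C.L_nonneg j z s) (Nat.cast_nonneg _)

lemma lam_sum_le (j : ℕ) :
    ∑ z, ∫ s, C.L j z s * lam (D.Fmax (C.L j z) s) ∂σ ≤ ell (Z := Z) D := by
  set m : ℝ := Ebar (Z := Z) D + 2 with hm
  have hE0 : 0 ≤ Ebar (Z := Z) D := (C.expF_nonneg D j).trans (C.expF_le D j)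
  have hmpos : 0 < m := by linarith
  -- tangent-line bound
  have hpt : ∀ q : ℕ, lam q ≤ 2 * (log m + ((q : ℝ) + 2) / m - 1) := by
    intro q
    refine (lam_le q).trans ?_
    have hq : (0 : ℝ) < (q : ℝ) + 2 := by positivity
    have h1 := Real.log_le_sub_one_of_pos (div_pos hq hmpos)
    rw [log_div hq.ne' hmpos.ne'] at h1
    linarith
  have hper : ∀ z, ∫ s, C.L j z s * lam (D.Fmax (C.L j z) s) ∂σ ≤
      2 * ((log m + 2 / m - 1) * ∫ s, C.L j z s ∂σ +
        (∫ s, C.L j z s * ((D.Fmax (C.L j z) s : ℕ) : ℝ) ∂σ) / m) := by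
    intro z
    have hgood := C.L_good j z
    have hiF := integrable_mul_comp_Fmax (D := D) hgood fun q => (q : ℝ)
    have hiL := Good.integrable (σ := σ) hgood
    have hi2 : Integrable (fun s => 2 * ((log m + 2 / m - 1) * C.L j z s +
        (C.L j z s * ((D.Fmax (C.L j z) s : ℕ) : ℝ)) / m)) σ :=
      ((hiL.const_mul _).add (hiF.div_const _)).const_mul _
    have h3 : ∫ s, C.L j z s * lam (D.Fmax (C.L j z) s) ∂σ ≤
        ∫ s, 2 * ((log m + 2 / m - 1) * C.L j z s +
          (C.L j z s * ((D.Fmax (C.L j z) s : ℕ) : ℝ)) / m) ∂σ := by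
      refine integral_mono (integrable_mul_comp_Fmax hgood lam) hi2 fun s => ?_
      have h4 := hpt (D.Fmax (C.L j z) s)
      have h5 := C.L_nonneg j z s
      have h6 : C.L j z s * lam (D.Fmax (C.L j z) s) ≤
          C.L j z s * (2 * (log m + ((D.Fmax (C.L j z) s : ℝ) + 2) / m - 1)) := by gcongr
      refine h6.trans (le_of_eq ?_)
      field_simp
      ring
    refine h3.trans (le_of_eq ?_)
    rw [integral_const_mul, integral_add (hiL.const_mul _) (hiF.div_const _), integral_const_mul,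
      integral_div]
  have h7 := Finset.sum_le_sum (s := Finset.univ) fun z _ => hper z
  rw [← Finset.mul_sum, Finset.sum_add_distrib, ← Finset.mul_sum, C.sum_integral_L, mul_one,
    ← Finset.sum_div] at h7
  refine h7.trans ?_
  have h8 := C.expF_le D j
  have h9 : (∑ z, ∫ s, C.L j z s * ((D.Fmax (C.L j z) s : ℕ) : ℝ) ∂σ) / m ≤ Ebar (Z := Z) D / m := by
    gcongr
  have h10 : Ebar (Z := Z) D / m + 2 / m = 1 := by
    rw [← add_div, hm]; field_simp
  unfold ell
  linarith

/-- START: the initial potential is at most the log of the number of level-0 cells. -/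
lemma Phi_zero_le : Phi C D 0 ≤ H00 D := by
  classical
  have hgood : Good (fun _ : S => (1 : ℝ)) :=
    ⟨measurable_const, fun _ => zero_le_one, fun _ => le_rfl⟩
  have hL0 : ∀ z, C.L 0 z = fun _ => if z = C.z0 then (1 : ℝ) else 0 := fun z => rfl
  have h1 : Phi C D 0 = ∫ s, D.pot (fun _ => (1 : ℝ)) s ∂σ := by
    unfold Phi
    rw [Finset.sum_eq_single C.z0]
    · rw [hL0]; simp
    · intro z _ hz
      rw [hL0]
      simp [pot, hz]
    · simp
  rw [h1]
  refine (pot_upper hgood).trans ?_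
  unfold H0 H00
  refine entropy_le_log_card _ (nonempty_R D) _ (fun c _ => mass_nonneg hgood _ _) ?_
  rw [sum_mass0 hgood]
  simp

/-- STEP, given the Window Lemma bound on all classes. -/
theorem Phi_succ_le {Δ ρ : ℝ} (hρ : 0 ≤ ρ) (j : ℕ)
    (hWL : ∀ (z : Z) (p : ℕ × α), 0 < ∫ s in D.classSet (C.L j z) p, C.L j z s ∂σ →
      info (C.L j z) (C.τ j z) (D.classSet (C.L j z) p) σ ≤
        Δ + ρ * log (D.mass (C.L j z) p.1 p.2 / ∫ s in D.classSet (C.L j z) p, C.L j z s ∂σ)) :
    Phi C D (j + 1) ≤ Phi C D j + Δ + (1 + ρ) * ell (Z := Z) D := by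
  have hg := fun z' => C.L_good (j + 1) z'
  have hle : ∀ z z' s, C.L j z s * C.τ j z z' s ≤ C.L (j + 1) z' s := by
    intro z z' s
    show C.L j z s * C.τ j z z' s ≤ ∑ z'', C.L j z'' s * C.τ j z'' z' s
    exact Finset.single_le_sum (f := fun z'' => C.L j z'' s * C.τ j z'' z' s)
      (fun z'' _ => mul_nonneg (C.L_nonneg j z'' s) ((C.good _ _ _).nonneg s)) (Finset.mem_univ z)
  have hi : ∀ z z', Integrable (fun s => C.L j z s * C.τ j z z' s *
      log (C.L (j + 1) z' s / D.val (C.L (j + 1) z') (D.Fmax (C.L (j + 1) z') s) s)) σ :=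
    fun z z' => integrable_mul_log_div_val ((C.L_meas j z).mul (C.good _ _ _).meas) (hg z')
      (fun s => mul_nonneg (C.L_nonneg j z s) ((C.good _ _ _).nonneg s)) (hle z z')
  have hexp : Phi C D (j + 1) = ∑ z, ∑ z', ∫ s, C.L j z s * C.τ j z z' s *
      log (C.L (j + 1) z' s / D.val (C.L (j + 1) z') (D.Fmax (C.L (j + 1) z') s) s) ∂σ := by
    unfold Phi
    rw [Finset.sum_comm]
    refine Finset.sum_congr rfl fun z' _ => ?_
    rw [← integral_finset_sum _ fun z _ => hi z z']
    refine integral_congr_ae (Filter.Eventually.of_forall fun s => ?_)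
    simp only [pot]
    rw [← Finset.sum_mul]
    rfl
  rw [hexp]
  have hone : ∀ z, ∑ z', ∫ s, C.L j z s * C.τ j z z' s *
      log (C.L (j + 1) z' s / D.val (C.L (j + 1) z') (D.Fmax (C.L (j + 1) z') s) s) ∂σ ≤
      ∫ s, D.pot (C.L j z) s ∂σ + (∫ s, C.L j z s ∂σ) * Δ +
        (1 + ρ) * ∫ s, C.L j z s * lam (D.Fmax (C.L j z) s) ∂σ := fun z =>
    step_one (C.L_good j z) (fun z' => C.good j z z') (C.sum_one j z) hg (hle z) hρ (hWL z)
  have hsum := Finset.sum_le_sum (s := Finset.univ) fun z _ => hone z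
  rw [Finset.sum_add_distrib, Finset.sum_add_distrib, ← Finset.sum_mul, C.sum_integral_L, one_mul,
    ← Finset.mul_sum] at hsum
  refine hsum.trans ?_
  have h2 := C.lam_sum_le D j
  have h1ρ : 0 ≤ 1 + ρ := by linarith
  have h3 : (1 + ρ) * ∑ z, ∫ s, C.L j z s * lam (D.Fmax (C.L j z) s) ∂σ ≤
      (1 + ρ) * ell (Z := Z) D := by gcongr
  unfold Phi
  linarith

/-- Iterating. -/
theorem Phi_le {Δ ρ : ℝ} (hρ : 0 ≤ ρ) (J : ℕ)
    (hWL : ∀ (j : ℕ), j < J → ∀ (z : Z) (p : ℕ × α),
      0 < ∫ s in D.classSet (C.L j z) p, C.L j z s ∂σ →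
      info (C.L j z) (C.τ j z) (D.classSet (C.L j z) p) σ ≤
        Δ + ρ * log (D.mass (C.L j z) p.1 p.2 / ∫ s in D.classSet (C.L j z) p, C.L j z s ∂σ)) :
    Phi C D J ≤ H00 D + J * (Δ + (1 + ρ) * ell (Z := Z) D) := by
  induction J with
  | zero => simpa using C.Phi_zero_le D
  | succ J ih =>
    have h1 := ih fun j hj => hWL j (by omega)
    have h2 := C.Phi_succ_le D hρ J (hWL J (by omega))
    push_cast
    linarith

/-- END: the average level is controlled by the potential. -/
theorem expF_le_Phi (j : ℕ) :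
    D.a * ∑ z, ∫ s, C.L j z s * ((D.Fmax (C.L j z) s : ℕ) : ℝ) ∂σ ≤
      Phi C D j + D.B + ell (Z := Z) D := by
  have h1 : ∀ z, D.a * ∫ s, C.L j z s * ((D.Fmax (C.L j z) s : ℕ) : ℝ) ∂σ -
      D.B * ∫ s, C.L j z s ∂σ - ∫ s, C.L j z s * lam (D.Fmax (C.L j z) s) ∂σ ≤
      ∫ s, D.pot (C.L j z) s ∂σ := fun z => pot_lower (C.L_good j z)
  have h2 := Finset.sum_le_sum (s := Finset.univ) fun z _ => h1 z
  rw [Finset.sum_sub_distrib, Finset.sum_sub_distrib, ← Finset.mul_sum, ← Finset.mul_sum,
    C.sum_integral_L, mul_one] at h2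
  have h3 := C.lam_sum_le D j
  unfold Phi
  linarith

/-- FINAL abstract bound. -/
theorem final_bound {Δ ρ : ℝ} (hρ : 0 ≤ ρ) (J : ℕ)
    (hWL : ∀ (j : ℕ), j < J → ∀ (z : Z) (p : ℕ × α),
      0 < ∫ s in D.classSet (C.L j z) p, C.L j z s ∂σ →
      info (C.L j z) (C.τ j z) (D.classSet (C.L j z) p) σ ≤
        Δ + ρ * log (D.mass (C.L j z) p.1 p.2 / ∫ s in D.classSet (C.L j z) p, C.L j z s ∂σ))
    (qe : ℕ) (T : Z → Set S) (hT : ∀ z, MeasurableSet (T z)) (cov : Z → Finset α) (nc : ℕ)
    (hnc : 0 < nc) (hcard : ∀ z, (cov z).card ≤ nc) (hcov : ∀ z s, s ∈ T z → D.cube qe s ∈ cov z)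
    (hsucc : 2 / 3 ≤ ∑ z, ∫ s in T z, C.L J z s ∂σ) :
    D.a * ((1 / 2) * ((qe : ℝ) - log (6 * nc) / D.b)) ≤
      H00 D + J * (Δ + (1 + ρ) * ell (Z := Z) D) + D.B + ell (Z := Z) D := by
  have h1 := success_depth (D := D) (fun z => C.L_good J z) (C.L_sum J) qe T hT cov nc hnc hcard
    hcov hsucc
  have h2 := C.expF_le_Phi D J
  have h3 := C.Phi_le D hρ J hWL
  have h4 : D.a * ((1 / 2) * ((qe : ℝ) - log (6 * nc) / D.b)) ≤
      D.a * ∑ z, ∫ s, C.L J z s * ((D.Fmax (C.L J z) s : ℕ) : ℝ) ∂σ :=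
    mul_le_mul_of_nonneg_left h1 D.a_pos.le
  linarith

end Chain

end LevelData

end MemSample.Potential
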