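import Mathlib

/-!
# Dyadic grids in `ℝ^w` and the `L^k`-Hölder bound through grid moments (S0499, step (e))

`gridCube τ z` is the half-open cube of side `τ` with index `z ∈ ℤ^w`.
`Lam w k m ν` is the `k`-th grid moment at mesh `τ = 2^(-m)`:
`Λ_m(ν) = ∑_z τ^{w(1-k)} ν(c_z)^k`.

Main result: `measure_le_liminf_Lam`:
`ν A ≤ (volume A)^(1-1/k) * (liminf Λ_m(ν))^(1/k)` when `A` has finite volume and the liminf is finite.
-/

set_option autoImplicit false

open MeasureTheory Set Filter Topology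
open scoped ENNReal NNReal

namespace MemSample

variable {w : ℕ}

/-- Half-open cube of side `τ` with integer index `z` in `ℝ^w`. -/
def gridCube (τ : ℝ) (z : Fin w → ℤ) : Set (Fin w → ℝ) :=
  Set.pi univ fun i => Ico ((z i : ℝ) * τ) (((z i : ℝ) + 1) * τ)

/-- Index of the grid cube containing `y`. -/
noncomputable def gridIndex (τ : ℝ) (y : Fin w → ℝ) : Fin w → ℤ := fun i => ⌊y i / τ⌋

lemma mem_gridCube_iff {τ : ℝ} (hτ : 0 < τ) {z : Fin w → ℤ} {y : Fin w → ℝ} :
    y ∈ gridCube τ z ↔ gridIndex τ y = z := by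
  simp only [gridCube, Set.mem_pi, mem_univ, forall_true_left, mem_Ico, gridIndex, funext_iff,
    Int.floor_eq_iff]
  refine forall_congr' fun i => ?_
  rw [le_div_iff₀ hτ, div_lt_iff₀ hτ]

lemma mem_gridCube_gridIndex {τ : ℝ} (hτ : 0 < τ) (y : Fin w → ℝ) :
    y ∈ gridCube τ (gridIndex τ y) := (mem_gridCube_iff hτ).2 rfl

lemma measurableSet_gridCube (τ : ℝ) (z : Fin w → ℤ) : MeasurableSet (gridCube τ z) :=
  MeasurableSet.univ_pi fun _ => measurableSet_Ico

lemma volume_gridCube {τ : ℝ} (_hτ : 0 < τ) (z : Fin w → ℤ) :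
    volume (gridCube τ z) = ENNReal.ofReal τ ^ w := by
  rw [gridCube, Real.volume_pi_Ico]
  simp only [add_mul, one_mul, add_sub_cancel_left, Finset.prod_const, Finset.card_univ,
    Fintype.card_fin]

lemma gridCube_disjoint {τ : ℝ} (hτ : 0 < τ) : Pairwise (Function.onFun Disjoint
    (gridCube (w := w) τ)) := by
  intro z z' hzz
  refine Set.disjoint_left.2 fun y hy hy' => hzz ?_
  rw [← (mem_gridCube_iff hτ).1 hy, ← (mem_gridCube_iff hτ).1 hy']

/-- The mesh `2^(-m)`. -/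
noncomputable def mesh (m : ℕ) : ℝ := (2 : ℝ)⁻¹ ^ m

lemma mesh_pos (m : ℕ) : 0 < mesh m := by unfold mesh; positivity

lemma ofReal_mesh (m : ℕ) : ENNReal.ofReal (mesh m) = ((2 : ℝ≥0∞) ^ m)⁻¹ := by
  rw [mesh, ENNReal.ofReal_pow (by norm_num), ENNReal.inv_pow]
  congr 1
  rw [ENNReal.ofReal_inv_of_pos (by norm_num)]
  simp

/-- The `k`-th grid moment at mesh `2^(-m)`:
`Λ_m(ν) = ∑_z (2^m)^{w (k-1)} ν(c_z)^k`. -/
noncomputable def Lam (w k m : ℕ) (ν : Measure (Fin w → ℝ)) : ℝ≥0∞ :=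
  ∑' z : Fin w → ℤ, ((2 : ℝ≥0∞) ^ m) ^ (w * (k - 1)) * ν (gridCube (mesh m) z) ^ k

/-- Hölder on a set `Z` of grid cubes. -/
lemma measure_iUnion_le_Lam {k : ℕ} (hk : 2 ≤ k) (m : ℕ) (ν : Measure (Fin w → ℝ))
    (Z : Set (Fin w → ℤ)) :
    ν (⋃ z ∈ Z, gridCube (mesh m) z) ≤
      (volume (⋃ z ∈ Z, gridCube (mesh m) z)) ^ (1 - 1 / (k : ℝ)) *
        (Lam w k m ν) ^ (1 / (k : ℝ)) := by
  classical
  have hτ := mesh_pos m
  have hk0 : (0 : ℝ) < k := by positivity
  have hk1 : (1 : ℝ) < k := by exact_mod_cast (by omega : 1 < k)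
  -- Hölder exponents
  set q : ℝ := (k : ℝ) with hq
  set p : ℝ := q / (q - 1) with hp
  have hpq : p.HolderConjugate q := by
    have := Real.HolderConjugate.conjExponent (p := q) hk1
    exact this.symm
  have hp1 : 1 / p = 1 - 1 / q := by
    rw [hp]; field_simp [(by linarith : q - 1 ≠ 0)]
  -- the union is a disjoint sum
  have hdisj : Pairwise (Function.onFun Disjoint fun z : Z => gridCube (w := w) (mesh m) z) :=
    fun a b hab => gridCube_disjoint hτ (fun h => hab (Subtype.ext h))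
  have hU : (⋃ z ∈ Z, gridCube (w := w) (mesh m) z) = ⋃ z : Z, gridCube (mesh m) (z : Fin w → ℤ) := by
    ext y; simp
  have hν : ν (⋃ z : Z, gridCube (w := w) (mesh m) z) = ∑' z : Z, ν (gridCube (mesh m) z) :=
    measure_iUnion hdisj (fun z => measurableSet_gridCube _ _)
  have hvol : volume (⋃ z : Z, gridCube (w := w) (mesh m) z)
      = ∑' z : Z, volume (gridCube (w := w) (mesh m) z) :=
    measure_iUnion hdisj (fun z => measurableSet_gridCube _ _)
  rw [hU, hν, hvol, ENNReal.tsum_eq_iSup_sum]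
  refine iSup_le fun F => ?_
  -- coefficients: `a = τ^(w(1-1/q))`, `b = τ^(-w(1-1/q)) ν(c)`
  set T : ℝ≥0∞ := ENNReal.ofReal (mesh m) ^ w with hT
  have hT0 : T ≠ 0 := by
    rw [hT]; exact pow_ne_zero _ (by simpa using hτ)
  have hTtop : T ≠ ∞ := by rw [hT]; exact ENNReal.pow_ne_top ENNReal.ofReal_ne_top
  set a : ℝ≥0∞ := T ^ (1 / p) with ha
  have ha0 : a ≠ 0 := by
    rw [ha]; simp [ENNReal.rpow_eq_zero_iff, hT0, hTtop]
  have hatop : a ≠ ∞ := by
    rw [ha]; exact ENNReal.rpow_ne_top_of_nonneg (by have := hpq.pos; positivity) hTtop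
  have hsplit : ∀ z : Z, ν (gridCube (mesh m) (z : Fin w → ℤ)) =
      a * (a⁻¹ * ν (gridCube (mesh m) (z : Fin w → ℤ))) := by
    intro z
    rw [← mul_assoc, ENNReal.mul_inv_cancel ha0 hatop, one_mul]
  calc ∑ z ∈ F, ν (gridCube (mesh m) (z : Fin w → ℤ))
      = ∑ z ∈ F, a * (a⁻¹ * ν (gridCube (mesh m) (z : Fin w → ℤ))) :=
        Finset.sum_congr rfl fun z _ => hsplit z
    _ ≤ (∑ _z ∈ F, a ^ p) ^ (1 / p) *
        (∑ z ∈ F, (a⁻¹ * ν (gridCube (mesh m) (z : Fin w → ℤ))) ^ q) ^ (1 / q) :=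
        ENNReal.inner_le_Lp_mul_Lq F _ _ hpq
    _ ≤ (∑' z : Z, volume (gridCube (w := w) (mesh m) z)) ^ (1 - 1 / (k : ℝ)) *
        (Lam w k m ν) ^ (1 / (k : ℝ)) := by
        refine mul_le_mul' ?_ ?_
        · rw [hp1]
          refine ENNReal.rpow_le_rpow ?_ (by
            rw [← hp1]; have := hpq.pos; positivity)
          have hap : a ^ p = T := by
            rw [ha, ← ENNReal.rpow_mul, one_div, inv_mul_cancel₀ hpq.ne_zero, ENNReal.rpow_one]
          calc ∑ _z ∈ F, a ^ p = ∑ z ∈ F, volume (gridCube (w := w) (mesh m) (z : Fin w → ℤ)) := by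
                refine Finset.sum_congr rfl fun z _ => ?_
                rw [hap, volume_gridCube hτ, hT]
            _ ≤ _ := ENNReal.sum_le_tsum F
        · refine ENNReal.rpow_le_rpow ?_ (by positivity)
          -- injectivity of `Subtype.val` and the identification of coefficients
          have hcoef : ∀ z : Z, (a⁻¹ * ν (gridCube (mesh m) (z : Fin w → ℤ))) ^ q =
              ((2 : ℝ≥0∞) ^ m) ^ (w * (k - 1)) * ν (gridCube (mesh m) (z : Fin w → ℤ)) ^ k := by
            intro z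
            rw [ENNReal.mul_rpow_of_nonneg _ _ hk0.le, hq, ENNReal.rpow_natCast, ENNReal.rpow_natCast]
            congr 1
            -- `a⁻¹ ^ k = T⁻¹ ^ (k-1)`
            have hakey : a ^ k = T ^ (k - 1) := by
              rw [ha, ← ENNReal.rpow_natCast, ← ENNReal.rpow_mul, ← ENNReal.rpow_natCast]
              congr 1
              rw [Nat.cast_sub (by omega)]
              rw [hp, ← hq]
              field_simp [(by linarith : q - 1 ≠ 0), hk0.ne']
              simp
            have hT2 : T = (((2 : ℝ≥0∞) ^ m) ^ w)⁻¹ := by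
              rw [hT, ofReal_mesh]
              exact (ENNReal.inv_pow (a := (2 : ℝ≥0∞) ^ m) (n := w)).symm
            have h2 : ((2 : ℝ≥0∞) ^ m) ^ (w * (k - 1)) = (T⁻¹) ^ (k - 1) := by
              rw [hT2, inv_inv, pow_mul]
            rw [h2, ← ENNReal.inv_pow, ← ENNReal.inv_pow, hakey]
          calc ∑ z ∈ F, (a⁻¹ * ν (gridCube (mesh m) (z : Fin w → ℤ))) ^ q
              = ∑ z ∈ F, ((2 : ℝ≥0∞) ^ m) ^ (w * (k - 1)) *
                  ν (gridCube (mesh m) (z : Fin w → ℤ)) ^ k :=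
                Finset.sum_congr rfl fun z _ => hcoef z
            _ ≤ ∑' z : Z, ((2 : ℝ≥0∞) ^ m) ^ (w * (k - 1)) *
                  ν (gridCube (mesh m) (z : Fin w → ℤ)) ^ k := ENNReal.sum_le_tsum F
            _ ≤ Lam w k m ν := ENNReal.tsum_comp_le_tsum_of_injective Subtype.val_injective _

/-- Open sets, finite volume: `ν O ≤ (vol O)^(1-1/k) (liminf Λ_m ν)^(1/k)`. -/
lemma measure_open_le_liminf_Lam {k : ℕ} (hk : 2 ≤ k) (ν : Measure (Fin w → ℝ))
    {O : Set (Fin w → ℝ)} (hO : IsOpen O) (hfin : volume O ≠ ∞) :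
    ν O ≤ (volume O) ^ (1 - 1 / (k : ℝ)) *
      (liminf (fun m => Lam w k m ν) atTop) ^ (1 / (k : ℝ)) := by
  have hk0 : (0 : ℝ) < k := by positivity
  have hk1 : (1 : ℝ) ≤ k := by exact_mod_cast (by omega : 1 ≤ k)
  have h1k : (0 : ℝ) ≤ 1 - 1 / (k : ℝ) := by
    rw [sub_nonneg, div_le_one hk0]; exact hk1
  set U : ℕ → Set (Fin w → ℝ) := fun m =>
    ⋃ z ∈ {z : Fin w → ℤ | gridCube (mesh m) z ⊆ O}, gridCube (mesh m) z with hU
  have hUO : ∀ m, U m ⊆ O := fun m => by
    simp only [hU]; exact iUnion₂_subset fun z hz => hz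
  have hUmeas : ∀ m, MeasurableSet (U m) := fun m => by
    simp only [hU]
    exact MeasurableSet.biUnion (Set.to_countable _) fun z _ => measurableSet_gridCube _ _
  -- each point of `O` is eventually in `U m`
  have hev : ∀ y ∈ O, ∀ᶠ m in atTop, y ∈ U m := by
    intro y hy
    obtain ⟨δ, hδ, hball⟩ := Metric.isOpen_iff.1 hO y hy
    have hlim : Tendsto mesh atTop (𝓝 0) := by
      unfold mesh
      exact tendsto_pow_atTop_nhds_zero_of_lt_one (by norm_num) (by norm_num)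
    filter_upwards [hlim.eventually (gt_mem_nhds hδ)] with m hm
    have hτ := mesh_pos m
    simp only [hU, mem_iUnion, mem_ofPred_eq, exists_prop]
    refine ⟨gridIndex (mesh m) y, fun x hx => hball ?_, mem_gridCube_gridIndex hτ y⟩
    have hy' := mem_gridCube_gridIndex hτ y
    rw [Metric.mem_ball, dist_pi_lt_iff hδ]
    intro i
    have h1 := hx i (mem_univ i)
    have h2 := hy' i (mem_univ i)
    rw [Real.dist_eq, abs_lt]
    simp only [mem_Ico, add_mul, one_mul] at h1 h2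
    constructor <;> linarith [h1.1, h1.2, h2.1, h2.2]
  -- Fatou
  have hfatou : ν O ≤ liminf (fun m => ν (U m)) atTop := by
    have h := lintegral_liminf_le (μ := ν) (u := (atTop : Filter ℕ))
      (f := fun m y => (U m).indicator (fun _ => (1 : ℝ≥0∞)) y)
      (fun m => measurable_const.indicator (hUmeas m))
    have hval : ∀ m, ∫⁻ y, (U m).indicator (fun _ => (1 : ℝ≥0∞)) y ∂ν = ν (U m) := by
      intro m; rw [lintegral_indicator (hUmeas m)]; simp
    simp only [hval] at h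
    refine le_trans ?_ h
    -- lower bound of the integrand
    have hpt : ∀ y, O.indicator (fun _ => (1 : ℝ≥0∞)) y ≤
        liminf (fun m => (U m).indicator (fun _ => (1 : ℝ≥0∞)) y) atTop := by
      intro y
      by_cases hy : y ∈ O
      · have : ∀ᶠ m in atTop, (U m).indicator (fun _ => (1 : ℝ≥0∞)) y = 1 :=
          (hev y hy).mono fun m hm => by simp [hm]
        rw [liminf_congr this]
        simp [hy]
      · simp [hy]
    calc ν O = ∫⁻ y, O.indicator (fun _ => (1 : ℝ≥0∞)) y ∂ν := by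
          rw [lintegral_indicator hO.measurableSet]; simp
      _ ≤ _ := lintegral_mono hpt
  refine hfatou.trans ?_
  -- pass the bound through the liminf
  have hstep : ∀ m, ν (U m) ≤ (volume O) ^ (1 - 1 / (k : ℝ)) * (Lam w k m ν) ^ (1 / (k : ℝ)) := by
    intro m
    refine (measure_iUnion_le_Lam hk m ν _).trans ?_
    exact mul_le_mul' (ENNReal.rpow_le_rpow (measure_mono (hUO m)) h1k) le_rfl
  have hc : (volume O) ^ (1 - 1 / (k : ℝ)) ≠ ∞ := ENNReal.rpow_ne_top_of_nonneg h1k hfin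
  calc liminf (fun m => ν (U m)) atTop
      ≤ liminf (fun m => (volume O) ^ (1 - 1 / (k : ℝ)) * (Lam w k m ν) ^ (1 / (k : ℝ))) atTop :=
        liminf_le_liminf (Eventually.of_forall hstep)
    _ = (volume O) ^ (1 - 1 / (k : ℝ)) *
          liminf (fun m => (Lam w k m ν) ^ (1 / (k : ℝ))) atTop :=
        ENNReal.liminf_const_mul_of_ne_top hc
    _ = _ := by
        congr 1
        have hpos : (0 : ℝ) < 1 / (k : ℝ) := by positivity
        exact ((ENNReal.orderIsoRpow (1 / (k : ℝ)) hpos).liminf_apply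
          (u := fun m => Lam w k m ν) (f := atTop)
          (by isBoundedDefault) (by isBoundedDefault) (by isBoundedDefault)
          (by isBoundedDefault)).symm

/-- **Lemma B.** For a finite-volume set `A` and a measure `ν` whose grid-moment liminf is finite:
`ν A ≤ (vol A)^(1-1/k) (liminf Λ_m ν)^(1/k)`. -/
theorem measure_le_liminf_Lam {k : ℕ} (hk : 2 ≤ k) (ν : Measure (Fin w → ℝ))
    (A : Set (Fin w → ℝ)) (hfin : volume A ≠ ∞)
    (hL : liminf (fun m => Lam w k m ν) atTop ≠ ∞) :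
    ν A ≤ (volume A) ^ (1 - 1 / (k : ℝ)) *
      (liminf (fun m => Lam w k m ν) atTop) ^ (1 / (k : ℝ)) := by
  have hk0 : (0 : ℝ) < k := by positivity
  have hk1 : (1 : ℝ) ≤ k := by exact_mod_cast (by omega : 1 ≤ k)
  have h1k : (0 : ℝ) ≤ 1 - 1 / (k : ℝ) := by
    rw [sub_nonneg, div_le_one hk0]; exact hk1
  set L := (liminf (fun m => Lam w k m ν) atTop) ^ (1 / (k : ℝ)) with hLdef
  have hLfin : L ≠ ∞ := ENNReal.rpow_ne_top_of_nonneg (by positivity) hL
  -- limit in `δ`
  have hcont : Tendsto (fun δ : ℝ≥0∞ => (volume A + δ) ^ (1 - 1 / (k : ℝ)) * L) (𝓝[>] 0)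
      (𝓝 ((volume A) ^ (1 - 1 / (k : ℝ)) * L)) := by
    have h1 : Tendsto (fun δ : ℝ≥0∞ => volume A + δ) (𝓝 0) (𝓝 (volume A + 0)) :=
      tendsto_const_nhds.add tendsto_id
    rw [add_zero] at h1
    have h2 := (ENNReal.continuous_rpow_const (y := 1 - 1 / (k : ℝ))).tendsto (volume A) |>.comp h1
    have h3 := ENNReal.Tendsto.mul_const h2 (Or.inr hLfin)
    exact h3.mono_left nhdsWithin_le_nhds
  refine ge_of_tendsto hcont ?_
  filter_upwards [Ioo_mem_nhdsGT (show (0 : ℝ≥0∞) < 1 by norm_num)] with δ hδ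
  have hδ0 : δ ≠ 0 := (ne_of_gt hδ.1)
  have hδtop : δ ≠ ∞ := ne_top_of_lt hδ.2
  obtain ⟨O, hAO, hO, hOle⟩ := Set.exists_isOpen_le_add A volume hδ0
  have hOfin : volume O ≠ ∞ := ne_top_of_le_ne_top (ENNReal.add_ne_top.2 ⟨hfin, hδtop⟩) hOle
  calc ν A ≤ ν O := measure_mono hAO
    _ ≤ _ := measure_open_le_liminf_Lam hk ν hO hOfin
    _ ≤ _ := mul_le_mul' (ENNReal.rpow_le_rpow hOle h1k) le_rfl

end MemSample
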