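import Mathlib

/-!
# The round ball in measurement space (S0499, replacement of step (f))

`roundBall c R2 = {y : ℝ^w | ∑ (y i - c i)^2 ≤ R2}`.

* `volume_roundBall_le`: `vol {∑ (y i - c i)^2 ≤ K w r^2} ≤ (2π e K r²)^{w/2}` (Gaussian weight, no Gamma).
* `lintegral_inner_sq_stdGaussian`: `E_γ ⟪x,v⟫² = ‖v‖²`.
* `lintegral_miss_le`: averaged over the Gaussian rows `X`, at most `μ(univ)/K` of the mass of `μ`
  is mapped by `s ↦ (⟪X i, s⟫)_i` outside the round ball centred at the image of `c0` of squared radius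
  `K w r²`, when `μ` is carried by `‖s - c0‖ ≤ r`.
-/

set_option autoImplicit false

open MeasureTheory Set Filter Topology ProbabilityTheory
open scoped ENNReal NNReal RealInnerProductSpace

namespace MemSample

/-- Round ball of squared radius `R2` centred at `c` in `ℝ^w`. -/
def roundBall {w : ℕ} (c : Fin w → ℝ) (R2 : ℝ) : Set (Fin w → ℝ) :=
  {y | ∑ i, (y i - c i) ^ 2 ≤ R2}

lemma measurableSet_roundBall {w : ℕ} (c : Fin w → ℝ) (R2 : ℝ) :
    MeasurableSet (roundBall c R2) := by
  refine measurableSet_le ?_ measurable_const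
  fun_prop

/-- Volume of a round ball via a Gaussian weight. -/
theorem volume_roundBall_le {w : ℕ} (c : Fin w → ℝ) {K r : ℝ} (hK : 0 < K) (hr : 0 < r) :
    volume (roundBall c (K * w * r ^ 2)) ≤
      ENNReal.ofReal ((Real.sqrt (2 * Real.pi * Real.exp 1 * K) * r) ^ w) := by
  set σ2 : ℝ := K * r ^ 2 with hσ2
  have hσ : 0 < σ2 := by positivity
  set b : ℝ := 1 / (2 * σ2) with hb
  have hb0 : 0 < b := by positivity
  set F : (Fin w → ℝ) → ℝ := fun y => Real.exp ((w : ℝ) / 2) *
    ∏ i, Real.exp (-b * (y i - c i) ^ 2) with hF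
  have hF0 : ∀ y, 0 ≤ F y := fun y => by
    simp only [hF]; positivity
  have hint1 : ∀ i : Fin w, Integrable (fun t : ℝ => Real.exp (-b * (t - c i) ^ 2)) := by
    intro i
    exact (integrable_exp_neg_mul_sq hb0).comp_sub_right (c i)
  have hintprod : Integrable (fun y : Fin w → ℝ => ∏ i, Real.exp (-b * (y i - c i) ^ 2)) :=
    Integrable.fintype_prod (f := fun (i : Fin w) (t : ℝ) => Real.exp (-b * (t - c i) ^ 2)) hint1
  have hint : Integrable F := hintprod.const_mul _
  have hval1 : ∀ i : Fin w, ∫ t : ℝ, Real.exp (-b * (t - c i) ^ 2) = Real.sqrt (Real.pi / b) := by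
    intro i
    rw [integral_sub_right_eq_self (fun t => Real.exp (-b * t ^ 2)) (c i), integral_gaussian]
  have hvalF : ∫ y, F y = Real.exp ((w : ℝ) / 2) * (Real.sqrt (Real.pi / b)) ^ w := by
    simp only [hF]
    rw [integral_const_mul]
    congr 1
    rw [integral_fintype_prod_volume_eq_prod
      (f := fun (i : Fin w) (t : ℝ) => Real.exp (-b * (t - c i) ^ 2))]
    rw [Finset.prod_congr rfl fun i _ => hval1 i]
    simp
  -- pointwise domination
  have hdom : ∀ y, (roundBall c (K * w * r ^ 2)).indicator (fun _ => (1 : ℝ≥0∞)) y ≤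
      ENNReal.ofReal (F y) := by
    intro y
    by_cases hy : y ∈ roundBall c (K * w * r ^ 2)
    · simp only [indicator_of_mem hy]
      rw [← ENNReal.ofReal_one]
      refine ENNReal.ofReal_le_ofReal ?_
      simp only [hF]
      rw [← Real.exp_sum, ← Real.exp_add]
      refine Real.one_le_exp ?_
      have hy' : ∑ i, (y i - c i) ^ 2 ≤ K * w * r ^ 2 := hy
      have : ∑ i, -b * (y i - c i) ^ 2 = -b * ∑ i, (y i - c i) ^ 2 := by
        rw [Finset.mul_sum]
      rw [this]
      have h2 : b * (K * w * r ^ 2) = (w : ℝ) / 2 := by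
        simp only [hb, hσ2]; field_simp
      have h3 : b * ∑ i, (y i - c i) ^ 2 ≤ b * (K * w * r ^ 2) :=
        mul_le_mul_of_nonneg_left hy' hb0.le
      linarith
    · simp [indicator_of_notMem hy]
  calc volume (roundBall c (K * w * r ^ 2))
      = ∫⁻ y, (roundBall c (K * w * r ^ 2)).indicator (fun _ => (1 : ℝ≥0∞)) y := by
        rw [lintegral_indicator (measurableSet_roundBall _ _)]; simp
    _ ≤ ∫⁻ y, ENNReal.ofReal (F y) := lintegral_mono hdom
    _ = ENNReal.ofReal (∫ y, F y) :=
        (ofReal_integral_eq_lintegral_ofReal hint (Eventually.of_forall hF0)).symm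
    _ = _ := by
        rw [hvalF]
        congr 1
        have h1 : Real.exp ((w : ℝ) / 2) = (Real.sqrt (Real.exp 1)) ^ w := by
          rw [Real.sqrt_eq_rpow, ← Real.rpow_natCast, ← Real.rpow_mul (Real.exp_pos 1).le,
            ← Real.exp_one_rpow]
          congr 1; ring
        have h2 : Real.pi / b = 2 * Real.pi * K * r ^ 2 := by
          simp only [hb, hσ2]; field_simp
        rw [h1, h2, ← mul_pow]
        congr 1
        have h3 : 2 * Real.pi * Real.exp 1 * K = Real.exp 1 * (2 * Real.pi * K) := by ring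
        rw [h3, Real.sqrt_mul (Real.exp_pos 1).le, Real.sqrt_mul (by positivity) (r ^ 2),
          Real.sqrt_sq hr.le]
        ring

variable {E : Type*} [NormedAddCommGroup E] [InnerProductSpace ℝ E] [FiniteDimensional ℝ E]
  [MeasurableSpace E] [BorelSpace E]

/-- Second moment of a Gaussian linear form. -/
lemma integral_inner_sq_stdGaussian (v : E) :
    ∫ x, (⟪x, v⟫) ^ 2 ∂(stdGaussian E) = ‖v‖ ^ 2 := by
  have h := variance_dual_stdGaussian (E := E) (innerSL ℝ v)
  rw [variance_eq_integral (innerSL ℝ v).continuous.aemeasurable,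
    integral_strongDual_stdGaussian] at h
  simp only [sub_zero, innerSL_apply_apply, innerSL_apply_norm] at h
  rw [← h]
  refine integral_congr_ae (Eventually.of_forall fun x => ?_)
  simp [real_inner_comm]

/-- Second moment in `lintegral` form. -/
lemma lintegral_inner_sq_stdGaussian (v : E) :
    ∫⁻ x, ENNReal.ofReal ((⟪x, v⟫) ^ 2) ∂(stdGaussian E) = ENNReal.ofReal (‖v‖ ^ 2) := by
  have hint : Integrable (fun x : E => (⟪x, v⟫) ^ 2) (stdGaussian E) := by
    have h := (IsGaussian.memLp_dual (stdGaussian E) (innerSL ℝ v) 2 (by simp)).integrable_sq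
    refine h.congr (Eventually.of_forall fun x => ?_)
    simp [real_inner_comm]
  rw [← ofReal_integral_eq_lintegral_ofReal hint (Eventually.of_forall fun x => by positivity),
    integral_inner_sq_stdGaussian]

/-- The measurements of `s` by the rows `X`. -/
def rowsApply {w : ℕ} (X : Fin w → E) (s : E) : Fin w → ℝ := fun i => ⟪X i, s⟫

lemma measurable_rowsApply_uncurry {w : ℕ} :
    Measurable (fun p : (Fin w → E) × E => rowsApply p.1 p.2) := by
  unfold rowsApply
  refine measurable_pi_lambda _ fun i => ?_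
  exact Measurable.inner ((measurable_pi_apply i).comp measurable_fst) measurable_snd

/-- The expected squared length of `X v` is `w ‖v‖²`. -/
lemma lintegral_sum_inner_sq {w : ℕ} (v : E) :
    ∫⁻ X, ENNReal.ofReal (∑ i : Fin w, (⟪X i, v⟫) ^ 2)
      ∂(Measure.pi fun _ : Fin w => stdGaussian E) = ENNReal.ofReal (w * ‖v‖ ^ 2) := by
  have h1 : ∀ X : Fin w → E, ENNReal.ofReal (∑ i : Fin w, (⟪X i, v⟫) ^ 2) =
      ∑ i : Fin w, ENNReal.ofReal ((⟪X i, v⟫) ^ 2) := fun X =>
    ENNReal.ofReal_sum_of_nonneg fun i _ => by positivity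
  simp_rw [h1]
  have hmeas : ∀ i : Fin w, Measurable
      (fun X : Fin w → E => ENNReal.ofReal ((⟪X i, v⟫) ^ 2)) := fun i => by
    refine ENNReal.measurable_ofReal.comp (Measurable.pow_const ?_ 2)
    exact Measurable.inner (measurable_pi_apply i) measurable_const
  rw [lintegral_finsetSum _ fun i _ => hmeas i]
  have h2 : ∀ i : Fin w, ∫⁻ X : Fin w → E, ENNReal.ofReal ((⟪X i, v⟫) ^ 2)
      ∂(Measure.pi fun _ : Fin w => stdGaussian E) = ENNReal.ofReal (‖v‖ ^ 2) := by
    intro i
    have hmp := measurePreserving_eval (fun _ : Fin w => stdGaussian E) i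
    rw [← lintegral_inner_sq_stdGaussian v]
    refine hmp.lintegral_comp (f := fun x : E => ENNReal.ofReal ((⟪x, v⟫) ^ 2)) ?_
    refine ENNReal.measurable_ofReal.comp (Measurable.pow_const ?_ 2)
    exact Measurable.inner measurable_id measurable_const
  simp_rw [h2]
  simp only [Finset.sum_const, Finset.card_univ, Fintype.card_fin, nsmul_eq_mul]
  rw [ENNReal.ofReal_mul (by positivity), ENNReal.ofReal_natCast]

/-- **Round ball catches most of the mass on average over the rows.** -/
theorem lintegral_miss_le {w : ℕ} (hw : 0 < w) (μ : Measure E) [IsFiniteMeasure μ] (c0 : E)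
    {K r : ℝ} (hK : 0 < K) (hr : 0 < r) (hμ : ∀ᵐ s ∂μ, ‖s - c0‖ ≤ r) :
    ∫⁻ X, μ {s | rowsApply X s ∉ roundBall (rowsApply X c0) (K * w * r ^ 2)}
      ∂(Measure.pi fun _ : Fin w => stdGaussian E) ≤ μ univ * ENNReal.ofReal (1 / K) := by
  -- the bad set in the product space
  set Bad : Set ((Fin w → E) × E) :=
    {p | rowsApply p.1 p.2 ∉ roundBall (rowsApply p.1 c0) (K * w * r ^ 2)} with hBad
  have hBadm : MeasurableSet Bad := by
    have h1 : Measurable (fun p : (Fin w → E) × E => ∑ i, (rowsApply p.1 p.2 i - rowsApply p.1 c0 i) ^ 2) := by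
      unfold rowsApply
      refine Finset.measurable_sum _ fun i _ => ?_
      refine Measurable.pow_const (Measurable.sub ?_ ?_) 2
      · exact Measurable.inner ((measurable_pi_apply i).comp measurable_fst) measurable_snd
      · exact Measurable.inner ((measurable_pi_apply i).comp measurable_fst) measurable_const
    have h2 : Bad = {p | K * w * r ^ 2 < ∑ i, (rowsApply p.1 p.2 i - rowsApply p.1 c0 i) ^ 2} := by
      ext p; simp [hBad, roundBall]
    rw [h2]
    exact measurableSet_lt measurable_const h1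
  -- rewrite both sides by Tonelli
  set γ := Measure.pi fun _ : Fin w => stdGaussian E with hγ
  have hswap : ∫⁻ X, μ {s | rowsApply X s ∉ roundBall (rowsApply X c0) (K * w * r ^ 2)} ∂γ =
      ∫⁻ s, γ {X | rowsApply X s ∉ roundBall (rowsApply X c0) (K * w * r ^ 2)} ∂μ := by
    have h1 : ∀ X, μ {s | rowsApply X s ∉ roundBall (rowsApply X c0) (K * w * r ^ 2)} =
        ∫⁻ s, Bad.indicator (fun _ => (1 : ℝ≥0∞)) (X, s) ∂μ := by
      intro X
      have hm : MeasurableSet {s | rowsApply X s ∉ roundBall (rowsApply X c0) (K * w * r ^ 2)} :=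
        measurable_prodMk_left hBadm
      rw [← lintegral_indicator_one hm]
      rfl
    have h2 : ∀ s, γ {X | rowsApply X s ∉ roundBall (rowsApply X c0) (K * w * r ^ 2)} =
        ∫⁻ X, Bad.indicator (fun _ => (1 : ℝ≥0∞)) (X, s) ∂γ := by
      intro s
      have hm : MeasurableSet {X | rowsApply X s ∉ roundBall (rowsApply X c0) (K * w * r ^ 2)} :=
        measurable_prodMk_right hBadm
      rw [← lintegral_indicator_one hm]
      rfl
    simp_rw [h1, h2]
    exact lintegral_lintegral_swap (measurable_const.indicator hBadm).aemeasurable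
  rw [hswap]
  -- Markov pointwise in `s`
  have hwpos : (0 : ℝ) < w := by exact_mod_cast hw
  have hpoint : ∀ᵐ s ∂μ, γ {X | rowsApply X s ∉ roundBall (rowsApply X c0) (K * w * r ^ 2)} ≤
      ENNReal.ofReal (1 / K) := by
    filter_upwards [hμ] with s hs
    set v := s - c0 with hv
    have hmeas : Measurable (fun X : Fin w → E => ENNReal.ofReal (∑ i : Fin w, (⟪X i, v⟫) ^ 2)) := by
      refine ENNReal.measurable_ofReal.comp (Finset.measurable_sum _ fun i _ => ?_)
      exact Measurable.pow_const (Measurable.inner (measurable_pi_apply i) measurable_const) 2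
    have hthr : ENNReal.ofReal (K * w * r ^ 2) ≠ 0 := by
      simp only [ne_eq, ENNReal.ofReal_eq_zero, not_le]; positivity
    have hsub : {X : Fin w → E | rowsApply X s ∉ roundBall (rowsApply X c0) (K * w * r ^ 2)} ⊆
        {X | ENNReal.ofReal (K * w * r ^ 2) ≤ ENNReal.ofReal (∑ i : Fin w, (⟪X i, v⟫) ^ 2)} := by
      intro X hX
      have hX' : K * w * r ^ 2 < ∑ i, (rowsApply X s i - rowsApply X c0 i) ^ 2 := by
        simpa [roundBall] using hX
      have heq : ∑ i, (rowsApply X s i - rowsApply X c0 i) ^ 2 = ∑ i : Fin w, (⟪X i, v⟫) ^ 2 := by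
        refine Finset.sum_congr rfl fun i _ => ?_
        simp [rowsApply, hv, inner_sub_right]
      rw [heq] at hX'
      exact ENNReal.ofReal_le_ofReal hX'.le
    calc γ {X | rowsApply X s ∉ roundBall (rowsApply X c0) (K * w * r ^ 2)}
        ≤ γ {X | ENNReal.ofReal (K * w * r ^ 2) ≤ ENNReal.ofReal (∑ i : Fin w, (⟪X i, v⟫) ^ 2)} :=
          measure_mono hsub
      _ ≤ (∫⁻ X, ENNReal.ofReal (∑ i : Fin w, (⟪X i, v⟫) ^ 2) ∂γ) / ENNReal.ofReal (K * w * r ^ 2) :=
          meas_ge_le_lintegral_div hmeas.aemeasurable hthr ENNReal.ofReal_ne_top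
      _ = ENNReal.ofReal (w * ‖v‖ ^ 2) / ENNReal.ofReal (K * w * r ^ 2) := by
          rw [lintegral_sum_inner_sq]
      _ ≤ ENNReal.ofReal (1 / K) := by
          rw [← ENNReal.ofReal_div_of_pos (by positivity)]
          refine ENNReal.ofReal_le_ofReal ?_
          rw [div_le_div_iff₀ (by positivity) hK]
          have h1 : ‖v‖ ^ 2 ≤ r ^ 2 := pow_le_pow_left₀ (norm_nonneg _) hs 2
          have h2 : (w : ℝ) * ‖v‖ ^ 2 * K ≤ w * r ^ 2 * K := by
            apply mul_le_mul_of_nonneg_right _ hK.le
            exact mul_le_mul_of_nonneg_left h1 hwpos.le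
          linarith
  calc ∫⁻ s, γ {X | rowsApply X s ∉ roundBall (rowsApply X c0) (K * w * r ^ 2)} ∂μ
      ≤ ∫⁻ _s, ENNReal.ofReal (1 / K) ∂μ := lintegral_mono_ae hpoint
    _ = μ univ * ENNReal.ofReal (1 / K) := by
        rw [lintegral_const, mul_comm]

end MemSample
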