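import Crest.Agent.Lib.MemSample.GaussSmallBall
import Crest.Agent.Lib.MemSample.HolderGrid
import Crest.Agent.Lib.MemSample.RoundBall

/-!
# The `k`-fold collision moment of a Gaussian projection (WL step (d))

`X` is a matrix of `w` i.i.d. standard Gaussian rows on `E`, `μ'` a finite measure on `E`,
`idx m X s` the dyadic cube (side `2^-m`) of `(⟪X i, s⟫)ᵢ`. Then

`∫⁻ X, ∑' c, (μ' {s | idx m X s = c}) ^ (n+1) ≤ μ' univ * ((2τ/√(2π))^w * I)^n`,   `τ = (2^m)⁻¹`,

whenever `∫⁻ s, (dist (s, c + V))⁻¹ ^ w dμ' ≤ I` for all `c` and all subspaces `V` of dimension `< n`.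
-/

set_option autoImplicit false

open MeasureTheory ProbabilityTheory
open scoped ENNReal RealInnerProductSpace

namespace MemSample

namespace Moment

variable {E : Type*} [NormedAddCommGroup E] [InnerProductSpace ℝ E] [FiniteDimensional ℝ E]
  [MeasurableSpace E] [BorelSpace E]

/-- the dyadic cube index of the `w`-vector `(⟪X i, s⟫)ᵢ`, at side `2^-m`. -/
noncomputable def idx {w : ℕ} (m : ℕ) (X : Fin w → E) (s : E) : Fin w → ℤ :=
  fun i => ⌊(2 : ℝ) ^ m * ⟪X i, s⟫⌋

/-- the `w`-row standard Gaussian law. -/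
noncomputable abbrev gammaW (E : Type*) [NormedAddCommGroup E] [InnerProductSpace ℝ E]
    [FiniteDimensional ℝ E] [MeasurableSpace E] [BorelSpace E] (w : ℕ) : Measure (Fin w → E) :=
  Measure.pi fun _ => stdGaussian E

/-- the mass of the cube `c` under the pushforward of `μ'` by `X`. -/
noncomputable def nu {w : ℕ} (μ' : Measure E) (m : ℕ) (X : Fin w → E) (c : Fin w → ℤ) : ℝ≥0∞ :=
  μ' {s | idx m X s = c}

lemma measurableSet_idx {w : ℕ} (m : ℕ) (c : Fin w → ℤ) :
    MeasurableSet {q : (Fin w → E) × E | idx m q.1 q.2 = c} := by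
  have : {q : (Fin w → E) × E | idx m q.1 q.2 = c} =
      ⋂ i, {q : (Fin w → E) × E | ⌊(2 : ℝ) ^ m * ⟪q.1 i, q.2⟫⌋ = c i} := by
    ext q
    simp [idx, funext_iff]
  rw [this]
  refine MeasurableSet.iInter fun i => ?_
  have hm : Measurable fun q : (Fin w → E) × E => ⌊(2 : ℝ) ^ m * ⟪q.1 i, q.2⟫⌋ := by
    apply Int.measurable_floor.comp
    have h1 : Measurable fun q : (Fin w → E) × E => q.1 i :=
      (measurable_pi_apply i).comp measurable_fst
    have h2 : Measurable fun q : (Fin w → E) × E => q.2 := measurable_snd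
    exact (h1.inner h2).const_mul _
  exact hm (measurableSet_singleton (c i))

lemma measurable_nu {w : ℕ} (μ' : Measure E) [SFinite μ'] (m : ℕ) (c : Fin w → ℤ) :
    Measurable fun X : Fin w → E => nu μ' m X c :=
  measurable_measure_prodMk_left (measurableSet_idx m c)

/-- the frozen-point indicator. -/
noncomputable def frozen {w : ℕ} (m j : ℕ) (p : ℕ → E) (X : Fin w → E) (c : Fin w → ℤ) : ℝ≥0∞ :=
  open Classical in if ∀ i < j, idx m X (p i) = c then 1 else 0

lemma measurable_frozen {w : ℕ} (m j : ℕ) (p : ℕ → E) (c : Fin w → ℤ) :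
    Measurable fun X : Fin w → E => frozen m j p X c := by
  classical
  unfold frozen
  apply Measurable.ite _ measurable_const measurable_const
  have : {X : Fin w → E | ∀ i < j, idx m X (p i) = c} =
      ⋂ i, ⋂ (_ : i < j), {X | idx m X (p i) = c} := by
    ext X; simp
  rw [this]
  refine MeasurableSet.iInter fun i => MeasurableSet.iInter fun _ => ?_
  exact (measurable_prodMk_right (y := p i)) (measurableSet_idx m c)

/-- the `j`-frozen moment. -/
noncomputable def G (w : ℕ) (μ' : Measure E) (m j : ℕ) (p : ℕ → E) (r : ℕ) : ℝ≥0∞ :=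
  ∫⁻ X, ∑' c : Fin w → ℤ, frozen m j p X c * nu μ' m X c ^ r ∂(gammaW E w)

lemma frozen_update {w : ℕ} (m j : ℕ) (p : ℕ → E) (s : E) (X : Fin w → E) (c : Fin w → ℤ) :
    frozen m (j + 1) (Function.update p j s) X c =
      frozen m j p X c * (open Classical in if idx m X s = c then 1 else 0) := by
  classical
  unfold frozen
  by_cases h1 : ∀ i < j, idx m X (p i) = c
  · by_cases h2 : idx m X s = c
    · rw [if_pos h1, if_pos h2, if_pos, one_mul]
      intro i hi
      rcases Nat.lt_succ_iff_lt_or_eq.1 hi with hi | rfl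
      · rw [Function.update_of_ne (ne_of_lt hi)]
        exact h1 i hi
      · rw [Function.update_self]
        exact h2
    · rw [if_neg h2, mul_zero, if_neg]
      intro h
      have := h j (Nat.lt_succ_self j)
      rw [Function.update_self] at this
      exact h2 this
  · rw [if_neg h1, zero_mul, if_neg]
    intro h
    apply h1
    intro i hi
    have := h i (Nat.lt_succ_of_lt hi)
    rwa [Function.update_of_ne (ne_of_lt hi)] at this

/-- integrate out one point. -/
lemma G_step {w : ℕ} (μ' : Measure E) [SFinite μ'] (m j : ℕ) (p : ℕ → E) (r : ℕ) :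
    G w μ' m j p (r + 1) =
      ∫⁻ s, G w μ' m (j + 1) (Function.update p j s) r ∂μ' := by
  classical
  unfold G
  have hind : ∀ c : Fin w → ℤ, Measurable fun q : (Fin w → E) × E =>
      (if idx m q.1 q.2 = c then 1 else 0 : ℝ≥0∞) := fun c =>
    Measurable.ite (measurableSet_idx m c) measurable_const measurable_const
  have hterm : ∀ c : Fin w → ℤ, Measurable fun q : (Fin w → E) × E =>
      frozen m j p q.1 c * (if idx m q.1 q.2 = c then 1 else 0 : ℝ≥0∞) * nu μ' m q.1 c ^ r := by
    intro c
    refine Measurable.mul (Measurable.mul ?_ (hind c)) ?_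
    · exact (measurable_frozen m j p c).comp measurable_fst
    · exact ((measurable_nu μ' m c).comp measurable_fst).pow_const r
  have e1 : ∀ s : E, ∀ X : Fin w → E,
      ∑' c : Fin w → ℤ, frozen m (j + 1) (Function.update p j s) X c * nu μ' m X c ^ r =
      ∑' c : Fin w → ℤ, frozen m j p X c * (if idx m X s = c then 1 else 0 : ℝ≥0∞) * nu μ' m X c ^ r := by
    intro s X
    congr 1
    ext c
    rw [frozen_update]
  simp_rw [e1]
  rw [lintegral_lintegral_swap]
  · refine lintegral_congr fun X => ?_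
    rw [lintegral_tsum]
    · congr 1
      ext c
      have h2 : ∀ s : E, frozen m j p X c * (if idx m X s = c then 1 else 0 : ℝ≥0∞) * nu μ' m X c ^ r
          = (frozen m j p X c * nu μ' m X c ^ r) * (if idx m X s = c then 1 else 0 : ℝ≥0∞) := by
        intro s; ring
      simp_rw [h2]
      have hm : MeasurableSet {s : E | idx m X s = c} :=
        (measurable_prodMk_left (x := X)) (measurableSet_idx m c)
      rw [lintegral_const_mul _ (Measurable.ite hm measurable_const measurable_const)]
      have h3 : ∫⁻ s, (if idx m X s = c then 1 else 0 : ℝ≥0∞) ∂μ' = nu μ' m X c := by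
        have : (fun s => (if idx m X s = c then 1 else 0 : ℝ≥0∞)) =
            Set.indicator {s : E | idx m X s = c} 1 := by
          ext s
          by_cases h : idx m X s = c <;> simp [h]
        rw [this, lintegral_indicator_one hm]
        rfl
      rw [h3, pow_succ]
      ring
    · intro c
      exact ((hterm c).comp (measurable_prodMk_left (x := X))).aemeasurable
  · apply Measurable.aemeasurable
    apply Measurable.tsum
    intro c
    exact (hterm c).comp measurable_swap

/-- `u p l = p (l+1) - p 0`. -/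
noncomputable def diffs (p : ℕ → E) (l : ℕ) : E := p (l + 1) - p 0

/-- the inverse distance factor. -/
noncomputable def invDist (p : ℕ → E) (l : ℕ) : ℝ≥0∞ :=
  (ENNReal.ofReal (distOff (spanBefore (diffs p) l) (diffs p l)))⁻¹

/-- The row event: `x` sends all of `p 0, …, p n` to one dyadic interval. -/
lemma row_mass (m n : ℕ) (p : ℕ → E) :
    stdGaussian E {x | ∀ i < n + 1, ⌊(2 : ℝ) ^ m * ⟪x, p i⟫⌋ = ⌊(2 : ℝ) ^ m * ⟪x, p 0⟫⌋} ≤
      ∏ l ∈ Finset.range n, (ENNReal.ofReal (2 * ((2 : ℝ) ^ m)⁻¹ / √(2 * Real.pi)) * invDist p l) := by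
  have hτ : (0 : ℝ) < ((2 : ℝ) ^ m)⁻¹ := by positivity
  refine le_trans (measure_mono ?_) (gauss_small_ball (diffs p) _ hτ n)
  intro x hx l hl
  have h1 := hx (l + 1) (Nat.succ_lt_succ hl)
  have h2 := Int.abs_sub_lt_one_of_floor_eq_floor h1
  have h3 : (2 : ℝ) ^ m * ⟪x, p (l + 1)⟫ - (2 : ℝ) ^ m * ⟪x, p 0⟫ = (2 : ℝ) ^ m * ⟪x, diffs p l⟫ := by
    simp only [diffs, inner_sub_right]
    ring
  rw [h3, abs_mul, abs_of_pos (by positivity : (0 : ℝ) < 2 ^ m)] at h2
  have h4 : (0 : ℝ) < 2 ^ m := by positivity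
  rw [← one_div, lt_div_iff₀ h4]
  linarith [mul_comm ((2 : ℝ) ^ m) |⟪x, diffs p l⟫|]

/-- The terminal case: all points frozen. -/
lemma G_terminal (w : ℕ) (μ' : Measure E) (m n : ℕ) (p : ℕ → E) :
    G w μ' m (n + 1) p 0 ≤
      (∏ l ∈ Finset.range n, (ENNReal.ofReal (2 * ((2 : ℝ) ^ m)⁻¹ / √(2 * Real.pi)) * invDist p l)) ^ w := by
  classical
  set B : Set E := {x | ∀ i < n + 1, ⌊(2 : ℝ) ^ m * ⟪x, p i⟫⌋ = ⌊(2 : ℝ) ^ m * ⟪x, p 0⟫⌋} with hB
  have hsum : ∀ X : Fin w → E, ∑' c : Fin w → ℤ, frozen m (n + 1) p X c * nu μ' m X c ^ 0 =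
      (Set.pi Set.univ fun _ : Fin w => B).indicator 1 X := by
    intro X
    rw [tsum_eq_single (idx m X (p 0))]
    · unfold frozen
      by_cases h : ∀ i < n + 1, idx m X (p i) = idx m X (p 0)
      · rw [if_pos h, Set.indicator_of_mem]
        · simp
        · intro r _ i hi
          exact congrFun (h i hi) r
      · rw [if_neg h, Set.indicator_of_notMem]
        · simp
        · intro hmem
          apply h
          intro i hi
          funext r
          exact hmem r (Set.mem_univ r) i hi
    · intro c hc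
      unfold frozen
      rw [if_neg, zero_mul]
      intro h
      exact hc (h 0 (Nat.succ_pos n)).symm
  unfold G
  simp_rw [hsum]
  have hBm : MeasurableSet B := by
    have : B = ⋂ i, ⋂ (_ : i < n + 1), {x | ⌊(2 : ℝ) ^ m * ⟪x, p i⟫⌋ = ⌊(2 : ℝ) ^ m * ⟪x, p 0⟫⌋} := by
      ext x; simp [hB]
    rw [this]
    refine MeasurableSet.iInter fun i => MeasurableSet.iInter fun _ => ?_
    have h1 : Measurable fun x : E => ⌊(2 : ℝ) ^ m * ⟪x, p i⟫⌋ :=
      Int.measurable_floor.comp (by fun_prop)
    have h2 : Measurable fun x : E => ⌊(2 : ℝ) ^ m * ⟪x, p 0⟫⌋ :=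
      Int.measurable_floor.comp (by fun_prop)
    exact measurableSet_eq_fun h1 h2
  rw [lintegral_indicator_one (MeasurableSet.univ_pi fun _ => hBm), Measure.pi_pi]
  simp only [Finset.prod_const, Finset.card_univ, Fintype.card_fin]
  exact pow_le_pow_left' (row_mass m n p) w

/-- Backward induction over the number of unfrozen points. -/
lemma G_bound (w : ℕ) (μ' : Measure E) [SFinite μ'] (m n : ℕ) (I : ℝ≥0∞)
    (hI : ∀ V : Submodule ℝ E, Module.finrank ℝ V ≤ n - 1 → ∀ c : E,
      ∫⁻ s, ((ENNReal.ofReal (distOff V (s - c)))⁻¹) ^ w ∂μ' ≤ I) (r : ℕ) :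
    ∀ (j : ℕ) (p : ℕ → E), j + r = n + 1 → 1 ≤ j → G w μ' m j p r ≤
      (∏ l ∈ Finset.range (j - 1), (ENNReal.ofReal (2 * ((2 : ℝ) ^ m)⁻¹ / √(2 * Real.pi)) * invDist p l)) ^ w *
        ((ENNReal.ofReal (2 * ((2 : ℝ) ^ m)⁻¹ / √(2 * Real.pi))) ^ w * I) ^ r := by
  classical
  set a := ENNReal.ofReal (2 * ((2 : ℝ) ^ m)⁻¹ / √(2 * Real.pi)) with ha
  induction r with
  | zero =>
    intro j p hj _
    obtain rfl : j = n + 1 := by omega
    simp only [Nat.add_sub_cancel, pow_zero, mul_one]
    exact G_terminal w μ' m n p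
  | succ r ih =>
    intro j p hj h1
    obtain ⟨j', rfl⟩ : ∃ j', j = j' + 1 := ⟨j - 1, by omega⟩
    rw [G_step]
    have hbound : ∀ s : E, G w μ' m (j' + 1 + 1) (Function.update p (j' + 1) s) r ≤
        ((∏ l ∈ Finset.range j', (a * invDist p l)) ^ w * a ^ w * (a ^ w * I) ^ r) *
          ((ENNReal.ofReal (distOff (spanBefore (diffs p) j') (s - p 0)))⁻¹) ^ w := by
      intro s
      refine le_trans (ih (j' + 1 + 1) _ (by omega) (by omega)) ?_
      have hd : ∀ l, l < j' → diffs (Function.update p (j' + 1) s) l = diffs p l := by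
        intro l hl
        unfold diffs
        rw [Function.update_of_ne (by omega), Function.update_of_ne (by omega)]
      have hspan : ∀ l, l ≤ j' → spanBefore (diffs (Function.update p (j' + 1) s)) l =
          spanBefore (diffs p) l := by
        intro l hl
        unfold spanBefore
        congr 1
        apply Set.image_congr
        intro i hi
        exact hd i (lt_of_lt_of_le hi hl)
      have hinv : ∀ l, l < j' → invDist (Function.update p (j' + 1) s) l = invDist p l := by
        intro l hl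
        unfold invDist
        rw [hspan l hl.le, hd l hl]
      have hlast : invDist (Function.update p (j' + 1) s) j' =
          (ENNReal.ofReal (distOff (spanBefore (diffs p) j') (s - p 0)))⁻¹ := by
        unfold invDist
        rw [hspan j' le_rfl]
        have : diffs (Function.update p (j' + 1) s) j' = s - p 0 := by
          unfold diffs
          rw [Function.update_self, Function.update_of_ne (by omega)]
        rw [this]
      simp only [Nat.add_sub_cancel]
      rw [Finset.prod_range_succ, hlast, mul_pow]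
      have hp : (∏ l ∈ Finset.range j', (a * invDist (Function.update p (j' + 1) s) l)) =
          ∏ l ∈ Finset.range j', (a * invDist p l) := by
        apply Finset.prod_congr rfl
        intro l hl
        rw [hinv l (Finset.mem_range.1 hl)]
      rw [hp, mul_pow]
      apply le_of_eq
      ring
    have hmeas : Measurable fun s : E =>
        ((ENNReal.ofReal (distOff (spanBefore (diffs p) j') (s - p 0)))⁻¹) ^ w := by
      have : Measurable fun s : E => distOff (spanBefore (diffs p) j') (s - p 0) := by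
        unfold distOff
        have hc : Continuous fun s : E => ‖(s - p 0) - (spanBefore (diffs p) j').starProjection (s - p 0)‖ := by
          fun_prop
        exact hc.measurable
      exact (this.ennreal_ofReal.inv).pow_const w
    calc ∫⁻ s, G w μ' m (j' + 1 + 1) (Function.update p (j' + 1) s) r ∂μ'
        ≤ ∫⁻ s, ((∏ l ∈ Finset.range j', (a * invDist p l)) ^ w * a ^ w * (a ^ w * I) ^ r) *
          ((ENNReal.ofReal (distOff (spanBefore (diffs p) j') (s - p 0)))⁻¹) ^ w ∂μ' :=
          lintegral_mono hbound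
      _ = ((∏ l ∈ Finset.range j', (a * invDist p l)) ^ w * a ^ w * (a ^ w * I) ^ r) *
          ∫⁻ s, ((ENNReal.ofReal (distOff (spanBefore (diffs p) j') (s - p 0)))⁻¹) ^ w ∂μ' :=
          lintegral_const_mul _ hmeas
      _ ≤ ((∏ l ∈ Finset.range j', (a * invDist p l)) ^ w * a ^ w * (a ^ w * I) ^ r) * I := by
          gcongr
          apply hI
          have hfin : Module.finrank ℝ (spanBefore (diffs p) j') ≤ j' := by
            unfold spanBefore
            have hsub : (diffs p '' Set.Iio j') = ((Finset.range j').image (diffs p) : Finset E) := by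
              ext x
              simp
            rw [hsub]
            refine le_trans (finrank_span_finset_le_card _) ?_
            exact le_trans Finset.card_image_le (by simp)
          omega
      _ = _ := by
          simp only [Nat.add_sub_cancel]
          ring

/-- **Moment bound**. -/
theorem moment_bound (w : ℕ) (μ' : Measure E) [SFinite μ'] (m n : ℕ) (I : ℝ≥0∞)
    (hI : ∀ V : Submodule ℝ E, Module.finrank ℝ V ≤ n - 1 → ∀ c : E,
      ∫⁻ s, ((ENNReal.ofReal (distOff V (s - c)))⁻¹) ^ w ∂μ' ≤ I) :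
    ∫⁻ X, ∑' c : Fin w → ℤ, nu μ' m X c ^ (n + 1) ∂(gammaW E w) ≤
      μ' Set.univ * ((ENNReal.ofReal (2 * ((2 : ℝ) ^ m)⁻¹ / √(2 * Real.pi))) ^ w * I) ^ n := by
  classical
  have h0 : ∫⁻ X, ∑' c : Fin w → ℤ, nu μ' m X c ^ (n + 1) ∂(gammaW E w) =
      G w μ' m 0 (fun _ => 0) (n + 1) := by
    unfold G
    refine lintegral_congr fun X => ?_
    congr 1
    ext c
    simp [frozen]
  rw [h0, G_step]
  calc ∫⁻ s, G w μ' m (0 + 1) (Function.update (fun _ => 0) 0 s) n ∂μ'
      ≤ ∫⁻ _, ((ENNReal.ofReal (2 * ((2 : ℝ) ^ m)⁻¹ / √(2 * Real.pi))) ^ w * I) ^ n ∂μ' := by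
        apply lintegral_mono
        intro s
        refine le_trans (G_bound w μ' m n I hI n 1 _ (by omega) le_rfl) ?_
        simp
    _ = _ := by
        rw [lintegral_const, mul_comm]

end Moment

variable {E : Type*} [NormedAddCommGroup E] [InnerProductSpace ℝ E] [FiniteDimensional ℝ E]
  [MeasurableSpace E] [BorelSpace E]

open Moment in
/-- **WL step (d)** in the form of `MemSample.Lam`: for a finite measure `μ'` (think `μ|_S`),
`E_X Λ_m(μ' ∘ X⁻¹) ≤ (2/√(2π))^(w n) * μ'(univ) * I^n`, where `I` bounds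
`∫ dist(s, c + V)^(-w) dμ'(s)` for all `c` and all subspaces `V` of dimension `≤ n - 1`.
Here the moment order is `k = n + 1`. The mesh cancels. -/
theorem lintegral_Lam_le (w n m : ℕ) (μ' : Measure E) [IsFiniteMeasure μ'] (I : ℝ≥0∞)
    (hI : ∀ V : Submodule ℝ E, Module.finrank ℝ V ≤ n - 1 → ∀ c : E,
      ∫⁻ s, ((ENNReal.ofReal (distOff V (s - c)))⁻¹) ^ w ∂μ' ≤ I) :
    ∫⁻ X, Lam w (n + 1) m (μ'.map (rowsApply X)) ∂(Measure.pi fun _ : Fin w => stdGaussian E) ≤
      ENNReal.ofReal (2 / √(2 * Real.pi)) ^ (w * n) * (μ' Set.univ * I ^ n) := by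
  have hmesh : ∀ y : ℝ, y / mesh m = (2 : ℝ) ^ m * y := by
    intro y
    unfold mesh
    rw [inv_pow, div_inv_eq_mul, mul_comm]
  have hnu : ∀ (X : Fin w → E) (z : Fin w → ℤ),
      (μ'.map (rowsApply X)) (gridCube (mesh m) z) = nu μ' m X z := by
    intro X z
    have hmX : Measurable (rowsApply (E := E) X) := by
      have := (measurable_rowsApply_uncurry (E := E) (w := w)).comp
        (measurable_prodMk_left (x := X))
      exact this
    rw [Measure.map_apply hmX (measurableSet_gridCube _ _)]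
    unfold nu
    congr 1
    ext s
    simp only [Set.mem_preimage, Set.mem_ofPred_eq]
    rw [mem_gridCube_iff (mesh_pos m)]
    have : gridIndex (mesh m) (rowsApply X s) = idx m X s := by
      funext i
      simp only [gridIndex, idx, rowsApply, hmesh]
    rw [this]
  have hLam : ∀ X : Fin w → E, Lam w (n + 1) m (μ'.map (rowsApply X)) =
      ((2 : ℝ≥0∞) ^ m) ^ (w * n) * ∑' z : Fin w → ℤ, nu μ' m X z ^ (n + 1) := by
    intro X
    unfold Lam
    rw [ENNReal.tsum_mul_left]
    simp only [Nat.add_sub_cancel]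
    refine congrArg _ (tsum_congr fun z => ?_)
    rw [hnu]
  simp_rw [hLam]
  rw [lintegral_const_mul' _ _ (by simp)]
  have hmb := moment_bound w μ' m n I hI
  calc ((2 : ℝ≥0∞) ^ m) ^ (w * n) * ∫⁻ X, ∑' z : Fin w → ℤ, nu μ' m X z ^ (n + 1) ∂(gammaW E w)
      ≤ ((2 : ℝ≥0∞) ^ m) ^ (w * n) * (μ' Set.univ *
          ((ENNReal.ofReal (2 * ((2 : ℝ) ^ m)⁻¹ / √(2 * Real.pi))) ^ w * I) ^ n) := by
        gcongr
    _ = _ := by
        have h2m : (2 : ℝ≥0∞) ^ m * ENNReal.ofReal (2 * ((2 : ℝ) ^ m)⁻¹ / √(2 * Real.pi)) =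
            ENNReal.ofReal (2 / √(2 * Real.pi)) := by
          have : ((2 : ℝ≥0∞) ^ m) = ENNReal.ofReal ((2 : ℝ) ^ m) := by
            rw [ENNReal.ofReal_pow (by norm_num)]
            simp
          rw [this, ← ENNReal.ofReal_mul (by positivity)]
          congr 1
          field_simp
        rw [pow_mul, mul_pow, ← pow_mul, ← pow_mul, pow_mul (ENNReal.ofReal _) w n]
        rw [← h2m, mul_pow, mul_pow, ← pow_mul, ← pow_mul]
        ring

end MemSample
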