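import Crest.Agent.Lib.MemSample.GaussSmallBall

/-!
# Non-concentration near flats (S0499, steps (a), (b))

* `lintegral_inv_pow_le`: the layer cake bound `Imax` of step (b), for an arbitrary "distance" `D`
  whose sublevel sets have small mass.
* `exists_sep_cover`: packing in a subspace.
* `tube_measure_le`: a tube around a flat is covered by few balls (step (a)).
-/

set_option autoImplicit false

open MeasureTheory Set Filter Topology Metric
open scoped ENNReal NNReal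

namespace MemSample

/-! ### Step (b): layer cake -/

/-- Layer cake: if `μ {D < t} ≤ K' (t/r')^β` for all `t > 0`, `β ≥ w+1`, `μ S ≤ u`, then
`∫_S D^(-w) ≤ 2^(w+2) u r'^(-w) (K'/u)^(w/β)`. -/
theorem lintegral_inv_pow_le {Ω : Type*} [MeasurableSpace Ω] (μ : Measure Ω) (S : Set Ω)
    (D : Ω → ℝ) (hD : Measurable D) {K' r' u : ℝ} (hK' : 0 < K') (hr' : 0 < r') (hu : 0 < u)
    {w β : ℕ} (hβ : w + 1 ≤ β) (hS : μ S ≤ ENNReal.ofReal u)
    (htail : ∀ t : ℝ, 0 < t → μ {s | D s < t} ≤ ENNReal.ofReal (K' * (t / r') ^ β)) :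
    ∫⁻ s in S, (ENNReal.ofReal (D s))⁻¹ ^ w ∂μ ≤
      ENNReal.ofReal (2 ^ (w + 2) * u * (r' ^ w)⁻¹ * (K' / u) ^ ((w : ℝ) / β)) := by
  have hβ0 : (0 : ℝ) < β := by exact_mod_cast (by omega : 0 < β)
  -- the threshold
  set ts : ℝ := r' * (u / K') ^ ((1 : ℝ) / β) with hts
  have hts0 : 0 < ts := by positivity
  have htsβ : K' * (ts / r') ^ β = u := by
    have h1 : ts / r' = (u / K') ^ ((1 : ℝ) / β) := by
      rw [hts]; field_simp
    rw [h1, ← Real.rpow_natCast, ← Real.rpow_mul (by positivity)]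
    have : (1 : ℝ) / β * (β : ℝ) = 1 := by field_simp
    rw [this, Real.rpow_one]
    field_simp
  -- shells
  have hshell : ∀ j : ℕ, μ {s | D s < ts * (2⁻¹) ^ j} ≤ ENNReal.ofReal (u * ((2⁻¹ : ℝ) ^ β) ^ j) := by
    intro j
    refine (htail _ (by positivity)).trans (ENNReal.ofReal_le_ofReal (le_of_eq ?_))
    calc K' * (ts * (2⁻¹) ^ j / r') ^ β
        = (K' * (ts / r') ^ β) * ((2⁻¹ : ℝ) ^ β) ^ j := by
          have : ts * (2⁻¹) ^ j / r' = (ts / r') * (2⁻¹) ^ j := by ring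
          rw [this, mul_pow, ← pow_mul, ← pow_mul, mul_comm j β]; ring
      _ = u * ((2⁻¹ : ℝ) ^ β) ^ j := by rw [htsβ]
  -- D is a.e. positive
  have hpos : ∀ᵐ s ∂μ, 0 < D s := by
    have hnull : μ {s | D s ≤ 0} = 0 := by
      have hle : ∀ j : ℕ, μ {s | D s ≤ 0} ≤ ENNReal.ofReal (u * ((2⁻¹ : ℝ) ^ β) ^ j) := fun j =>
        (measure_mono fun s (hs : D s ≤ 0) => lt_of_le_of_lt hs
          (show (0 : ℝ) < ts * (2⁻¹) ^ j by positivity)).trans (hshell j)
      have hlim : Tendsto (fun j : ℕ => ENNReal.ofReal (u * ((2⁻¹ : ℝ) ^ β) ^ j)) atTop (𝓝 0) := by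
        have h1 : Tendsto (fun j : ℕ => u * ((2⁻¹ : ℝ) ^ β) ^ j) atTop (𝓝 (u * 0)) := by
          refine Tendsto.const_mul _ (tendsto_pow_atTop_nhds_zero_of_lt_one (by positivity) ?_)
          exact pow_lt_one₀ (by norm_num) (by norm_num) (by omega)
        rw [mul_zero] at h1
        simpa using ENNReal.tendsto_ofReal h1
      exact le_antisymm (ge_of_tendsto' hlim hle) bot_le
    rw [ae_iff]
    simpa using hnull
  set T : ℝ≥0∞ := (ENNReal.ofReal ts)⁻¹ ^ w with hT
  -- pointwise domination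
  have hdom : ∀ᵐ s ∂μ, (ENNReal.ofReal (D s))⁻¹ ^ w ≤
      T * (1 + ∑' j : ℕ, ((2 : ℝ≥0∞) ^ (j + 1)) ^ w *
        {s | D s < ts * (2⁻¹) ^ j}.indicator (fun _ => (1 : ℝ≥0∞)) s) := by
    filter_upwards [hpos] with s hs
    by_cases hge : ts ≤ D s
    · -- large `D`
      have h1 : (ENNReal.ofReal (D s))⁻¹ ^ w ≤ T :=
        pow_le_pow_left' (ENNReal.inv_le_inv.2 (ENNReal.ofReal_le_ofReal hge)) w
      refine h1.trans ?_
      calc T = T * 1 := (mul_one T).symm
        _ ≤ _ := mul_le_mul' le_rfl le_self_add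
    · -- find the shell
      push Not at hge
      have hex : ∃ j : ℕ, D s < ts * (2⁻¹) ^ j ∧ ts * (2⁻¹) ^ (j + 1) ≤ D s := by
        have hlim : Tendsto (fun j : ℕ => ts * (2⁻¹ : ℝ) ^ j) atTop (𝓝 (ts * 0)) :=
          Tendsto.const_mul _ (tendsto_pow_atTop_nhds_zero_of_lt_one (by norm_num) (by norm_num))
        rw [mul_zero] at hlim
        have hev : ∃ n : ℕ, ts * (2⁻¹ : ℝ) ^ n ≤ D s := by
          obtain ⟨n, hn⟩ := (hlim.eventually (ge_mem_nhds hs)).exists
          exact ⟨n, hn⟩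
        classical
        have hn0 : Nat.find hev ≠ 0 := by
          intro h0
          have := Nat.find_spec hev
          rw [h0] at this
          simp at this
          linarith
        obtain ⟨j, hj⟩ := Nat.exists_eq_succ_of_ne_zero hn0
        refine ⟨j, ?_, ?_⟩
        · have := Nat.find_min hev (m := j) (by omega)
          linarith
        · have := Nat.find_spec hev
          rw [hj] at this
          exact this
      obtain ⟨j, hj1, hj2⟩ := hex
      have h1 : (ENNReal.ofReal (D s))⁻¹ ≤ (ENNReal.ofReal ts)⁻¹ * (2 : ℝ≥0∞) ^ (j + 1) := by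
        have hofReal : ENNReal.ofReal (ts * (2⁻¹) ^ (j + 1)) =
            ENNReal.ofReal ts * ((2 : ℝ≥0∞) ^ (j + 1))⁻¹ := by
          rw [ENNReal.ofReal_mul hts0.le, ENNReal.ofReal_pow (by norm_num),
            ENNReal.ofReal_inv_of_pos (by norm_num), ENNReal.inv_pow]
          simp
        have h2 := ENNReal.inv_le_inv.2 (ENNReal.ofReal_le_ofReal hj2)
        rw [hofReal, ENNReal.mul_inv (Or.inl (by simpa using hts0)) (Or.inl ENNReal.ofReal_ne_top),
          inv_inv] at h2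
        exact h2
      have hind : {s | D s < ts * (2⁻¹) ^ j}.indicator (fun _ => (1 : ℝ≥0∞)) s = 1 :=
        indicator_of_mem (show s ∈ {s | D s < ts * (2⁻¹) ^ j} from hj1) _
      calc (ENNReal.ofReal (D s))⁻¹ ^ w
          ≤ ((ENNReal.ofReal ts)⁻¹ * (2 : ℝ≥0∞) ^ (j + 1)) ^ w := pow_le_pow_left' h1 w
        _ = T * (((2 : ℝ≥0∞) ^ (j + 1)) ^ w *
              {s | D s < ts * (2⁻¹) ^ j}.indicator (fun _ => (1 : ℝ≥0∞)) s) := by
            rw [hind, mul_one, mul_pow, hT]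
        _ ≤ T * (∑' j : ℕ, ((2 : ℝ≥0∞) ^ (j + 1)) ^ w *
              {s | D s < ts * (2⁻¹) ^ j}.indicator (fun _ => (1 : ℝ≥0∞)) s) :=
            mul_le_mul' le_rfl (ENNReal.le_tsum
              (f := fun j : ℕ => ((2 : ℝ≥0∞) ^ (j + 1)) ^ w *
                {s | D s < ts * (2⁻¹) ^ j}.indicator (fun _ => (1 : ℝ≥0∞)) s) j)
        _ ≤ _ := mul_le_mul' le_rfl le_add_self
  -- integration
  have hmS : ∀ j : ℕ, MeasurableSet {s | D s < ts * (2⁻¹) ^ j} := fun j =>
    measurableSet_lt hD measurable_const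
  have hgeom : ∑' j : ℕ, ((2 : ℝ≥0∞) ^ (j + 1)) ^ w * ENNReal.ofReal (u * ((2⁻¹ : ℝ) ^ β) ^ j) ≤
      (2 : ℝ≥0∞) ^ (w + 1) * ENNReal.ofReal u := by
    have hterm : ∀ j : ℕ, ((2 : ℝ≥0∞) ^ (j + 1)) ^ w * ENNReal.ofReal (u * ((2⁻¹ : ℝ) ^ β) ^ j) ≤
        (2 : ℝ≥0∞) ^ w * ENNReal.ofReal u * (2⁻¹ : ℝ≥0∞) ^ j := by
      intro j
      have h1 : ENNReal.ofReal (u * ((2⁻¹ : ℝ) ^ β) ^ j) =
          ENNReal.ofReal u * (((2⁻¹ : ℝ≥0∞) ^ β) ^ j) := by
        rw [ENNReal.ofReal_mul hu.le, ENNReal.ofReal_pow (by positivity),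
          ENNReal.ofReal_pow (by norm_num), ENNReal.ofReal_inv_of_pos (by norm_num)]
        simp
      have h2 : ((2 : ℝ≥0∞) ^ w) * (2⁻¹ : ℝ≥0∞) ^ β ≤ 2⁻¹ := by
        obtain ⟨e, rfl⟩ := Nat.exists_eq_add_of_le hβ
        have h22 : ((2 : ℝ≥0∞) ^ w) * (2⁻¹ : ℝ≥0∞) ^ w = 1 := by
          rw [← mul_pow, ENNReal.mul_inv_cancel (by norm_num) (by norm_num), one_pow]
        calc ((2 : ℝ≥0∞) ^ w) * (2⁻¹ : ℝ≥0∞) ^ (w + 1 + e)
            = (((2 : ℝ≥0∞) ^ w) * (2⁻¹ : ℝ≥0∞) ^ w) * (2⁻¹ * (2⁻¹ : ℝ≥0∞) ^ e) := by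
              rw [pow_add, pow_add, pow_one]; ring
          _ = 2⁻¹ * (2⁻¹ : ℝ≥0∞) ^ e := by rw [h22, one_mul]
          _ ≤ 2⁻¹ * 1 := mul_le_mul' le_rfl (pow_le_one₀ (by simp) (by simp))
          _ = 2⁻¹ := mul_one _
      rw [h1]
      calc ((2 : ℝ≥0∞) ^ (j + 1)) ^ w * (ENNReal.ofReal u * ((2⁻¹ : ℝ≥0∞) ^ β) ^ j)
          = (2 : ℝ≥0∞) ^ w * ENNReal.ofReal u * (((2 : ℝ≥0∞) ^ w * (2⁻¹ : ℝ≥0∞) ^ β) ^ j) := by
            rw [mul_pow, ← pow_mul, ← pow_mul, ← pow_mul]
            have : (j + 1) * w = w + w * j := by ring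
            rw [this, pow_add]; ring
        _ ≤ _ := mul_le_mul' le_rfl (pow_le_pow_left' h2 j)
    calc _ ≤ ∑' j : ℕ, (2 : ℝ≥0∞) ^ w * ENNReal.ofReal u * (2⁻¹ : ℝ≥0∞) ^ j := ENNReal.tsum_le_tsum hterm
      _ = (2 : ℝ≥0∞) ^ w * ENNReal.ofReal u * 2 := by
          rw [ENNReal.tsum_mul_left, ENNReal.tsum_geometric, ENNReal.one_sub_inv_two, inv_inv]
      _ = _ := by rw [pow_succ]; ring
  have hint : ∫⁻ s in S, (1 + ∑' j : ℕ, ((2 : ℝ≥0∞) ^ (j + 1)) ^ w *
        {s | D s < ts * (2⁻¹) ^ j}.indicator (fun _ => (1 : ℝ≥0∞)) s) ∂μ ≤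
      ENNReal.ofReal u + (2 : ℝ≥0∞) ^ (w + 1) * ENNReal.ofReal u := by
    rw [lintegral_add_left measurable_const, lintegral_const, one_mul,
      Measure.restrict_apply_univ]
    refine add_le_add hS ?_
    rw [lintegral_tsum]
    · refine le_trans (ENNReal.tsum_le_tsum fun j => ?_) hgeom
      rw [lintegral_const_mul _ (measurable_const.indicator (hmS j)),
        lintegral_indicator (hmS j)]
      refine mul_le_mul' le_rfl ?_
      simp only [lintegral_const, one_mul, Measure.restrict_apply, MeasurableSet.univ, univ_inter]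
      refine le_trans ?_ (hshell j)
      exact (Measure.restrict_apply_le _ _).trans le_rfl
    · exact fun j => ((measurable_const.indicator (hmS j)).const_mul _).aemeasurable
  calc ∫⁻ s in S, (ENNReal.ofReal (D s))⁻¹ ^ w ∂μ
      ≤ ∫⁻ s in S, T * (1 + ∑' j : ℕ, ((2 : ℝ≥0∞) ^ (j + 1)) ^ w *
        {s | D s < ts * (2⁻¹) ^ j}.indicator (fun _ => (1 : ℝ≥0∞)) s) ∂μ :=
        lintegral_mono_ae (ae_restrict_of_ae hdom)
    _ ≤ T * ∫⁻ s in S, (1 + ∑' j : ℕ, ((2 : ℝ≥0∞) ^ (j + 1)) ^ w *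
        {s | D s < ts * (2⁻¹) ^ j}.indicator (fun _ => (1 : ℝ≥0∞)) s) ∂μ :=
        (lintegral_const_mul' T _ (by
          rw [hT]; exact ENNReal.pow_ne_top (by simpa using hts0))).le
    _ ≤ T * (ENNReal.ofReal u + (2 : ℝ≥0∞) ^ (w + 1) * ENNReal.ofReal u) := mul_le_mul' le_rfl hint
    _ = ENNReal.ofReal ((ts ^ w)⁻¹ * (u * (1 + 2 ^ (w + 1)))) := by
        rw [ENNReal.ofReal_mul (by positivity), ENNReal.ofReal_inv_of_pos (by positivity),
          ENNReal.ofReal_pow hts0.le, ENNReal.ofReal_mul hu.le, hT, ENNReal.inv_pow]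
        congr 1
        rw [ENNReal.ofReal_add (by norm_num) (by positivity), ENNReal.ofReal_one,
          ENNReal.ofReal_pow (by norm_num)]
        simp only [ENNReal.ofReal_ofNat]
        ring
    _ ≤ _ := by
        refine ENNReal.ofReal_le_ofReal ?_
        have hts' : (ts ^ w)⁻¹ = (r' ^ w)⁻¹ * (K' / u) ^ ((w : ℝ) / β) := by
          rw [hts, mul_pow, mul_inv]
          congr 1
          rw [← Real.rpow_natCast ((u / K') ^ ((1 : ℝ) / β)), ← Real.rpow_mul (by positivity),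
            ← Real.inv_rpow (by positivity), inv_div]
          congr 1
          field_simp
        rw [hts']
        have h12 : (1 : ℝ) + 2 ^ (w + 1) ≤ 2 ^ (w + 2) := by
          have : (1 : ℝ) ≤ 2 ^ (w + 1) := one_le_pow₀ (by norm_num)
          rw [pow_succ (2 : ℝ) (w + 1)]
          linarith
        have hpos1 : 0 ≤ (r' ^ w)⁻¹ * (K' / u) ^ ((w : ℝ) / β) * u := by positivity
        calc (r' ^ w)⁻¹ * (K' / u) ^ ((w : ℝ) / β) * (u * (1 + 2 ^ (w + 1)))
            = ((r' ^ w)⁻¹ * (K' / u) ^ ((w : ℝ) / β) * u) * (1 + 2 ^ (w + 1)) := by ring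
          _ ≤ ((r' ^ w)⁻¹ * (K' / u) ^ ((w : ℝ) / β) * u) * 2 ^ (w + 2) :=
              mul_le_mul_of_nonneg_left h12 hpos1
          _ = _ := by ring

/-! ### Packing in a finite-dimensional normed space -/

section Packing

variable {W : Type*} [NormedAddCommGroup W] [NormedSpace ℝ W] [FiniteDimensional ℝ W]

/-- Volume bound for `t`-separated sets in a ball of radius `R`. -/
lemma card_le_of_sep (F : Finset W) (a0 : W) {R t : ℝ} (ht : 0 < t) (hR : 0 ≤ R)
    (hF : ∀ p ∈ F, ‖p - a0‖ ≤ R) (hsep : ∀ p ∈ F, ∀ q ∈ F, p ≠ q → t ≤ ‖p - q‖) :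
    (F.card : ℝ) ≤ (1 + 2 * R / t) ^ Module.finrank ℝ W := by
  classical
  borelize W
  let μ : Measure W := Measure.addHaar
  set δ : ℝ := t / 2 with hδ
  have hδ0 : 0 < δ := by positivity
  set ρ : ℝ := R + δ with hρ
  have hρ0 : 0 < ρ := by positivity
  set n := Module.finrank ℝ W with hn
  have hD : Set.Pairwise (F : Set W) (Function.onFun Disjoint fun c => ball (c : W) δ) := by
    intro c hc d hd hcd
    apply ball_disjoint_ball
    rw [dist_eq_norm]
    have := hsep c hc d hd hcd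
    linarith
  have hsub : (⋃ c ∈ F, ball (c : W) δ) ⊆ ball a0 ρ := by
    refine iUnion₂_subset fun x hx y hy => ?_
    rw [mem_ball, dist_eq_norm] at hy ⊢
    have h1 := hF x hx
    have h2 : ‖y - a0‖ ≤ ‖y - x‖ + ‖x - a0‖ := by
      have : y - a0 = (y - x) + (x - a0) := by abel
      rw [this]; exact norm_add_le _ _
    simp only [hρ]; linarith
  have hI : (F.card : ℝ≥0∞) * ENNReal.ofReal (δ ^ n) * μ (ball 0 1) ≤
      ENNReal.ofReal (ρ ^ n) * μ (ball 0 1) :=
    calc (F.card : ℝ≥0∞) * ENNReal.ofReal (δ ^ n) * μ (ball 0 1)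
        = μ (⋃ c ∈ F, ball (c : W) δ) := by
          rw [measure_biUnion_finset hD fun c _ => measurableSet_ball]
          have : ∀ c ∈ F, μ (ball c δ) = ENNReal.ofReal (δ ^ n) * μ (ball 0 1) := fun c _ =>
            Measure.addHaar_ball_of_pos μ c hδ0
          rw [Finset.sum_congr rfl this]
          simp [mul_assoc]
      _ ≤ μ (ball a0 ρ) := measure_mono hsub
      _ = ENNReal.ofReal (ρ ^ n) * μ (ball 0 1) := Measure.addHaar_ball_of_pos μ a0 hρ0
  have hJ : (F.card : ℝ≥0∞) * ENNReal.ofReal (δ ^ n) ≤ ENNReal.ofReal (ρ ^ n) :=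
    (ENNReal.mul_le_mul_iff_left (measure_ball_pos _ _ zero_lt_one).ne'
      measure_ball_lt_top.ne).1 hI
  have hK : (F.card : ℝ) * δ ^ n ≤ ρ ^ n := by
    rw [← ENNReal.ofReal_natCast, ← ENNReal.ofReal_mul (by positivity)] at hJ
    exact (ENNReal.ofReal_le_ofReal_iff (by positivity)).1 hJ
  have hpow : (1 + 2 * R / t) ^ n = ρ ^ n / δ ^ n := by
    rw [← div_pow]
    congr 1
    simp only [hρ, hδ]
    field_simp
    ring
  rw [hpow, le_div_iff₀ (by positivity)]
  exact hK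

/-- A finite net of a bounded set, of controlled cardinality. -/
lemma exists_finite_net (A : Set W) (a0 : W) {R t : ℝ} (ht : 0 < t) (hR : 0 ≤ R)
    (hA : ∀ a ∈ A, ‖a - a0‖ ≤ R) :
    ∃ F : Finset W, (F : Set W) ⊆ A ∧ (∀ a ∈ A, ∃ f ∈ F, ‖a - f‖ < t) ∧
      (F.card : ℝ) ≤ (1 + 2 * R / t) ^ Module.finrank ℝ W := by
  classical
  set N : ℕ := ⌊(1 + 2 * R / t) ^ Module.finrank ℝ W⌋₊ with hN
  have hNpos : (0 : ℝ) ≤ (1 + 2 * R / t) ^ Module.finrank ℝ W := by positivity
  let P : ℕ → Prop := fun m => ∃ F : Finset W, (F : Set W) ⊆ A ∧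
    (∀ p ∈ F, ∀ q ∈ F, p ≠ q → t ≤ ‖p - q‖) ∧ F.card = m
  have hP0 : P 0 := ⟨∅, by simp, by simp, rfl⟩
  have hbound : ∀ m, P m → m ≤ N := by
    rintro m ⟨F, hFA, hsep, rfl⟩
    have := card_le_of_sep F a0 ht hR (fun p hp => hA p (hFA hp)) hsep
    exact Nat.le_floor this
  obtain ⟨F, hFA, hsep, hcard⟩ : P (Nat.findGreatest P N) := Nat.findGreatest_spec (Nat.zero_le N) hP0
  refine ⟨F, hFA, ?_, ?_⟩
  · intro a ha
    by_contra hcon
    push Not at hcon
    have hins : P (F.card + 1) := by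
      refine ⟨insert a F, ?_, ?_, ?_⟩
      · intro x hx
        simp only [Finset.coe_insert, mem_insert_iff, Finset.mem_coe] at hx
        rcases hx with rfl | hx
        · exact ha
        · exact hFA hx
      · intro p hp q hq hpq
        simp only [Finset.mem_insert] at hp hq
        rcases hp with rfl | hp <;> rcases hq with rfl | hq
        · exact absurd rfl hpq
        · exact hcon q hq
        · rw [norm_sub_rev]; exact hcon p hp
        · exact hsep p hp q hq hpq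
      · refine Finset.card_insert_of_notMem fun haF => ?_
        have := hcon a haF
        simp at this
        linarith
    have h1 := hbound _ hins
    have h2 : F.card + 1 ≤ Nat.findGreatest P N := Nat.le_findGreatest h1 hins
    omega
  · exact (Nat.cast_le.2 (hbound _ ⟨F, hFA, hsep, rfl⟩)).trans (Nat.floor_le hNpos)

end Packing

/-! ### Step (a): tubes around flats -/

variable {E : Type*} [NormedAddCommGroup E] [InnerProductSpace ℝ E] [FiniteDimensional ℝ E]
  [MeasurableSpace E] [BorelSpace E]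

lemma measurable_distOff (V : Submodule ℝ E) (c : E) : Measurable fun s => distOff V (s - c) := by
  unfold distOff
  have h : Continuous fun s : E => ‖(s - c) - V.starProjection (s - c)‖ := by
    fun_prop
  exact h.measurable

/-- The tube of width `t` around the flat `c + V` is covered by few balls of radius `2t`. -/
theorem tube_measure_le (μ : Measure E) (c0 c : E) (V : Submodule ℝ E) {n : ℕ}
    (hn : Module.finrank ℝ V ≤ n) {r t : ℝ} (hr : 0 ≤ r) (ht : 0 < t)
    (hsupp : ∀ᵐ s ∂μ, ‖s - c0‖ ≤ r) {M : ℝ≥0∞}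
    (hM : ∀ x, μ (closedBall x (2 * t)) ≤ M) :
    μ {s | distOff V (s - c) < t} ≤ ENNReal.ofReal ((5 + 4 * r / t) ^ n) * M := by
  classical
  set A : Set V := {a | ‖(a : E) + c - c0‖ ≤ r + t} with hA
  by_cases hne : A.Nonempty
  · obtain ⟨a0, ha0⟩ := hne
    have hAb : ∀ a ∈ A, ‖a - a0‖ ≤ 2 * (r + t) := by
      intro a ha
      have h1 : ‖(a : E) + c - c0‖ ≤ r + t := ha
      have h2 : ‖(a0 : E) + c - c0‖ ≤ r + t := ha0
      have h3 : ((a - a0 : V) : E) = ((a : E) + c - c0) - ((a0 : E) + c - c0) := by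
        push_cast; abel
      have h4 : ‖a - a0‖ = ‖((a - a0 : V) : E)‖ := rfl
      rw [h4, h3]
      calc _ ≤ ‖(a : E) + c - c0‖ + ‖(a0 : E) + c - c0‖ := norm_sub_le _ _
        _ ≤ _ := by linarith
    obtain ⟨F, hFA, hcov, hcard⟩ := exists_finite_net A a0 ht (by positivity) hAb
    -- the covering
    have hcover : ∀ᵐ s ∂μ, s ∈ {s | distOff V (s - c) < t} → s ∈ ⋃ f ∈ F, closedBall ((f : E) + c) (2 * t) := by
      filter_upwards [hsupp] with s hs hst
      have hst' : ‖(s - c) - V.starProjection (s - c)‖ < t := hst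
      set a : V := V.orthogonalProjectionOnto (s - c) with ha
      have hac : (a : E) = V.starProjection (s - c) := rfl
      have haA : a ∈ A := by
        have : (a : E) + c - c0 = (s - c0) - ((s - c) - V.starProjection (s - c)) := by
          rw [hac]; abel
        change ‖(a : E) + c - c0‖ ≤ r + t
        rw [this]
        calc _ ≤ ‖s - c0‖ + ‖(s - c) - V.starProjection (s - c)‖ := norm_sub_le _ _
          _ ≤ _ := by linarith
      obtain ⟨f, hfF, hf⟩ := hcov a haA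
      simp only [mem_iUnion, mem_closedBall, exists_prop]
      refine ⟨f, hfF, ?_⟩
      rw [dist_eq_norm]
      have h5 : s - ((f : E) + c) = ((s - c) - V.starProjection (s - c)) + ((a - f : V) : E) := by
        push_cast; rw [hac]; abel
      rw [h5]
      calc _ ≤ ‖(s - c) - V.starProjection (s - c)‖ + ‖((a - f : V) : E)‖ := norm_add_le _ _
        _ ≤ t + t := by
            have : ‖((a - f : V) : E)‖ = ‖a - f‖ := rfl
            rw [this]; linarith
        _ = 2 * t := by ring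
    have hcount : (5 + 4 * r / t) ^ Module.finrank ℝ V ≤ (5 + 4 * r / t) ^ n :=
      pow_le_pow_right₀ (by
        have : 0 ≤ 4 * r / t := by positivity
        linarith) hn
    have hval : (1 + 2 * (2 * (r + t)) / t) = 5 + 4 * r / t := by
      field_simp; ring
    rw [hval] at hcard
    calc μ {s | distOff V (s - c) < t}
        ≤ μ (⋃ f ∈ F, closedBall ((f : E) + c) (2 * t)) := measure_mono_ae hcover
      _ ≤ ∑ f ∈ F, μ (closedBall ((f : E) + c) (2 * t)) := measure_biUnion_finset_le _ _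
      _ ≤ ∑ _f ∈ F, M := Finset.sum_le_sum fun f _ => hM _
      _ = (F.card : ℝ≥0∞) * M := by simp
      _ ≤ ENNReal.ofReal ((5 + 4 * r / t) ^ n) * M := by
          refine mul_le_mul' ?_ le_rfl
          rw [← ENNReal.ofReal_natCast]
          exact ENNReal.ofReal_le_ofReal (hcard.trans hcount)
  · -- empty tube
    have hnull : μ {s | distOff V (s - c) < t} = 0 := by
      refine measure_mono_null ?_ (ae_iff.1 hsupp)
      intro s hst hs
      refine hne ⟨V.orthogonalProjectionOnto (s - c), ?_⟩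
      have hst' : ‖(s - c) - V.starProjection (s - c)‖ < t := hst
      have hs' : ‖s - c0‖ ≤ r := hs
      have : ((V.orthogonalProjectionOnto (s - c) : V) : E) + c - c0 =
          (s - c0) - ((s - c) - V.starProjection (s - c)) := by
        have hac : ((V.orthogonalProjectionOnto (s - c) : V) : E) = V.starProjection (s - c) := rfl
        rw [hac]; abel
      change ‖((V.orthogonalProjectionOnto (s - c) : V) : E) + c - c0‖ ≤ r + t
      rw [this]
      calc _ ≤ ‖s - c0‖ + ‖(s - c) - V.starProjection (s - c)‖ := norm_sub_le _ _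
        _ ≤ _ := by linarith
    rw [hnull]
    exact bot_le

/-- **Non-concentration (step (a)).**  Suppose `μ` has total mass `≤ 1`, is carried by the ball of radius
`r' = 2^(-Q)` around `c0`, and for each level `q' ≥ Q` every ball of radius `4 · 2^(-q')` has mass
at most `Cb · 2^(-β (q'-Q))`, `Cb ≥ 1`.  Then every tube around a flat of dimension `≤ n ≤ β` has
`μ (tube t) ≤ 9^n Cb (t / r')^(β - n)`. -/
theorem tube_tail (μ : Measure E) (hμ1 : μ Set.univ ≤ 1) (c0 c : E) (V : Submodule ℝ E) {n β Q : ℕ}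
    (hn : Module.finrank ℝ V ≤ n) (hnβ : n ≤ β) {Cb : ℝ} (hCb : 1 ≤ Cb)
    (hsupp : ∀ᵐ s ∂μ, ‖s - c0‖ ≤ (2⁻¹ : ℝ) ^ Q)
    (hball : ∀ q' : ℕ, Q ≤ q' → ∀ x, μ (closedBall x (4 * (2⁻¹ : ℝ) ^ q')) ≤
      ENNReal.ofReal (Cb * ((2⁻¹ : ℝ) ^ (q' - Q)) ^ β)) {t : ℝ} (ht : 0 < t) :
    μ {s | distOff V (s - c) < t} ≤
      ENNReal.ofReal (9 ^ n * Cb * (t / (2⁻¹ : ℝ) ^ Q) ^ (β - n)) := by
  set r' : ℝ := (2⁻¹ : ℝ) ^ Q with hr'
  have hr'0 : 0 < r' := by positivity
  by_cases htr : r' ≤ t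
  · -- large `t`: trivial
    refine (measure_mono (subset_univ _)).trans (hμ1.trans ?_)
    rw [← ENNReal.ofReal_one]
    refine ENNReal.ofReal_le_ofReal ?_
    have h1 : 1 ≤ t / r' := (one_le_div hr'0).2 htr
    have h2 : (1 : ℝ) ≤ (t / r') ^ (β - n) := one_le_pow₀ h1
    have h3 : (1 : ℝ) ≤ 9 ^ n := one_le_pow₀ (by norm_num)
    calc (1 : ℝ) = 1 * 1 * 1 := by ring
      _ ≤ 9 ^ n * Cb * (t / r') ^ (β - n) := by gcongr
  · -- small `t`
    push Not at htr
    -- the scale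
    obtain ⟨q', hq1, hq2⟩ : ∃ q' : ℕ, (2⁻¹ : ℝ) ^ q' ≤ t ∧ t < 2 * (2⁻¹ : ℝ) ^ q' := by
      have hlim : Tendsto (fun j : ℕ => (2⁻¹ : ℝ) ^ j) atTop (𝓝 0) :=
        tendsto_pow_atTop_nhds_zero_of_lt_one (by norm_num) (by norm_num)
      have hev : ∃ n : ℕ, (2⁻¹ : ℝ) ^ n ≤ t := by
        obtain ⟨n, hn⟩ := (hlim.eventually (ge_mem_nhds ht)).exists
        exact ⟨n, hn⟩
      classical
      refine ⟨Nat.find hev, Nat.find_spec hev, ?_⟩
      by_cases h0 : Nat.find hev = 0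
      · rw [h0]
        have h1 : t < r' := htr
        have h2 : r' ≤ 1 := pow_le_one₀ (by norm_num) (by norm_num)
        simp only [pow_zero]; linarith
      · obtain ⟨j, hj⟩ := Nat.exists_eq_succ_of_ne_zero h0
        have := Nat.find_min hev (m := j) (by omega)
        push Not at this
        rw [hj, pow_succ]
        linarith
    have hQq : Q ≤ q' := by
      by_contra hcon
      push Not at hcon
      have h1 : (2⁻¹ : ℝ) ^ Q ≤ (2⁻¹ : ℝ) ^ q' :=
        pow_le_pow_of_le_one (by norm_num) (by norm_num) hcon.le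
      linarith
    have hrat : (2⁻¹ : ℝ) ^ (q' - Q) ≤ t / r' := by
      rw [le_div_iff₀ hr'0]
      have : (2⁻¹ : ℝ) ^ (q' - Q) * r' = (2⁻¹ : ℝ) ^ q' := by
        rw [hr', ← pow_add]; congr 1; omega
      rw [this]; exact hq1
    have hM : ∀ x, μ (closedBall x (2 * t)) ≤ ENNReal.ofReal (Cb * (t / r') ^ β) := by
      intro x
      have h1 : closedBall x (2 * t) ⊆ closedBall x (4 * (2⁻¹ : ℝ) ^ q') :=
        closedBall_subset_closedBall (by linarith)
      refine (measure_mono h1).trans ((hball q' hQq x).trans (ENNReal.ofReal_le_ofReal ?_))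
      gcongr
    have hstep := tube_measure_le μ c0 c V hn (r := r') hr'0.le ht hsupp hM
    refine hstep.trans ?_
    rw [← ENNReal.ofReal_mul (by
      have : 0 ≤ 4 * r' / t := by positivity
      positivity)]
    refine ENNReal.ofReal_le_ofReal ?_
    have h5 : 5 + 4 * r' / t ≤ 9 * (r' / t) := by
      have : 1 ≤ r' / t := (one_le_div ht).2 htr.le
      have h6 : 4 * r' / t = 4 * (r' / t) := by ring
      rw [h6]; linarith
    have h7 : 0 ≤ 5 + 4 * r' / t := by
      have : 0 ≤ 4 * r' / t := by positivity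
      linarith
    have hr0 : 0 < t / r' := by positivity
    calc (5 + 4 * r' / t) ^ n * (Cb * (t / r') ^ β)
        ≤ (9 * (r' / t)) ^ n * (Cb * (t / r') ^ β) := by gcongr
      _ = 9 ^ n * Cb * ((r' / t) ^ n * (t / r') ^ β) := by rw [mul_pow]; ring
      _ = 9 ^ n * Cb * (t / r') ^ (β - n) := by
          congr 1
          have h8 : (t / r') ^ β = (t / r') ^ (β - n) * (t / r') ^ n := by
            rw [← pow_add]; congr 1; omega
          have h9 : (r' / t) ^ n * (t / r') ^ n = 1 := by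
            rw [← mul_pow]
            have : r' / t * (t / r') = 1 := by field_simp
            rw [this, one_pow]
          rw [h8]
          calc (r' / t) ^ n * ((t / r') ^ (β - n) * (t / r') ^ n)
              = ((r' / t) ^ n * (t / r') ^ n) * (t / r') ^ (β - n) := by ring
            _ = _ := by rw [h9, one_mul]

/-- **Step (b) for flats**: the bound `Imax` on `∫_S dist(s, c+V)^(-w)`. -/
theorem lintegral_distOff_inv_pow_le (μ : Measure E) (hμ1 : μ Set.univ ≤ 1) (c0 c : E)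
    (V : Submodule ℝ E) {n β Q w : ℕ} (hn : Module.finrank ℝ V ≤ n) (hnβ : n + w + 1 ≤ β) {Cb : ℝ}
    (hCb : 1 ≤ Cb) (hsupp : ∀ᵐ s ∂μ, ‖s - c0‖ ≤ (2⁻¹ : ℝ) ^ Q)
    (hball : ∀ q' : ℕ, Q ≤ q' → ∀ x, μ (closedBall x (4 * (2⁻¹ : ℝ) ^ q')) ≤
      ENNReal.ofReal (Cb * ((2⁻¹ : ℝ) ^ (q' - Q)) ^ β))
    (S : Set E) {u : ℝ} (hu : 0 < u) (hS : μ S ≤ ENNReal.ofReal u) :
    ∫⁻ s in S, (ENNReal.ofReal (distOff V (s - c)))⁻¹ ^ w ∂μ ≤
      ENNReal.ofReal (2 ^ (w + 2) * u * (((2⁻¹ : ℝ) ^ Q) ^ w)⁻¹ *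
        ((9 ^ n * Cb) / u) ^ ((w : ℝ) / ((β - n : ℕ) : ℝ))) := by
  refine lintegral_inv_pow_le μ S (fun s => distOff V (s - c)) (measurable_distOff V c)
    (by positivity) (by positivity) hu (by omega) hS ?_
  intro t ht
  exact tube_tail μ hμ1 c0 c V hn (by omega) hCb hsupp hball ht

end MemSample
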