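/-
Row 322 (S0499), Window Lemma part (g): from a tail bound to the information bound, and the
abstract Hölder combination over (X, n).  (helper31)

* `tail_to_entropy` : if `∑ₙ ∫_{Lₙ > 2^(ℓ₀+jη) pₙ} Lₙ dμ ≤ 2·2^(-j)` for all `j`, then
  `∑ₙ ∫ Lₙ log₂(Lₙ/pₙ) dμ ≤ ℓ₀ + 4η`.
* `tail_holder` : `∑ₙ ∫_{Sₙ} Lₙ dμ ≤ e + VB^(1-1/k) (N M)^(1/k)` from the pointwise Lemma B,
  the bad set bound and the moment bound.
-/
import Mathlib

set_option autoImplicit false

open MeasureTheory
open scoped ENNReal BigOperators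

namespace MemSample.WLTail

/-! ### Layer cake with a discrete step -/

/-- `x ≤ ℓ₀ + η · #{j < J | ℓ₀ + jη < x}` as soon as `x ≤ ℓ₀ + Jη`. -/
lemma pointwise_le (l0 η x : ℝ) (hη : 0 < η) (J : ℕ) (hJ : x ≤ l0 + J * η) :
    x ≤ l0 + η * ∑ j ∈ Finset.range J, (if l0 + j * η < x then (1:ℝ) else 0) := by
  have hsum_nonneg : ∀ K : ℕ, 0 ≤ ∑ j ∈ Finset.range K, (if l0 + j * η < x then (1:ℝ) else 0) :=
    fun K => Finset.sum_nonneg fun j _ => by split_ifs <;> norm_num
  induction J with
  | zero => simp at hJ ⊢; linarith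
  | succ J ih =>
    rw [Finset.sum_range_succ]
    by_cases h : x ≤ l0 + J * η
    · have := ih h
      have h2 : (0:ℝ) ≤ (if l0 + J * η < x then (1:ℝ) else 0) := by split_ifs <;> norm_num
      nlinarith
    · push Not at h
      have hall : ∀ j ∈ Finset.range (J+1), (if l0 + j * η < x then (1:ℝ) else 0) = 1 := by
        intro j hj
        have hj' : (j:ℝ) ≤ J := by
          have := Finset.mem_range.mp hj
          exact_mod_cast Nat.lt_succ_iff.mp this
        have : l0 + j * η < x := by nlinarith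
        simp [this]
      rw [← Finset.sum_range_succ, Finset.sum_congr rfl hall]
      simp
      push_cast at hJ
      nlinarith

variable {α ι : Type*} [MeasurableSpace α] [Fintype ι]

/-- Abstract layer-cake: a dyadic tail bound gives the information bound. -/
theorem tail_to_entropy (μ : Measure α) [IsProbabilityMeasure μ] (L : ι → α → ℝ)
    (hLm : ∀ n, Measurable (L n)) (hL0 : ∀ n s, 0 ≤ L n s) (hL1 : ∀ s, ∑ n, L n s = 1)
    (l0 η : ℝ) (hη : 0 < η)
    (htail : ∀ j : ℕ, ∑ n, ∫ s in {s | (2:ℝ) ^ (l0 + j * η) * (∫ x, L n x ∂μ) < L n s}, L n s ∂μ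
      ≤ 2 * (1/2 : ℝ) ^ j) :
    ∑ n, ∫ s, L n s * Real.logb 2 (L n s / ∫ x, L n x ∂μ) ∂μ ≤ l0 + 4 * η := by
  classical
  set p : ι → ℝ := fun n => ∫ x, L n x ∂μ with hp
  have hLle : ∀ n s, L n s ≤ 1 := by
    intro n s
    rw [← hL1 s]
    exact Finset.single_le_sum (fun i _ => hL0 i s) (Finset.mem_univ n)
  have hLint : ∀ n, Integrable (L n) μ := by
    intro n
    refine Integrable.of_bound (hLm n).aestronglyMeasurable 1 (Filter.Eventually.of_forall ?_)
    intro s
    rw [Real.norm_of_nonneg (hL0 n s)]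
    exact hLle n s
  have hp0 : ∀ n, 0 ≤ p n := fun n => integral_nonneg (hL0 n)
  have hsump : ∑ n, p n = 1 := by
    simp only [hp]
    rw [← integral_finsetSum _ (fun n _ => hLint n)]
    simp [hL1]
  -- choose `J` large
  obtain ⟨J, hJ⟩ : ∃ J : ℕ, ∀ n, 0 < p n → Real.logb 2 (1 / p n) ≤ l0 + J * η := by
    have : ∀ n : ι, ∃ J : ℕ, 0 < p n → Real.logb 2 (1 / p n) ≤ l0 + J * η := by
      intro n
      obtain ⟨J, hJ⟩ := exists_nat_ge ((Real.logb 2 (1 / p n) - l0) / η)
      refine ⟨J, fun _ => ?_⟩
      rw [div_le_iff₀ hη] at hJ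
      linarith
    choose Jf hJf using this
    refine ⟨∑ n, Jf n, fun n hn => (hJf n hn).trans ?_⟩
    have : (Jf n : ℝ) ≤ ∑ n, (Jf n : ℝ) :=
      Finset.single_le_sum (f := fun n => (Jf n : ℝ)) (fun i _ => Nat.cast_nonneg _)
        (Finset.mem_univ n)
    push_cast
    nlinarith
  set A : ι → ℕ → Set α := fun n j => {s | (2:ℝ) ^ (l0 + j * η) * p n < L n s} with hA
  have hAm : ∀ n j, MeasurableSet (A n j) := fun n j =>
    measurableSet_lt measurable_const (hLm n)
  -- the bound for each `n`
  have key : ∀ n, ∫ s, L n s * Real.logb 2 (L n s / p n) ∂μ ≤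
      l0 * p n + η * ∑ j ∈ Finset.range J, ∫ s in A n j, L n s ∂μ := by
    intro n
    have hsetnonneg : ∀ j, 0 ≤ ∫ s in A n j, L n s ∂μ := fun j => integral_nonneg (hL0 n)
    rcases (hp0 n).eq_or_lt with h0 | hpos
    · -- `L n = 0` a.e.
      have hae : L n =ᵐ[μ] 0 := by
        have : ∫ x, L n x ∂μ = 0 := h0.symm
        exact (integral_eq_zero_iff_of_nonneg (hL0 n) (hLint n)).1 this
      have h1 : ∫ s, L n s * Real.logb 2 (L n s / p n) ∂μ = 0 := by
        apply integral_eq_zero_of_ae
        filter_upwards [hae] with s hs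
        simp [hs]
      rw [h1, ← h0]
      have : 0 ≤ ∑ j ∈ Finset.range J, ∫ s in A n j, L n s ∂μ :=
        Finset.sum_nonneg fun j _ => hsetnonneg j
      have := mul_nonneg hη.le this
      linarith
    · have hpt : ∀ s, L n s * Real.logb 2 (L n s / p n) ≤
          l0 * L n s + η * ∑ j ∈ Finset.range J, (A n j).indicator (L n) s := by
        intro s
        rcases (hL0 n s).eq_or_lt with hs0 | hspos
        · have : ∀ j, (A n j).indicator (L n) s = 0 := by
            intro j
            by_cases hj : s ∈ A n j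
            · simp [Set.indicator_of_mem hj, ← hs0]
            · simp [Set.indicator_of_notMem hj]
          simp [this, ← hs0]
        · set x := Real.logb 2 (L n s / p n) with hx
          have hxJ : x ≤ l0 + J * η := by
            refine le_trans ?_ (hJ n hpos)
            apply Real.logb_le_logb_of_le (by norm_num) (by positivity)
            exact div_le_div_of_nonneg_right (hLle n s) hpos.le
          have h1 := pointwise_le l0 η x hη J hxJ
          have hind : ∀ j : ℕ, (if l0 + j * η < x then (1:ℝ) else 0) * L n s =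
              (A n j).indicator (L n) s := by
            intro j
            have hiff : l0 + j * η < x ↔ s ∈ A n j := by
              simp only [hA, Set.mem_ofPred_eq, hx]
              rw [Real.lt_logb_iff_rpow_lt (by norm_num) (by positivity), lt_div_iff₀ hpos]
            by_cases hj : s ∈ A n j
            · rw [if_pos (hiff.2 hj), Set.indicator_of_mem hj, one_mul]
            · rw [if_neg (fun h => hj (hiff.1 h)), Set.indicator_of_notMem hj, zero_mul]
          calc L n s * x ≤ L n s * (l0 + η * ∑ j ∈ Finset.range J,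
                  (if l0 + j * η < x then (1:ℝ) else 0)) :=
                mul_le_mul_of_nonneg_left h1 hspos.le
            _ = l0 * L n s + η * ∑ j ∈ Finset.range J,
                  ((if l0 + j * η < x then (1:ℝ) else 0) * L n s) := by
                rw [← Finset.sum_mul]; ring
            _ = _ := by simp only [hind]
      have hsumint : Integrable (fun s => l0 * L n s + η * ∑ j ∈ Finset.range J,
          (A n j).indicator (L n) s) μ := by
        refine ((hLint n).const_mul l0).add (Integrable.const_mul ?_ η)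
        exact integrable_finsetSum _ fun j _ => (hLint n).indicator (hAm n j)
      have hleft : Integrable (fun s => L n s * Real.logb 2 (L n s / p n)) μ := by
        -- bounded by `1/(p n * log 2)`-ish: we use `|t log t| ≤ 1`
        have hmeas : Measurable (fun s => L n s * Real.logb 2 (L n s / p n)) := by
          apply (hLm n).mul
          unfold Real.logb
          exact (((hLm n).div_const _).log).div_const _
        refine Integrable.of_bound hmeas.aestronglyMeasurable
          ((1 + |Real.log (p n)|) / Real.log 2) (Filter.Eventually.of_forall ?_)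
        intro s
        have hlog2 : 0 < Real.log 2 := Real.log_pos (by norm_num)
        rcases (hL0 n s).eq_or_lt with hs0 | hspos
        · rw [← hs0]
          simp only [zero_mul, norm_zero]
          positivity
        · rw [Real.norm_eq_abs, Real.logb, Real.log_div hspos.ne' hpos.ne', ← mul_div_assoc,
            abs_div, abs_of_pos hlog2]
          apply div_le_div_of_nonneg_right _ hlog2.le
          have h1 : |Real.log (L n s) * L n s| < 1 :=
            Real.abs_log_mul_self_lt _ hspos (hLle n s)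
          have h2 : |L n s * Real.log (p n)| ≤ |Real.log (p n)| := by
            rw [abs_mul, abs_of_pos hspos]
            exact mul_le_of_le_one_left (abs_nonneg _) (hLle n s)
          have h3 : L n s * (Real.log (L n s) - Real.log (p n)) =
              Real.log (L n s) * L n s - L n s * Real.log (p n) := by ring
          rw [h3]
          exact (abs_sub _ _).trans (by linarith)
      calc ∫ s, L n s * Real.logb 2 (L n s / p n) ∂μ
          ≤ ∫ s, (l0 * L n s + η * ∑ j ∈ Finset.range J, (A n j).indicator (L n) s) ∂μ :=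
            integral_mono hleft hsumint hpt
        _ = l0 * p n + η * ∑ j ∈ Finset.range J, ∫ s in A n j, L n s ∂μ := by
            rw [integral_add ((hLint n).const_mul l0) (Integrable.const_mul
              (integrable_finsetSum _ fun j _ => (hLint n).indicator (hAm n j)) η),
              integral_const_mul, integral_const_mul, integral_finsetSum _
              (fun j _ => (hLint n).indicator (hAm n j))]
            congr 2
            exact Finset.sum_congr rfl fun j _ => integral_indicator (hAm n j)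
  calc ∑ n, ∫ s, L n s * Real.logb 2 (L n s / ∫ x, L n x ∂μ) ∂μ
      ≤ ∑ n, (l0 * p n + η * ∑ j ∈ Finset.range J, ∫ s in A n j, L n s ∂μ) :=
        Finset.sum_le_sum fun n _ => key n
    _ = l0 * ∑ n, p n + η * ∑ j ∈ Finset.range J, ∑ n, ∫ s in A n j, L n s ∂μ := by
        rw [Finset.sum_add_distrib, ← Finset.mul_sum, ← Finset.mul_sum]
        congr 2
        exact Finset.sum_comm
    _ ≤ l0 * 1 + η * ∑ j ∈ Finset.range J, (2 * (1/2 : ℝ) ^ j) := by
        rw [hsump]
        have : ∑ j ∈ Finset.range J, ∑ n, ∫ s in A n j, L n s ∂μ ≤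
            ∑ j ∈ Finset.range J, (2 * (1/2 : ℝ) ^ j) :=
          Finset.sum_le_sum fun j _ => htail j
        nlinarith
    _ ≤ l0 + 4 * η := by
        have hgeom : ∑ j ∈ Finset.range J, (2 * (1/2 : ℝ) ^ j) ≤ 4 := by
          rw [← Finset.mul_sum]
          have : ∑ j ∈ Finset.range J, (1/2 : ℝ) ^ j ≤ 2 := by
            rw [geom_sum_eq (by norm_num)]
            have : (0:ℝ) ≤ (1/2 : ℝ) ^ J := by positivity
            norm_num
            nlinarith
          linarith
        nlinarith

/-! ### The Hölder combination over `(X, n)` -/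

section Holder

variable {Ω Y : Type*} [MeasurableSpace Ω] [MeasurableSpace Y] [MeasurableSpace ι]
  [MeasurableSingletonClass ι]

open Function in
/-- The tail combination. `app X s = X s ∈ Y = ℝ^w`; `f X y ∈ ι`. For each `n`, `S n` is the
level set; the conclusion bounds the tail probability (in `lintegral` form). The bad set bound
`hbad` only holds on average over `X`, Lemma B only for a.e. `X`. -/
theorem tail_holder (μ : Measure α) [IsFiniteMeasure μ] (P : Measure Ω) [IsProbabilityMeasure P]
    (vol : Measure Y) [SFinite vol]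
    (app : Ω → α → Y) (happ : Measurable (uncurry app))
    (f : Ω → Y → ι) (hf : Measurable (uncurry f))
    (S : ι → Set α)
    (B : Set (Ω × Y)) (hB : MeasurableSet B)
    (p q : ℝ) (hpq : p.HolderConjugate q)
    (Λ : ι → Ω → ℝ≥0∞) (hΛm : ∀ n, Measurable (Λ n))
    (e VB M : ℝ≥0∞)
    (hbad : ∫⁻ X, μ {s | (X, app X s) ∉ B} ∂P ≤ e)
    (hLB : ∀ n, ∀ᵐ X ∂P, ((μ.restrict (S n)).map (app X)) {y | f X y = n ∧ (X, y) ∈ B} ≤
      vol {y | f X y = n ∧ (X, y) ∈ B} ^ (1 / p) * Λ n X ^ (1 / q))
    (hVB : ∫⁻ X, vol {y | (X, y) ∈ B} ∂P ≤ VB)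
    (hM : ∀ n, ∫⁻ X, Λ n X ∂P ≤ M) :
    ∑ n, ∫⁻ s in S n, P {X | f X (app X s) = n} ∂μ ≤
      e + VB ^ (1 / p) * ((Fintype.card ι : ℝ≥0∞) * M) ^ (1 / q) := by
  classical
  have hp0 : 0 < p := hpq.pos
  have hq0 : 0 < q := hpq.symm.pos
  have happX : ∀ X, Measurable (app X) := fun X => happ.comp measurable_prodMk_left
  -- the joint event
  have hZ : ∀ n, MeasurableSet {x : α × Ω | f x.2 (app x.2 x.1) = n} := by
    intro n
    have : Measurable fun x : α × Ω => f x.2 (app x.2 x.1) :=
      hf.comp (measurable_snd.prodMk (happ.comp (measurable_snd.prodMk measurable_fst)))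
    exact this (measurableSet_singleton n)
  -- Tonelli
  have hTon : ∀ n, ∫⁻ s in S n, P {X | f X (app X s) = n} ∂μ =
      ∫⁻ X, (μ.restrict (S n)) {s | f X (app X s) = n} ∂P := by
    intro n
    have h1 := Measure.prod_apply (μ := μ.restrict (S n)) (ν := P) (hZ n)
    have h2 := Measure.prod_apply_symm (μ := μ.restrict (S n)) (ν := P) (hZ n)
    exact h1.symm.trans h2
  simp_rw [hTon]
  -- pointwise splitting
  set gB : ι → Ω → Set Y := fun n X => {y | f X y = n ∧ (X, y) ∈ B} with hgB
  have hgBm : ∀ n X, MeasurableSet (gB n X) := by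
    intro n X
    have h1 : Measurable (f X) := hf.comp measurable_prodMk_left
    have h2 : MeasurableSet {y | (X, y) ∈ B} := measurable_prodMk_left hB
    exact (h1 (measurableSet_singleton n)).inter h2
  have hLBall : ∀ᵐ X ∂P, ∀ n, ((μ.restrict (S n)).map (app X)) (gB n X) ≤
      vol (gB n X) ^ (1 / p) * Λ n X ^ (1 / q) := ae_all_iff.2 hLB
  have hsplit : ∀ᵐ X ∂P, ∑ n, (μ.restrict (S n)) {s | f X (app X s) = n} ≤
      μ {s | (X, app X s) ∉ B} + ∑ n, vol (gB n X) ^ (1 / p) * Λ n X ^ (1 / q) := by
    filter_upwards [hLBall] with X hX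
    have hfm : Measurable fun s => f X (app X s) :=
      (hf.comp measurable_prodMk_left).comp (happX X)
    have hbadm : MeasurableSet {s | (X, app X s) ∉ B} :=
      (measurable_prodMk_left.comp (happX X) hB).compl
    have h1 : ∀ n, (μ.restrict (S n)) {s | f X (app X s) = n} ≤
        μ {s | f X (app X s) = n ∧ (X, app X s) ∉ B} +
          vol (gB n X) ^ (1 / p) * Λ n X ^ (1 / q) := by
      intro n
      have hsub : {s | f X (app X s) = n} ⊆
          {s | f X (app X s) = n ∧ (X, app X s) ∉ B} ∪ (app X) ⁻¹' (gB n X) := by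
        intro s hs
        by_cases h : (X, app X s) ∈ B
        · exact Or.inr ⟨hs, h⟩
        · exact Or.inl ⟨hs, h⟩
      calc (μ.restrict (S n)) {s | f X (app X s) = n}
          ≤ (μ.restrict (S n)) ({s | f X (app X s) = n ∧ (X, app X s) ∉ B} ∪
              (app X) ⁻¹' (gB n X)) := measure_mono hsub
        _ ≤ (μ.restrict (S n)) {s | f X (app X s) = n ∧ (X, app X s) ∉ B} +
              (μ.restrict (S n)) ((app X) ⁻¹' (gB n X)) := measure_union_le _ _
        _ ≤ μ {s | f X (app X s) = n ∧ (X, app X s) ∉ B} +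
              vol (gB n X) ^ (1 / p) * Λ n X ^ (1 / q) := by
            gcongr
            · exact Measure.restrict_le_self
            · rw [← Measure.map_apply (happX X) (hgBm n X)]
              exact hX n
    have h2 : ∑ n, μ {s | f X (app X s) = n ∧ (X, app X s) ∉ B} = μ {s | (X, app X s) ∉ B} := by
      have hdisj : Set.PairwiseDisjoint (↑(Finset.univ : Finset ι))
          (fun n => {s | f X (app X s) = n ∧ (X, app X s) ∉ B}) := by
        intro a _ b _ hab
        refine Set.disjoint_left.2 ?_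
        intro s hsa hsb
        exact hab (hsa.1.symm.trans hsb.1)
      have hm : ∀ n ∈ (Finset.univ : Finset ι),
          MeasurableSet {s | f X (app X s) = n ∧ (X, app X s) ∉ B} :=
        fun n _ => (hfm (measurableSet_singleton n)).inter hbadm
      rw [← measure_biUnion_finset hdisj hm]
      congr 1
      ext s
      simp
    calc ∑ n, (μ.restrict (S n)) {s | f X (app X s) = n}
        ≤ ∑ n, (μ {s | f X (app X s) = n ∧ (X, app X s) ∉ B} +
            vol (gB n X) ^ (1 / p) * Λ n X ^ (1 / q)) :=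
          Finset.sum_le_sum fun n _ => h1 n
      _ = ∑ n, μ {s | f X (app X s) = n ∧ (X, app X s) ∉ B} +
            ∑ n, vol (gB n X) ^ (1 / p) * Λ n X ^ (1 / q) := Finset.sum_add_distrib
      _ = _ := by rw [h2]
  -- measurability of `X ↦ vol (gB n X)`
  have hgBjoint : ∀ n, MeasurableSet {x : Ω × Y | f x.1 x.2 = n ∧ x ∈ B} := by
    intro n
    exact (hf (measurableSet_singleton n)).inter hB
  have hvm : ∀ n, Measurable fun X => vol (gB n X) := fun n =>
    measurable_measure_prodMk_left (hgBjoint n)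
  -- measurability of the miss mass
  have hmissjoint : MeasurableSet {x : Ω × α | (x.1, app x.1 x.2) ∉ B} := by
    have : Measurable fun x : Ω × α => (x.1, app x.1 x.2) := measurable_fst.prodMk happ
    exact (this hB).compl
  have hmissm : Measurable fun X => μ {s | (X, app X s) ∉ B} :=
    measurable_measure_prodMk_left hmissjoint
  -- Hölder in `X` for each `n`
  have hHol : ∀ n, ∫⁻ X, vol (gB n X) ^ (1 / p) * Λ n X ^ (1 / q) ∂P ≤
      (∫⁻ X, vol (gB n X) ∂P) ^ (1 / p) * (∫⁻ X, Λ n X ∂P) ^ (1 / q) := by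
    intro n
    have := ENNReal.lintegral_mul_le_Lp_mul_Lq P hpq
      (f := fun X => vol (gB n X) ^ (1 / p)) (g := fun X => Λ n X ^ (1 / q))
      ((hvm n).pow_const _).aemeasurable ((hΛm n).pow_const _).aemeasurable
    simp only [Pi.mul_apply] at this
    have e1 : ∀ X, (vol (gB n X) ^ (1 / p)) ^ p = vol (gB n X) := by
      intro X
      rw [← ENNReal.rpow_mul, one_div, inv_mul_cancel₀ hp0.ne', ENNReal.rpow_one]
    have e2 : ∀ X, (Λ n X ^ (1 / q)) ^ q = Λ n X := by
      intro X
      rw [← ENNReal.rpow_mul, one_div, inv_mul_cancel₀ hq0.ne', ENNReal.rpow_one]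
    simpa only [e1, e2] using this
  -- the sum of volumes
  have hsumvol : ∑ n, ∫⁻ X, vol (gB n X) ∂P ≤ VB := by
    refine le_trans (le_of_eq ?_) hVB
    rw [← lintegral_finsetSum _ (fun n _ => hvm n)]
    refine lintegral_congr fun X => ?_
    have hdisj : Set.PairwiseDisjoint (↑(Finset.univ : Finset ι)) (fun n => gB n X) := by
      intro a _ b _ hab
      refine Set.disjoint_left.2 ?_
      intro s hsa hsb
      exact hab (hsa.1.symm.trans hsb.1)
    rw [← measure_biUnion_finset hdisj (fun n _ => hgBm n X)]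
    congr 1
    ext y
    simp [hgB]
  -- Hölder in `n`
  have hHol2 : ∑ n, (∫⁻ X, vol (gB n X) ∂P) ^ (1 / p) * (∫⁻ X, Λ n X ∂P) ^ (1 / q) ≤
      VB ^ (1 / p) * ((Fintype.card ι : ℝ≥0∞) * M) ^ (1 / q) := by
    have := ENNReal.inner_le_Lp_mul_Lq (Finset.univ : Finset ι)
      (fun n => (∫⁻ X, vol (gB n X) ∂P) ^ (1 / p)) (fun n => (∫⁻ X, Λ n X ∂P) ^ (1 / q)) hpq
    refine this.trans ?_
    have e1 : ∀ n, ((∫⁻ X, vol (gB n X) ∂P) ^ (1 / p)) ^ p = ∫⁻ X, vol (gB n X) ∂P := by
      intro X
      rw [← ENNReal.rpow_mul, one_div, inv_mul_cancel₀ hp0.ne', ENNReal.rpow_one]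
    have e2 : ∀ n, ((∫⁻ X, Λ n X ∂P) ^ (1 / q)) ^ q = ∫⁻ X, Λ n X ∂P := by
      intro X
      rw [← ENNReal.rpow_mul, one_div, inv_mul_cancel₀ hq0.ne', ENNReal.rpow_one]
    simp only [e1, e2]
    have h1 : (∑ n, ∫⁻ X, vol (gB n X) ∂P) ^ (1 / p) ≤ VB ^ (1 / p) :=
      ENNReal.rpow_le_rpow hsumvol (by positivity)
    have h2 : (∑ n, ∫⁻ X, Λ n X ∂P) ≤ (Fintype.card ι : ℝ≥0∞) * M := by
      calc (∑ n, ∫⁻ X, Λ n X ∂P) ≤ ∑ _n : ι, M := Finset.sum_le_sum fun n _ => hM n
        _ = _ := by simp
    have h3 : (∑ n, ∫⁻ X, Λ n X ∂P) ^ (1 / q) ≤ ((Fintype.card ι : ℝ≥0∞) * M) ^ (1 / q) :=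
      ENNReal.rpow_le_rpow h2 (by positivity)
    exact mul_le_mul' h1 h3
  -- conclusion
  have hAm : ∀ n, AEMeasurable
      (fun X => (μ.restrict (S n)) {s | f X (app X s) = n}) P := by
    intro n
    have : Measurable fun X => (μ.restrict (S n)) {s | f X (app X s) = n} := by
      have := measurable_measure_prodMk_right (μ := μ.restrict (S n)) (hZ n)
      exact this
    exact this.aemeasurable
  calc ∑ n, ∫⁻ X, (μ.restrict (S n)) {s | f X (app X s) = n} ∂P
      = ∫⁻ X, ∑ n, (μ.restrict (S n)) {s | f X (app X s) = n} ∂P := by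
        rw [lintegral_finsetSum' _ (fun n _ => hAm n)]
    _ ≤ ∫⁻ X, (μ {s | (X, app X s) ∉ B} +
          ∑ n, vol (gB n X) ^ (1 / p) * Λ n X ^ (1 / q)) ∂P :=
        lintegral_mono_ae hsplit
    _ = ∫⁻ X, μ {s | (X, app X s) ∉ B} ∂P +
          ∑ n, ∫⁻ X, vol (gB n X) ^ (1 / p) * Λ n X ^ (1 / q) ∂P := by
        rw [lintegral_add_left hmissm, lintegral_finsetSum' _ ?_]
        exact fun n _ => (((hvm n).pow_const _).mul ((hΛm n).pow_const _)).aemeasurable
    _ ≤ e + ∑ n, (∫⁻ X, vol (gB n X) ∂P) ^ (1 / p) * (∫⁻ X, Λ n X ∂P) ^ (1 / q) := by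
        gcongr with n
        exact hHol n
    _ ≤ _ := by gcongr

end Holder

end MemSample.WLTail
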