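/-
Row 322 (S0499), Window Lemma: the concrete tail bound from (e) = `HolderGrid`, (f) = `RoundBall`
and the abstract `WLTail.tail_holder`, the Markov step for the level sets, the optimisation of `K`,
and the resulting information bound given a moment hypothesis.  (helper31)
-/
import Mathlib
import Crest.Agent.Lib.MemSample.WLTail
import Crest.Agent.Lib.MemSample.HolderGrid
import Crest.Agent.Lib.MemSample.RoundBall

set_option autoImplicit false

open MeasureTheory ProbabilityTheory Filter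
open scoped ENNReal BigOperators

namespace MemSample.WLAssemble

variable {E : Type*} [NormedAddCommGroup E] [InnerProductSpace ℝ E] [FiniteDimensional ℝ E]
  [MeasurableSpace E] [BorelSpace E]
variable {w k : ℕ} {ι : Type*} [Fintype ι] [MeasurableSpace ι] [MeasurableSingletonClass ι]

/-- The law of `X s` for `s ∼ μ|_S`. -/
noncomputable def nuX (μ : Measure E) (S : Set E) (X : Fin w → E) : Measure (Fin w → ℝ) :=
  (μ.restrict S).map (rowsApply X)

/-- The Gaussian law on `w` rows. -/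
noncomputable abbrev gam (E : Type*) [NormedAddCommGroup E] [InnerProductSpace ℝ E]
    [FiniteDimensional ℝ E] [MeasurableSpace E] [BorelSpace E] (w : ℕ) : Measure (Fin w → E) :=
  Measure.pi fun _ : Fin w => stdGaussian E

lemma measurable_rowsApply_left (X : Fin w → E) : Measurable (rowsApply X) :=
  measurable_rowsApply_uncurry.comp measurable_prodMk_left

lemma measurable_nuX_apply (μ : Measure E) [SFinite μ] (S : Set E) {A : Set (Fin w → ℝ)}
    (hA : MeasurableSet A) : Measurable fun X : Fin w → E => nuX μ S X A := by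
  have h : ∀ X : Fin w → E, nuX μ S X A = (μ.restrict S) {s | rowsApply X s ∈ A} := by
    intro X
    rw [nuX, Measure.map_apply (measurable_rowsApply_left X) hA]
    rfl
  simp_rw [h]
  have hj : MeasurableSet {x : E × (Fin w → E) | rowsApply x.2 x.1 ∈ A} := by
    have : Measurable fun x : E × (Fin w → E) => rowsApply x.2 x.1 :=
      measurable_rowsApply_uncurry.comp (measurable_snd.prodMk measurable_fst)
    exact this hA
  exact measurable_measure_prodMk_right hj

lemma measurable_Lam (μ : Measure E) [SFinite μ] (S : Set E) (m : ℕ) :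
    Measurable fun X : Fin w → E => Lam w k m (nuX μ S X) := by
  unfold Lam
  refine Measurable.tsum fun z => ?_
  exact ((measurable_nuX_apply μ S (measurableSet_gridCube _ z)).pow_const _).const_mul _

/-- The concrete tail bound. -/
theorem tail_concrete (hw : 0 < w) (hk : 2 ≤ k) (μ : Measure E) [IsProbabilityMeasure μ]
    (c0 : E) {r : ℝ} (hr : 0 < r) (hμ : ∀ᵐ s ∂μ, ‖s - c0‖ ≤ r)
    (f : (Fin w → E) → (Fin w → ℝ) → ι) (hf : Measurable (Function.uncurry f))
    (S : ι → Set E) (Bd : ℝ≥0∞) (hBd : Bd ≠ ∞)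
    (hMom : ∀ n m, ∫⁻ X, Lam w k m (nuX μ (S n) X) ∂(gam E w) ≤ Bd)
    {K : ℝ} (hK : 0 < K) :
    ∑ n, ∫⁻ s in S n, (gam E w) {X | f X (rowsApply X s) = n} ∂μ ≤
      ENNReal.ofReal (1 / K) +
        (ENNReal.ofReal ((Real.sqrt (2 * Real.pi * Real.exp 1 * K) * r) ^ w)) ^ (1 - 1 / (k : ℝ)) *
          ((Fintype.card ι : ℝ≥0∞) * Bd) ^ (1 / (k : ℝ)) := by
  classical
  have hk0 : (0 : ℝ) < k := by positivity
  have hk1 : (1 : ℝ) < k := by exact_mod_cast (by omega : 1 < k)
  -- Hölder exponents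
  set q : ℝ := (k : ℝ) with hq
  set p : ℝ := q / (q - 1) with hp
  have hpq : p.HolderConjugate q := by
    have := (Real.HolderConjugate.conjExponent (p := q) hk1).symm
    exact this
  have h1p : 1 / p = 1 - 1 / (k : ℝ) := by
    rw [hp, one_div_div, ← hq]
    field_simp
  set R2 : ℝ := K * w * r ^ 2 with hR2
  set B : Set ((Fin w → E) × (Fin w → ℝ)) := {x | x.2 ∈ roundBall (rowsApply x.1 c0) R2} with hB
  have hBm : MeasurableSet B := by
    have h1 : Measurable (fun x : (Fin w → E) × (Fin w → ℝ) =>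
        ∑ i, (x.2 i - rowsApply x.1 c0 i) ^ 2) := by
      refine Finset.measurable_sum _ fun i _ => ?_
      refine Measurable.pow_const (Measurable.sub ?_ ?_) 2
      · exact (measurable_pi_apply i).comp measurable_snd
      · unfold rowsApply
        exact Measurable.inner ((measurable_pi_apply i).comp measurable_fst) measurable_const
    have h2 : B = {x | ∑ i, (x.2 i - rowsApply x.1 c0 i) ^ 2 ≤ R2} := by
      ext x; simp [hB, roundBall]
    rw [h2]
    exact measurableSet_le h1 measurable_const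
  have hsec : ∀ X : Fin w → E, {y | (X, y) ∈ B} = roundBall (rowsApply X c0) R2 := fun X => rfl
  set VB : ℝ≥0∞ := ENNReal.ofReal ((Real.sqrt (2 * Real.pi * Real.exp 1 * K) * r) ^ w) with hVB
  have hvol : ∀ X : Fin w → E, volume (roundBall (rowsApply X c0) R2) ≤ VB := fun X =>
    volume_roundBall_le _ hK hr
  have hVBfin : VB ≠ ∞ := ENNReal.ofReal_ne_top
  -- the functions Λ
  set Λ : ι → (Fin w → E) → ℝ≥0∞ := fun n X =>
    liminf (fun m => Lam w k m (nuX μ (S n) X)) atTop with hΛ
  have hΛm : ∀ n, Measurable (Λ n) := fun n =>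
    Measurable.liminf fun m => measurable_Lam μ (S n) m
  have hΛint : ∀ n, ∫⁻ X, Λ n X ∂(gam E w) ≤ Bd := by
    intro n
    calc ∫⁻ X, Λ n X ∂(gam E w)
        ≤ liminf (fun m => ∫⁻ X, Lam w k m (nuX μ (S n) X) ∂(gam E w)) atTop :=
          lintegral_liminf_le fun m => measurable_Lam μ (S n) m
      _ ≤ liminf (fun _ : ℕ => Bd) atTop := by
          apply liminf_le_liminf
          · exact Filter.Eventually.of_forall fun m => hMom n m
          · isBoundedDefault
          · isBoundedDefault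
      _ = Bd := liminf_const _
  have hΛfin : ∀ n, ∀ᵐ X ∂(gam E w), Λ n X ≠ ∞ := by
    intro n
    have h : ∫⁻ X, Λ n X ∂(gam E w) ≠ ∞ := ne_top_of_le_ne_top hBd (hΛint n)
    filter_upwards [ae_lt_top (hΛm n) h] with X hX using hX.ne
  -- apply the abstract Hölder
  have := WLTail.tail_holder (ι := ι) μ (gam E w) (volume : Measure (Fin w → ℝ)) rowsApply
    measurable_rowsApply_uncurry f hf S B hBm p q hpq Λ hΛm (ENNReal.ofReal (1 / K)) VB Bd
    ?_ ?_ ?_ hΛint
  · rwa [h1p] at this
  · -- the bad mass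
    have h := lintegral_miss_le hw μ c0 hK hr hμ
    simpa [hB, hR2] using h
  · -- Lemma B
    intro n
    filter_upwards [hΛfin n] with X hX
    rw [h1p]
    refine measure_le_liminf_Lam hk _ _ ?_ hX
    refine ne_top_of_le_ne_top hVBfin (le_trans (measure_mono ?_) (hvol X))
    rintro y ⟨_, hy⟩
    exact hy
  · -- the volume
    have : ∀ X : Fin w → E, volume {y | (X, y) ∈ B} ≤ VB := fun X => by
      rw [hsec]; exact hvol X
    calc ∫⁻ X, volume {y | (X, y) ∈ B} ∂(gam E w) ≤ ∫⁻ _, VB ∂(gam E w) := lintegral_mono this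
      _ = VB := by simp

/-- The kernel `L n s = γ{X | f X (X s) = n}` (real valued). -/
noncomputable def Lk (f : (Fin w → E) → (Fin w → ℝ) → ι) (n : ι) (s : E) : ℝ :=
  ((gam E w) {X | f X (rowsApply X s) = n}).toReal

section Kernel

variable (f : (Fin w → E) → (Fin w → ℝ) → ι) (hf : Measurable (Function.uncurry f))
include hf

lemma measurableSet_event (n : ι) :
    MeasurableSet {x : (Fin w → E) × E | f x.1 (rowsApply x.1 x.2) = n} := by
  have : Measurable fun x : (Fin w → E) × E => f x.1 (rowsApply x.1 x.2) :=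
    hf.comp (measurable_fst.prodMk measurable_rowsApply_uncurry)
  exact this (measurableSet_singleton n)

lemma measurable_Lk_ennreal (n : ι) :
    Measurable fun s : E => (gam E w) {X | f X (rowsApply X s) = n} :=
  measurable_measure_prodMk_right (measurableSet_event f hf n)

lemma measurable_Lk (n : ι) : Measurable (Lk f n) :=
  (measurable_Lk_ennreal f hf n).ennreal_toReal

lemma sum_Lk_ennreal (s : E) : ∑ n, (gam E w) {X | f X (rowsApply X s) = n} = 1 := by
  classical
  have hm : ∀ n ∈ (Finset.univ : Finset ι), MeasurableSet {X : Fin w → E | f X (rowsApply X s) = n} :=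
    fun n _ => measurable_prodMk_right (measurableSet_event f hf n)
  have hdisj : Set.PairwiseDisjoint (↑(Finset.univ : Finset ι))
      (fun n => {X : Fin w → E | f X (rowsApply X s) = n}) := by
    intro a _ b _ hab
    refine Set.disjoint_left.2 ?_
    intro X hXa hXb
    exact hab (hXa.symm.trans hXb)
  rw [← measure_biUnion_finset hdisj hm]
  have : (⋃ n ∈ (Finset.univ : Finset ι), {X : Fin w → E | f X (rowsApply X s) = n}) = Set.univ := by
    ext X; simp
  rw [this]
  simp

lemma sum_Lk (s : E) : ∑ n, Lk f n s = 1 := by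
  unfold Lk
  rw [← ENNReal.toReal_sum (fun n _ => measure_ne_top _ _), sum_Lk_ennreal f hf s]
  simp

omit hf in
lemma Lk_nonneg (n : ι) (s : E) : 0 ≤ Lk f n s := ENNReal.toReal_nonneg

end Kernel

/-- Markov: the level set of `Lₙ` at `2^ℓ pₙ` has mass at most `2^(-ℓ)`. -/
lemma measure_level_le (μ : Measure E) [IsProbabilityMeasure μ] (g : E → ℝ) (hgm : Measurable g)
    (hg0 : ∀ s, 0 ≤ g s) (hgi : Integrable g μ) (l : ℝ) :
    μ {s | (2:ℝ) ^ l * (∫ x, g x ∂μ) < g s} ≤ ENNReal.ofReal ((2:ℝ) ^ (-l)) := by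
  set p := ∫ x, g x ∂μ with hp
  have hp0 : 0 ≤ p := integral_nonneg hg0
  have h2 : (0:ℝ) < 2 ^ l := by positivity
  rcases hp0.eq_or_lt with h0 | hpos
  · -- null
    have hae : g =ᵐ[μ] 0 := (integral_eq_zero_iff_of_nonneg hg0 hgi).1 h0.symm
    have : μ {s | (2:ℝ) ^ l * p < g s} = 0 := by
      rw [← h0, mul_zero]
      refine measure_mono_null ?_ (ae_iff.1 hae)
      intro s (hs : 0 < g s) (hs0 : g s = 0)
      exact hs.ne' hs0
    rw [this]
    exact zero_le
  · set ε := (2:ℝ) ^ l * p with hε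
    have hε0 : 0 < ε := by positivity
    have h := mul_meas_ge_le_integral_of_nonneg (μ := μ) (f := g)
      (Filter.Eventually.of_forall hg0) hgi ε
    have hsub : {s | ε < g s} ⊆ {s | ε ≤ g s} := fun s (hs : ε < g s) => show ε ≤ g s from hs.le
    have h3 : μ.real {s | ε ≤ g s} ≤ (2:ℝ) ^ (-l) := by
      have h4 : ε * μ.real {s | ε ≤ g s} ≤ p := h
      have h5 : (2:ℝ) ^ l * μ.real {s | ε ≤ g s} ≤ 1 := by
        have : p * ((2:ℝ) ^ l * μ.real {s | ε ≤ g s}) ≤ p * 1 := by nlinarith
        exact le_of_mul_le_mul_left this hpos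
      rw [Real.rpow_neg (by norm_num), ← one_div, le_div_iff₀ h2]
      nlinarith
    calc μ {s | ε < g s} ≤ μ {s | ε ≤ g s} := measure_mono hsub
      _ = ENNReal.ofReal (μ.real {s | ε ≤ g s}) := by
          rw [ofReal_measureReal]
      _ ≤ _ := ENNReal.ofReal_le_ofReal h3

/-- The abstract Window Lemma: a moment bound in `u` gives the information bound. -/
theorem info_bound (hw : 0 < w) (hk : 2 ≤ k) (μ : Measure E) [IsProbabilityMeasure μ]
    (c0 : E) {r : ℝ} (hr : 0 < r) (hμ : ∀ᵐ s ∂μ, ‖s - c0‖ ≤ r)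
    (f : (Fin w → E) → (Fin w → ℝ) → ι) (hf : Measurable (Function.uncurry f))
    {θ V : ℝ} (hθ : 0 < θ) (hV : 1 ≤ V)
    (Bd : ℝ → ℝ≥0∞) (hBdfin : ∀ u, 0 < u → u ≤ 1 → Bd u ≠ ∞)
    (hMom : ∀ u, 0 < u → u ≤ 1 → ∀ S : Set E, MeasurableSet S → μ S ≤ ENNReal.ofReal u →
      ∀ m, ∫⁻ X, Lam w k m (nuX μ S X) ∂(gam E w) ≤ Bd u)
    (hnum : ∀ K : ℝ, 1 ≤ K → ∀ u, 0 < u → u ≤ 1 →
      (ENNReal.ofReal ((Real.sqrt (2 * Real.pi * Real.exp 1 * K) * r) ^ w)) ^ (1 - 1 / (k : ℝ)) *
          ((Fintype.card ι : ℝ≥0∞) * Bd u) ^ (1 / (k : ℝ)) ≤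
        ENNReal.ofReal (V * K ^ ((w : ℝ) / 2) * u ^ θ)) :
    ∑ n, ∫ s, Lk f n s * Real.logb 2 (Lk f n s / ∫ x, Lk f n x ∂μ) ∂μ ≤
      (Real.logb 2 V + 4 * (1 + (w : ℝ) / 2)) / θ := by
  classical
  set l0 : ℝ := Real.logb 2 V / θ with hl0
  set η : ℝ := (1 + (w : ℝ) / 2) / θ with hη
  have hηpos : 0 < η := by positivity
  have hl0nn : 0 ≤ l0 := by
    apply div_nonneg _ hθ.le
    exact Real.logb_nonneg (by norm_num) hV
  have hLm := measurable_Lk f hf
  have hL0 := Lk_nonneg f
  have hL1 := sum_Lk f hf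
  have hLle : ∀ n s, Lk f n s ≤ 1 := by
    intro n s
    rw [← hL1 s]
    exact Finset.single_le_sum (fun i _ => hL0 i s) (Finset.mem_univ n)
  have hLint : ∀ n, Integrable (Lk f n) μ := by
    intro n
    refine Integrable.of_bound (hLm n).aestronglyMeasurable 1 (Filter.Eventually.of_forall ?_)
    intro s
    rw [Real.norm_of_nonneg (hL0 n s)]
    exact hLle n s
  have hfinal : l0 + 4 * η = (Real.logb 2 V + 4 * (1 + (w : ℝ) / 2)) / θ := by
    simp only [hl0, hη]; field_simp
  rw [← hfinal]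
  refine WLTail.tail_to_entropy μ (Lk f) hLm hL0 hL1 l0 η hηpos ?_
  intro j
  set l : ℝ := l0 + j * η with hl
  have hlnn : 0 ≤ l := by positivity
  set u : ℝ := (2:ℝ) ^ (-l) with hu
  have hu0 : 0 < u := by positivity
  have hu1 : u ≤ 1 := Real.rpow_le_one_of_one_le_of_nonpos (by norm_num) (by linarith)
  set S : ι → Set E := fun n => {s | (2:ℝ) ^ l * (∫ x, Lk f n x ∂μ) < Lk f n s} with hS
  have hSm : ∀ n, MeasurableSet (S n) := fun n => measurableSet_lt measurable_const (hLm n)
  have hSμ : ∀ n, μ (S n) ≤ ENNReal.ofReal u := fun n =>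
    measure_level_le μ (Lk f n) (hLm n) (hL0 n) (hLint n) l
  set K : ℝ := (2:ℝ) ^ j with hK
  have hK1 : 1 ≤ K := one_le_pow₀ (by norm_num)
  have hK0 : 0 < K := by positivity
  have hconc := tail_concrete hw hk μ c0 hr hμ f hf S (Bd u) (hBdfin u hu0 hu1)
    (fun n m => hMom u hu0 hu1 (S n) (hSm n) (hSμ n) m) hK0
  have hnum' := hnum K hK1 u hu0 hu1
  -- the arithmetic
  have harith : V * K ^ ((w : ℝ) / 2) * u ^ θ = (1 / 2 : ℝ) ^ j := by
    have h1 : u ^ θ = (2:ℝ) ^ (-(Real.logb 2 V + j * (1 + (w : ℝ) / 2))) := by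
      rw [hu, ← Real.rpow_mul (by norm_num)]
      congr 1
      simp only [hl, hl0, hη]
      field_simp
    have h2 : K ^ ((w : ℝ) / 2) = (2:ℝ) ^ ((j : ℝ) * ((w : ℝ) / 2)) := by
      rw [hK, ← Real.rpow_natCast, ← Real.rpow_mul (by norm_num)]
    have h3 : (2:ℝ) ^ (Real.logb 2 V) = V :=
      Real.rpow_logb (by norm_num) (by norm_num) (by linarith)
    rw [h1, h2]
    nth_rewrite 1 [← h3]
    rw [← Real.rpow_add (by norm_num), ← Real.rpow_add (by norm_num)]
    have h4 : Real.logb 2 V + (j : ℝ) * ((w : ℝ) / 2) +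
        -(Real.logb 2 V + j * (1 + (w : ℝ) / 2)) = -(j : ℝ) := by ring
    rw [h4, Real.rpow_neg (by norm_num), Real.rpow_natCast, one_div, inv_pow]
  have hKinv : 1 / K = (1 / 2 : ℝ) ^ j := by
    rw [hK, one_div, one_div, inv_pow]
  rw [harith] at hnum'
  rw [hKinv] at hconc
  have hbound : ∑ n, ∫⁻ s in S n, (gam E w) {X | f X (rowsApply X s) = n} ∂μ ≤
      ENNReal.ofReal (2 * (1 / 2 : ℝ) ^ j) := by
    refine hconc.trans ((add_le_add le_rfl hnum').trans (le_of_eq ?_))
    rw [← ENNReal.ofReal_add (by positivity) (by positivity), two_mul]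
  -- convert to Bochner
  have hconv : ∀ n, ∫ s in S n, Lk f n s ∂μ =
      (∫⁻ s in S n, (gam E w) {X | f X (rowsApply X s) = n} ∂μ).toReal := by
    intro n
    unfold Lk
    rw [integral_toReal (measurable_Lk_ennreal f hf n).aemeasurable
      (Filter.Eventually.of_forall fun s => measure_lt_top _ _)]
  change ∑ n, ∫ s in S n, Lk f n s ∂μ ≤ 2 * (1 / 2 : ℝ) ^ j
  simp_rw [hconv]
  rw [← ENNReal.toReal_sum]
  · have := ENNReal.toReal_mono ENNReal.ofReal_ne_top hbound
    rwa [ENNReal.toReal_ofReal (by positivity)] at this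
  · intro n _
    refine ne_top_of_le_ne_top ENNReal.ofReal_ne_top
      (le_trans (Finset.single_le_sum (f := fun n =>
        ∫⁻ s in S n, (gam E w) {X | f X (rowsApply X s) = n} ∂μ) (fun _ _ => zero_le)
        (Finset.mem_univ n)) hbound)

end MemSample.WLAssemble
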