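/-
Row 322 (S0499): the Window Lemma (WL) of finding #605.  (helper31)
Combines `NonConc` (a)+(b), `MomentBound` (c)+(d), `HolderGrid` (e), `RoundBall` (f), and
`WLAssemble.info_bound` (g).
-/
import Mathlib
import Crest.Agent.Lib.MemSample.WLAssemble
import Crest.Agent.Lib.MemSample.NonConc
import Crest.Agent.Lib.MemSample.MomentBound

set_option autoImplicit false

open MeasureTheory ProbabilityTheory Filter
open scoped ENNReal BigOperators

namespace MemSample.WLAssemble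

/-- The numeric core of `hnum`: the radius cancels. -/
lemma num_core {w nk : ℕ} {N K u ρ A b : ℝ} (hN : 1 ≤ N) (hK : 1 ≤ K)
    (hu : 0 < u) (hρ : 0 < ρ) (hA : 1 ≤ A) (hb : 0 ≤ b) :
    ((Real.sqrt (2 * Real.pi * Real.exp 1 * K) * ρ) ^ w) ^ (1 - 1 / ((nk : ℝ) + 1)) *
      (N * ((2 / Real.sqrt (2 * Real.pi)) ^ (w * nk) *
        (u * (2 ^ (w + 2) * u * (ρ ^ w)⁻¹ * (A / u) ^ b) ^ nk))) ^ (1 / ((nk : ℝ) + 1)) ≤
    ((4 * Real.exp 1) ^ ((w : ℝ) / 2) * 2 ^ (w + 2) * N ^ (1 / ((nk : ℝ) + 1)) * A ^ b) *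
      K ^ ((w : ℝ) / 2) * u ^ (1 / ((nk : ℝ) + 1) + (1 - b) * (1 - 1 / ((nk : ℝ) + 1))) := by
  have hN0 : 0 < N := by linarith
  have hK0 : 0 < K := by linarith
  have hA0 : 0 < A := by linarith
  have hπ : 0 < Real.pi := Real.pi_pos
  have he : 0 < Real.exp 1 := Real.exp_pos 1
  set x : ℝ := 1 / ((nk : ℝ) + 1) with hx
  have hk0 : (0:ℝ) < (nk : ℝ) + 1 := by positivity
  have hx0 : 0 < x := by positivity
  set κ : ℝ := 1 - x with hκ
  have hxn : x * (nk : ℝ) = κ := by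
    simp only [hκ, hx]; field_simp; ring
  set l2 := Real.log 2 with hl2
  set lπ := Real.log Real.pi with hlπ
  set lK := Real.log K with hlK
  set lN := Real.log N with hlN
  set lu := Real.log u with hlu
  set lρ := Real.log ρ with hlρ
  set lA := Real.log A with hlA
  have hl2nn : 0 ≤ l2 := Real.log_nonneg (by norm_num)
  have hlKnn : 0 ≤ lK := Real.log_nonneg hK
  have hlAnn : 0 ≤ lA := Real.log_nonneg hA
  have hs1 : 0 < 2 * Real.pi * Real.exp 1 * K := by positivity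
  have hsqrt1 : 0 < Real.sqrt (2 * Real.pi * Real.exp 1 * K) := Real.sqrt_pos.2 hs1
  have hsqrt2 : 0 < Real.sqrt (2 * Real.pi) := Real.sqrt_pos.2 (by positivity)
  have hlogsqrt1 : Real.log (Real.sqrt (2 * Real.pi * Real.exp 1 * K)) =
      (l2 + lπ + 1 + lK) / 2 := by
    rw [Real.log_sqrt hs1.le, Real.log_mul (by positivity) hK0.ne',
      Real.log_mul (by positivity) he.ne', Real.log_mul (by norm_num) hπ.ne', Real.log_exp]
  have hlogC : Real.log (2 / Real.sqrt (2 * Real.pi)) = l2 - (l2 + lπ) / 2 := by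
    rw [Real.log_div (by norm_num) hsqrt2.ne', Real.log_sqrt (by positivity),
      Real.log_mul (by norm_num) hπ.ne']
  set I : ℝ := 2 ^ (w + 2) * u * (ρ ^ w)⁻¹ * (A / u) ^ b with hI
  have hI0 : 0 < I := by positivity
  have hlogI : Real.log I = ((w : ℝ) + 2) * l2 + lu - w * lρ + b * (lA - lu) := by
    rw [hI, Real.log_mul (by positivity) (by positivity), Real.log_mul (by positivity) (by positivity),
      Real.log_mul (by positivity) (by positivity), Real.log_pow, Real.log_inv, Real.log_pow,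
      Real.log_rpow (by positivity), Real.log_div hA0.ne' hu.ne']
    push_cast
    ring
  have hL1 : Real.log (((Real.sqrt (2 * Real.pi * Real.exp 1 * K) * ρ) ^ w) ^ κ) =
      κ * (w * ((l2 + lπ + 1 + lK) / 2 + lρ)) := by
    rw [Real.log_rpow (by positivity), Real.log_pow, Real.log_mul hsqrt1.ne' hρ.ne', hlogsqrt1]
  have hL2 : Real.log ((N * ((2 / Real.sqrt (2 * Real.pi)) ^ (w * nk) *
        (u * I ^ nk))) ^ x) =
      x * lN + κ * (w * (l2 - (l2 + lπ) / 2)) + x * lu + κ * Real.log I := by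
    rw [Real.log_rpow (by positivity), Real.log_mul hN0.ne' (by positivity),
      Real.log_mul (by positivity) (by positivity), Real.log_mul hu.ne' (by positivity),
      Real.log_pow, Real.log_pow, hlogC]
    push_cast
    rw [← hxn]
    ring
  have hR : Real.log (((4 * Real.exp 1) ^ ((w : ℝ) / 2) * 2 ^ (w + 2) * N ^ x * A ^ b) *
      K ^ ((w : ℝ) / 2) * u ^ (x + (1 - b) * κ)) =
      ((w : ℝ) / 2) * (2 * l2 + 1) + ((w : ℝ) + 2) * l2 + x * lN + b * lA + ((w : ℝ) / 2) * lK +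
        (x + (1 - b) * κ) * lu := by
    rw [Real.log_mul (by positivity) (by positivity), Real.log_mul (by positivity) (by positivity),
      Real.log_mul (by positivity) (by positivity), Real.log_mul (by positivity) (by positivity),
      Real.log_mul (by positivity) (by positivity), Real.log_rpow (by positivity),
      Real.log_rpow hN0, Real.log_rpow hA0, Real.log_rpow hK0, Real.log_rpow hu,
      Real.log_pow, Real.log_mul (by norm_num) he.ne', Real.log_exp]
    have h4 : Real.log 4 = 2 * l2 := by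
      rw [hl2, show (4:ℝ) = 2 ^ 2 by norm_num, Real.log_pow]; norm_num
    rw [h4]
    push_cast
    ring
  rw [← Real.log_le_log_iff (by positivity) (by positivity),
    Real.log_mul (by positivity) (by positivity), hL1, hL2, hlogI, hR]
  have hdiff : (((w : ℝ) / 2) * (2 * l2 + 1) + ((w : ℝ) + 2) * l2 + x * lN + b * lA +
        ((w : ℝ) / 2) * lK + (x + (1 - b) * κ) * lu) -
      (κ * (w * ((l2 + lπ + 1 + lK) / 2 + lρ)) + (x * lN + κ * (w * (l2 - (l2 + lπ) / 2)) + x * lu +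
        κ * (((w : ℝ) + 2) * l2 + lu - w * lρ + b * (lA - lu)))) =
      x * (((w : ℝ) / 2) * (2 * l2 + 1 + lK) + ((w : ℝ) + 2) * l2 + b * lA) := by
    rw [hκ]; ring
  have hnn : 0 ≤ x * (((w : ℝ) / 2) * (2 * l2 + 1 + lK) + ((w : ℝ) + 2) * l2 + b * lA) := by
    positivity
  linarith

variable {E : Type*} [NormedAddCommGroup E] [InnerProductSpace ℝ E] [FiniteDimensional ℝ E]
  [MeasurableSpace E] [BorelSpace E]
variable {ι : Type*} [Fintype ι] [MeasurableSpace ι] [MeasurableSingletonClass ι]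

/-- **The Window Lemma.** `μ` is a probability measure supported in a ball of radius `2^(-Q)`,
with `μ(ball(x, 4·2^(-q'))) ≤ Cb (2^(-(q'-Q)))^β` for `q' ≥ Q`. Moment order `k = nk + 1`,
`b = w/(β-(nk-1))`, `θ = 1/k + (1-b)(1-1/k)`. -/
theorem window_lemma {w nk β Q : ℕ} (hw : 0 < w) (hnk : 1 ≤ nk) (hβ : (nk - 1) + w + 1 ≤ β)
    (μ : Measure E) [IsProbabilityMeasure μ] (c0 : E)
    (hsupp : ∀ᵐ s ∂μ, ‖s - c0‖ ≤ (2⁻¹ : ℝ) ^ Q) {Cb : ℝ} (hCb : 1 ≤ Cb)
    (hball : ∀ q' : ℕ, Q ≤ q' → ∀ x, μ (Metric.closedBall x (4 * (2⁻¹ : ℝ) ^ q')) ≤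
      ENNReal.ofReal (Cb * ((2⁻¹ : ℝ) ^ (q' - Q)) ^ β))
    (f : (Fin w → E) → (Fin w → ℝ) → ι) (hf : Measurable (Function.uncurry f)) :
    ∑ n, ∫ s, Lk f n s * Real.logb 2 (Lk f n s / ∫ x, Lk f n x ∂μ) ∂μ ≤
      (Real.logb 2 ((4 * Real.exp 1) ^ ((w : ℝ) / 2) * 2 ^ (w + 2) *
          (Fintype.card ι : ℝ) ^ (1 / ((nk : ℝ) + 1)) *
          (9 ^ (nk - 1) * Cb) ^ ((w : ℝ) / ((β - (nk - 1) : ℕ) : ℝ))) +
        4 * (1 + (w : ℝ) / 2)) /
      (1 / ((nk : ℝ) + 1) + (1 - (w : ℝ) / ((β - (nk - 1) : ℕ) : ℝ)) * (1 - 1 / ((nk : ℝ) + 1))) := by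
  classical
  have hιne : Nonempty ι := ⟨f 0 0⟩
  have hN : (1:ℝ) ≤ (Fintype.card ι : ℝ) := by
    exact_mod_cast Fintype.card_pos (α := ι)
  set n := nk - 1 with hn
  set ρ : ℝ := (2⁻¹ : ℝ) ^ Q with hρ
  have hρ0 : 0 < ρ := by positivity
  set A : ℝ := 9 ^ n * Cb with hA
  have hA1 : 1 ≤ A := by
    have : (1:ℝ) ≤ 9 ^ n := one_le_pow₀ (by norm_num)
    nlinarith
  set b : ℝ := (w : ℝ) / ((β - n : ℕ) : ℝ) with hb
  have hβn : 0 < β - n := by omega
  have hβnR : (0:ℝ) < ((β - n : ℕ) : ℝ) := by exact_mod_cast hβn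
  have hb0 : 0 ≤ b := by positivity
  have hb1 : b < 1 := by
    rw [hb, div_lt_one hβnR]
    have : w < β - n := by omega
    exact_mod_cast this
  set x : ℝ := 1 / ((nk : ℝ) + 1) with hx
  have hx0 : 0 < x := by positivity
  have hx1 : x < 1 := by
    rw [hx, div_lt_one (by positivity)]
    have : (1:ℝ) ≤ nk := by exact_mod_cast hnk
    linarith
  set θ : ℝ := x + (1 - b) * (1 - x) with hθ
  have hθ0 : 0 < θ := by
    have : 0 ≤ (1 - b) * (1 - x) := mul_nonneg (by linarith) (by linarith)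
    linarith
  set N : ℝ := (Fintype.card ι : ℝ) with hNdef
  set V : ℝ := (4 * Real.exp 1) ^ ((w : ℝ) / 2) * 2 ^ (w + 2) * N ^ x * A ^ b with hV
  have hV1 : 1 ≤ V := by
    have h1 : 1 ≤ (4 * Real.exp 1) ^ ((w : ℝ) / 2) := by
      apply Real.one_le_rpow _ (by positivity)
      have := Real.add_one_le_exp (1:ℝ)
      linarith
    have h2 : (1:ℝ) ≤ 2 ^ (w + 2) := one_le_pow₀ (by norm_num)
    have h3 : 1 ≤ N ^ x := Real.one_le_rpow hN hx0.le
    have h4 : 1 ≤ A ^ b := Real.one_le_rpow hA1 hb0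
    have h5 : 1 ≤ (4 * Real.exp 1) ^ ((w : ℝ) / 2) * 2 ^ (w + 2) := one_le_mul_of_one_le_of_one_le h1 h2
    have h6 := one_le_mul_of_one_le_of_one_le h5 h3
    exact one_le_mul_of_one_le_of_one_le h6 h4
  set C : ℝ := 2 / Real.sqrt (2 * Real.pi) with hC
  have hC0 : 0 < C := by positivity
  set I : ℝ → ℝ := fun u => 2 ^ (w + 2) * u * (ρ ^ w)⁻¹ * (A / u) ^ b with hI
  have hI0 : ∀ u, 0 < u → 0 < I u := fun u hu => by
    simp only [hI]; positivity
  set Bd : ℝ → ℝ≥0∞ := fun u => ENNReal.ofReal (C ^ (w * nk) * (u * I u ^ nk)) with hBd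
  have hcastk : (((nk + 1 : ℕ) : ℝ)) = (nk : ℝ) + 1 := by push_cast; ring
  refine info_bound (k := nk + 1) hw (by omega) μ c0 hρ0 hsupp f hf hθ0 hV1 Bd
    (fun u _ _ => ENNReal.ofReal_ne_top) ?_ ?_
  · -- moments
    intro u hu _ S hS hμS m
    have hμ1 : μ Set.univ ≤ 1 := by simp
    have hmain := lintegral_Lam_le (E := E) w nk m (μ.restrict S) (ENNReal.ofReal (I u)) ?_
    · refine hmain.trans ?_
      have hrest : (μ.restrict S) Set.univ = μ S := by simp
      rw [hrest]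
      calc ENNReal.ofReal C ^ (w * nk) * (μ S * ENNReal.ofReal (I u) ^ nk)
          ≤ ENNReal.ofReal C ^ (w * nk) * (ENNReal.ofReal u * ENNReal.ofReal (I u) ^ nk) := by
            gcongr
        _ = Bd u := by
            simp only [hBd]
            rw [ENNReal.ofReal_mul (p := C ^ (w * nk)) (by positivity),
              ENNReal.ofReal_mul (p := u) hu.le,
              ENNReal.ofReal_pow hC0.le, ENNReal.ofReal_pow (hI0 u hu).le]
    · intro W hW c
      have := lintegral_distOff_inv_pow_le (w := w) μ hμ1 c0 c W (n := n) hW hβ hCb hsupp hball S hu hμS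
      exact this
  · -- the numerics
    intro K hK u hu _
    have hK0 : 0 < K := by linarith
    have h1 : (1:ℝ) - 1 / (((nk + 1 : ℕ) : ℝ)) = 1 - x := by rw [hcastk]
    have h2 : (1:ℝ) / (((nk + 1 : ℕ) : ℝ)) = x := by rw [hcastk]
    rw [h1, h2]
    have hcore := num_core (w := w) (nk := nk) (N := N) (K := K) (u := u) (ρ := ρ) (A := A) (b := b)
      hN hK hu hρ0 hA1 hb0
    have hκ : 0 ≤ 1 - x := by linarith
    have hpos1 : 0 ≤ (Real.sqrt (2 * Real.pi * Real.exp 1 * K) * ρ) ^ w := by positivity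
    have hpos2 : 0 ≤ N * (C ^ (w * nk) * (u * I u ^ nk)) := by
      have := hI0 u hu
      positivity
    calc (ENNReal.ofReal ((Real.sqrt (2 * Real.pi * Real.exp 1 * K) * ρ) ^ w)) ^ (1 - x) *
          (((Fintype.card ι : ℕ) : ℝ≥0∞) * Bd u) ^ x
        = ENNReal.ofReal (((Real.sqrt (2 * Real.pi * Real.exp 1 * K) * ρ) ^ w) ^ (1 - x) *
            (N * (C ^ (w * nk) * (u * I u ^ nk))) ^ x) := by
          have hI' := hI0 u hu
          rw [ENNReal.ofReal_mul (by positivity), ENNReal.ofReal_rpow_of_nonneg hpos1 hκ,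
            ← ENNReal.ofReal_rpow_of_nonneg hpos2 hx0.le, ENNReal.ofReal_mul (by positivity)]
          congr 3
          rw [hNdef, ENNReal.ofReal_natCast]
      _ ≤ ENNReal.ofReal (V * K ^ ((w : ℝ) / 2) * u ^ θ) := by
          apply ENNReal.ofReal_le_ofReal
          exact hcore

end MemSample.WLAssemble
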