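/-
Row 322 (S0499): the Window Lemma with the cube Frostman hypothesis, parameters of #605
(`w = d/16`, `k = d/8`, `β = d/2`), natural logarithms, explicit constants:
`I ≤ 11 log N / d + 8 d + (1/5) log K₀`.  (helper31)
-/
import Mathlib
import Crest.Agent.Lib.MemSample.WindowLemma
import Crest.Agent.Lib.MemSample.Cubes

set_option autoImplicit false

open MeasureTheory ProbabilityTheory Filter
open scoped ENNReal BigOperators
open Crest.StreamLearn

namespace MemSample.WLAssemble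

/-- The arithmetic of the constants. -/
lemma window_arith {d w n nkk : ℕ} (hd : 64 ≤ d) (hw : w = d / 16) (hnkk : nkk = d / 8)
    (hn : n = d / 8 - 2) {N K0 b θ x : ℝ} (hN : 1 ≤ N) (hK0 : 1 ≤ K0) (hb0 : 0 ≤ b) (hb : b ≤ 1 / 6)
    (hx : x = 1 / (nkk : ℝ)) (hθ : 5 / 6 ≤ θ) :
    Real.log 2 * ((Real.logb 2 ((4 * Real.exp 1) ^ ((w : ℝ) / 2) * 2 ^ (w + 2) * N ^ x *
        (9 ^ n * (96 ^ d * K0)) ^ b) + 4 * (1 + (w : ℝ) / 2)) / θ) ≤
      11 * Real.log N / d + 8 * d + (1 / 5) * Real.log K0 := by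
  have hd0 : (64:ℝ) ≤ d := by exact_mod_cast hd
  have hdpos : (0:ℝ) < d := by linarith
  have hθ0 : 0 < θ := by linarith
  have hN0 : 0 < N := by linarith
  have hK00 : 0 < K0 := by linarith
  have hnkkpos : 0 < nkk := by omega
  have hnkkR : (0:ℝ) < nkk := by exact_mod_cast hnkkpos
  have hxpos : 0 < x := by rw [hx]; positivity
  have hlog2 : 0 < Real.log 2 := Real.log_pos (by norm_num)
  have hlog2le : Real.log 2 ≤ 0.7 := by
    have := Real.log_two_lt_d9; linarith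
  set l2 := Real.log 2 with hl2
  set lN := Real.log N with hlN
  set lK := Real.log K0 with hlK
  have hlN0 : 0 ≤ lN := Real.log_nonneg hN
  have hlK0 : 0 ≤ lK := Real.log_nonneg hK0
  have hl4 : Real.log 4 = 2 * l2 := by
    rw [hl2, show (4:ℝ) = 2 ^ 2 by norm_num, Real.log_pow]; norm_num
  have hl9 : Real.log 9 ≤ 4 * l2 := by
    have : Real.log 9 ≤ Real.log (2 ^ 4) := Real.log_le_log (by norm_num) (by norm_num)
    rw [Real.log_pow] at this
    simpa using this
  have hl96 : Real.log 96 ≤ 7 * l2 := by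
    have : Real.log 96 ≤ Real.log (2 ^ 7) := Real.log_le_log (by norm_num) (by norm_num)
    rw [Real.log_pow] at this
    simpa using this
  have hl9nn : 0 ≤ Real.log 9 := Real.log_nonneg (by norm_num)
  have hl96nn : 0 ≤ Real.log 96 := Real.log_nonneg (by norm_num)
  have he : 0 < Real.exp 1 := Real.exp_pos 1
  -- the logarithm of `V`
  set V : ℝ := (4 * Real.exp 1) ^ ((w : ℝ) / 2) * 2 ^ (w + 2) * N ^ x *
        (9 ^ n * (96 ^ d * K0)) ^ b with hV
  have hlogV : Real.log V = ((w : ℝ) / 2) * (2 * l2 + 1) + ((w : ℝ) + 2) * l2 + x * lN +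
      b * ((n : ℝ) * Real.log 9 + ((d : ℝ) * Real.log 96 + lK)) := by
    have h96 : Real.log (9 ^ n * (96 ^ d * K0)) = (n : ℝ) * Real.log 9 +
        ((d : ℝ) * Real.log 96 + lK) := by
      rw [Real.log_mul (by positivity) (by positivity), Real.log_mul (by positivity) (by positivity),
        Real.log_pow, Real.log_pow]
    have h4e : Real.log (4 * Real.exp 1) = 2 * l2 + 1 := by
      rw [Real.log_mul (by norm_num) he.ne', Real.log_exp, hl4]
    rw [hV, Real.log_mul (by positivity) (by positivity), Real.log_mul (by positivity) (by positivity),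
      Real.log_mul (by positivity) (by positivity), Real.log_rpow (by positivity),
      Real.log_pow, Real.log_rpow hN0, Real.log_rpow (by positivity), h96, h4e]
    push_cast
    ring
  -- sizes
  have hwR : (w : ℝ) ≤ d / 16 := by
    have : 16 * w ≤ d := by omega
    have : (16:ℝ) * w ≤ d := by exact_mod_cast this
    linarith
  have hw0 : (0:ℝ) ≤ w := Nat.cast_nonneg _
  have hnR : (n : ℝ) ≤ d / 8 := by
    have : 8 * n ≤ d := by omega
    have : (8:ℝ) * n ≤ d := by exact_mod_cast this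
    linarith
  have hn0 : (0:ℝ) ≤ n := Nat.cast_nonneg _
  have hkk : (6:ℝ) * d ≤ 55 * nkk := by
    have : 6 * d ≤ 55 * nkk := by omega
    exact_mod_cast this
  -- the numerator
  have hcalc : l2 * ((Real.logb 2 V + 4 * (1 + (w : ℝ) / 2)) / θ) =
      (Real.log V + 4 * (1 + (w : ℝ) / 2) * l2) / θ := by
    have : Real.logb 2 V = Real.log V / l2 := rfl
    rw [this]
    field_simp
  rw [hcalc, hlogV]
  set X : ℝ := ((w : ℝ) / 2) * (2 * l2 + 1) + ((w : ℝ) + 2) * l2 + x * lN +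
      b * ((n : ℝ) * Real.log 9 + ((d : ℝ) * Real.log 96 + lK)) + 4 * (1 + (w : ℝ) / 2) * l2 with hX
  have hXnn : 0 ≤ X := by positivity
  have hstep : X / θ ≤ (6 / 5) * X := by
    rw [div_le_iff₀ hθ0]
    nlinarith
  refine hstep.trans ?_
  -- term by term
  have h1 : (6 / 5) * (x * lN) ≤ 11 * lN / d := by
    have hx2 : (6 / 5) * x ≤ 11 / d := by
      rw [hx, mul_one_div, div_le_div_iff₀ hnkkR hdpos]
      linarith
    calc (6 / 5) * (x * lN) = ((6 / 5) * x) * lN := by ring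
      _ ≤ (11 / d) * lN := by gcongr
      _ = 11 * lN / d := by ring
  have h2 : (6 / 5) * (b * lK) ≤ (1 / 5) * lK := by nlinarith
  have h3 : b * ((n : ℝ) * Real.log 9 + (d : ℝ) * Real.log 96) ≤
      (1 / 6) * (((d : ℝ) / 8) * (4 * l2) + (d : ℝ) * (7 * l2)) := by
    have hA : (n : ℝ) * Real.log 9 + (d : ℝ) * Real.log 96 ≤ ((d : ℝ) / 8) * (4 * l2) +
        (d : ℝ) * (7 * l2) := by
      have h31 : (n : ℝ) * Real.log 9 ≤ ((d : ℝ) / 8) * (4 * l2) :=
        mul_le_mul hnR hl9 hl9nn (by positivity)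
      have h32 : (d : ℝ) * Real.log 96 ≤ (d : ℝ) * (7 * l2) :=
        mul_le_mul_of_nonneg_left hl96 hdpos.le
      linarith
    exact mul_le_mul hb hA (by positivity) (by norm_num)
  have h4 : ((w : ℝ) / 2) * (2 * l2 + 1) ≤ ((d : ℝ) / 32) * 2.4 := by
    have : 2 * l2 + 1 ≤ 2.4 := by linarith
    have h5 : (w : ℝ) / 2 ≤ (d : ℝ) / 32 := by linarith
    exact mul_le_mul h5 this (by positivity) (by positivity)
  have h5 : ((w : ℝ) + 2) * l2 ≤ ((d : ℝ) / 16 + 2) * 0.7 :=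
    mul_le_mul (by linarith) hlog2le hlog2.le (by positivity)
  have h6 : 4 * (1 + (w : ℝ) / 2) * l2 ≤ 4 * (1 + (d : ℝ) / 32) * 0.7 :=
    mul_le_mul (by linarith) hlog2le hlog2.le (by positivity)
  have h7 : (1 / 6) * (((d : ℝ) / 8) * (4 * l2) + (d : ℝ) * (7 * l2)) ≤
      (1 / 6) * (((d : ℝ) / 8) * (4 * 0.7) + (d : ℝ) * (7 * 0.7)) := by
    gcongr
  have hsplit : X = ((w : ℝ) / 2) * (2 * l2 + 1) + ((w : ℝ) + 2) * l2 + x * lN +
      b * ((n : ℝ) * Real.log 9 + (d : ℝ) * Real.log 96) + b * lK +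
      4 * (1 + (w : ℝ) / 2) * l2 := by
    rw [hX]; ring
  rw [hsplit]
  nlinarith

variable {ι : Type*} [Fintype ι] [MeasurableSpace ι] [MeasurableSingletonClass ι]

/-- **The Window Lemma** in the form needed by the potential argument: `μ` probability on `E d`,
supported in a level-`Q` cube, Frostman at exponent `d/2` with constant `K0` on finer cubes; `d/16`
Gaussian rows; `f` into a finite set. -/
theorem window_cube {d : ℕ} [NeZero d] (hd : 64 ≤ d) (μ : Measure (E d)) [IsProbabilityMeasure μ]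
    {Q : ℕ} {m0 : Fin d → ℤ} (hsupp : ∀ᵐ s ∂μ, s ∈ Crest.Agent.Lib.MemSample.Cubes.cube Q m0)
    {K0 : ℝ} (hK0 : 1 ≤ K0)
    (hF : ∀ q' : ℕ, Q ≤ q' → ∀ m, μ (Crest.Agent.Lib.MemSample.Cubes.cube q' m) ≤
      ENNReal.ofReal (K0 * ((2⁻¹ : ℝ) ^ (q' - Q)) ^ (d / 2)))
    (f : (Fin (d / 16) → E d) → (Fin (d / 16) → ℝ) → ι) (hf : Measurable (Function.uncurry f)) :
    ∑ n, ∫ s, Lk f n s * Real.log (Lk f n s / ∫ x, Lk f n x ∂μ) ∂μ ≤
      11 * Real.log (Fintype.card ι) / d + 8 * d + (1 / 5) * Real.log K0 := by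
  classical
  open Crest.Agent.Lib.MemSample.Cubes in
  have hNe : Nonempty ι := ⟨f 0 0⟩
  have hN : (1:ℝ) ≤ (Fintype.card ι : ℝ) := by
    exact_mod_cast Fintype.card_pos (α := ι)
  -- a centre
  obtain ⟨c0, hc0⟩ : ∃ c0, c0 ∈ Crest.Agent.Lib.MemSample.Cubes.cube Q m0 := by
    by_contra hcon
    push Not at hcon
    have h1 : ∀ᵐ s ∂μ, False := by
      filter_upwards [hsupp] with s hs using hcon s hs
    have h2 : μ Set.univ = 0 := by
      have := ae_iff.1 h1
      simpa using this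
    simp at h2
  have hsupp' : ∀ᵐ s ∂μ, ‖s - c0‖ ≤ (2⁻¹ : ℝ) ^ Q := by
    filter_upwards [hsupp] with s hs
    have h1 : Crest.Agent.Lib.MemSample.Cubes.idx Q s = Crest.Agent.Lib.MemSample.Cubes.idx Q c0 :=
      hs.trans hc0.symm
    exact Crest.Agent.Lib.MemSample.Cubes.norm_sub_le_of_idx_eq h1
  set nk := d / 8 - 1 with hnk
  set β := d / 2 with hβ
  have hw0 : 0 < d / 16 := by omega
  have hnk1 : 1 ≤ nk := by omega
  have hβ' : (nk - 1) + d / 16 + 1 ≤ β := by omega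
  set Cb : ℝ := 96 ^ d * K0 with hCb
  have hCb1 : 1 ≤ Cb := by
    have : (1:ℝ) ≤ 96 ^ d := one_le_pow₀ (by norm_num)
    nlinarith
  have hball : ∀ q' : ℕ, Q ≤ q' → ∀ x, μ (Metric.closedBall x (4 * (2⁻¹ : ℝ) ^ q')) ≤
      ENNReal.ofReal (Cb * ((2⁻¹ : ℝ) ^ (q' - Q)) ^ β) := by
    intro q' hq' x
    have h1 := Crest.Agent.Lib.MemSample.Cubes.measure_ball_le_of_cubes μ 4 q' x (hF q' hq')
    have h2 : Metric.closedBall x (4 * (2⁻¹ : ℝ) ^ q') =
        {y | ‖y - x‖ ≤ ((4 : ℕ) : ℝ) * Crest.Agent.Lib.MemSample.Cubes.mesh q'} := by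
      ext y
      simp [Metric.mem_closedBall, dist_eq_norm, Crest.Agent.Lib.MemSample.Cubes.mesh]
    rw [h2]
    refine h1.trans (le_of_eq ?_)
    rw [← ENNReal.ofReal_mul (by positivity), hCb]
    congr 1
    norm_num
    ring
  have hmain := window_lemma (E := E d) hw0 hnk1 hβ' μ c0 hsupp' hCb1 hball f hf
  -- convert to natural logs
  have hconv : ∑ n, ∫ s, Lk f n s * Real.log (Lk f n s / ∫ x, Lk f n x ∂μ) ∂μ =
      Real.log 2 * ∑ n, ∫ s, Lk f n s * Real.logb 2 (Lk f n s / ∫ x, Lk f n x ∂μ) ∂μ := by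
    rw [Finset.mul_sum]
    refine Finset.sum_congr rfl fun n _ => ?_
    rw [← integral_const_mul]
    refine integral_congr_ae (Filter.Eventually.of_forall fun s => ?_)
    have hlog2 : Real.log 2 ≠ 0 := (Real.log_pos (by norm_num)).ne'
    simp only [Real.logb]
    field_simp
  rw [hconv]
  have hlog2 : 0 < Real.log 2 := Real.log_pos (by norm_num)
  refine (mul_le_mul_of_nonneg_left hmain hlog2.le).trans ?_
  -- parameters
  set b : ℝ := ((d / 16 : ℕ) : ℝ) / ((β - (nk - 1) : ℕ) : ℝ) with hb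
  have hβn : 0 < β - (nk - 1) := by omega
  have hβnR : (0:ℝ) < ((β - (nk - 1) : ℕ) : ℝ) := by exact_mod_cast hβn
  have hb0 : 0 ≤ b := by positivity
  have hb6 : b ≤ 1 / 6 := by
    rw [hb, div_le_iff₀ hβnR]
    have : 6 * (d / 16) ≤ β - (nk - 1) := by omega
    have h2 : (6:ℝ) * ((d / 16 : ℕ) : ℝ) ≤ ((β - (nk - 1) : ℕ) : ℝ) := by exact_mod_cast this
    linarith
  have hnk0 : ((nk : ℝ) + 1) = ((d / 8 : ℕ) : ℝ) := by
    have : nk + 1 = d / 8 := by omega
    rw [← this]; push_cast; ring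
  set x : ℝ := 1 / ((nk : ℝ) + 1) with hx
  have hx0 : 0 < x := by positivity
  have hx1 : x ≤ 1 := by
    rw [hx, div_le_one (by positivity)]
    have : (0:ℝ) ≤ nk := Nat.cast_nonneg _
    linarith
  have hθ : 5 / 6 ≤ x + (1 - b) * (1 - x) := by
    nlinarith
  have := window_arith (d := d) (w := d / 16) (n := nk - 1) (nkk := d / 8) hd rfl rfl (by omega) hN hK0 hb0
    hb6 (x := x) (by rw [hx, hnk0]) hθ
  exact this

end MemSample.WLAssemble
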