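/-
Row 322 (S0499): the bridge from `WindowCube.window_cube` to the hypothesis `hWL` of
`Potential.LevelData.Chain.final_bound`.  (helper31)
-/
import Mathlib
import Crest.Agent.Lib.MemSample.WindowCube
import Crest.Agent.Lib.MemSample.Potential

set_option autoImplicit false
set_option linter.unusedSectionVars false

open MeasureTheory ProbabilityTheory Filter
open scoped ENNReal BigOperators
open Crest.StreamLearn
open Crest.Agent.Lib.MemSample.Cubes

namespace MemSample.WLBridge

open MemSample.WLAssemble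

variable {d : ℕ} [NeZero d]
variable {ι : Type*} [Fintype ι] [MeasurableSpace ι] [MeasurableSingletonClass ι]

/-- The probability measure `(ℓ/Z) σ|_W`, on the sphere. -/
noncomputable def nuW (σ : Measure (Sphere d)) (ℓ : Sphere d → ℝ) (W : Set (Sphere d)) :
    Measure (Sphere d) :=
  (σ.restrict W).withDensity fun s => ENNReal.ofReal (ℓ s / ∫ u in W, ℓ u ∂σ)

/-- The same measure, on `E d`. -/
noncomputable def muW (σ : Measure (Sphere d)) (ℓ : Sphere d → ℝ) (W : Set (Sphere d)) :
    Measure (E d) :=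
  (nuW σ ℓ W).map Subtype.val

section

variable {σ : Measure (Sphere d)} [IsProbabilityMeasure σ] {ℓ : Sphere d → ℝ}
  (hℓ : Potential.Good ℓ) {W : Set (Sphere d)} (hW : MeasurableSet W)
  (hpos : 0 < ∫ s in W, ℓ s ∂σ)

include hℓ in
lemma integrableOn_good : IntegrableOn ℓ W σ :=
  (Integrable.of_bound hℓ.meas.aestronglyMeasurable 1 (Eventually.of_forall fun s => by
    rw [Real.norm_eq_abs, abs_of_nonneg (hℓ.nonneg s)]; exact hℓ.le_one s)).integrableOn

include hℓ hpos in
lemma density_nonneg (s : Sphere d) : 0 ≤ ℓ s / ∫ u in W, ℓ u ∂σ :=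
  div_nonneg (hℓ.nonneg s) hpos.le

include hℓ in
lemma measurable_density : Measurable fun s => ENNReal.ofReal (ℓ s / ∫ u in W, ℓ u ∂σ) :=
  ENNReal.measurable_ofReal.comp (hℓ.meas.div_const _)

/-- integrals against `nuW`. -/
lemma integral_nuW (g : Sphere d → ℝ) (hℓ : Potential.Good ℓ) (hpos : 0 < ∫ s in W, ℓ s ∂σ) :
    ∫ s, g s ∂(nuW σ ℓ W) = ∫ s in W, (ℓ s / ∫ u in W, ℓ u ∂σ) * g s ∂σ := by
  unfold nuW
  rw [integral_withDensity_eq_integral_toReal_smul (measurable_density hℓ)
    (Eventually.of_forall fun s => ENNReal.ofReal_lt_top)]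
  refine integral_congr_ae (Eventually.of_forall fun s => ?_)
  simp only [smul_eq_mul]
  rw [ENNReal.toReal_ofReal (density_nonneg hℓ hpos s)]

include hℓ hW hpos in
lemma isProb_nuW : IsProbabilityMeasure (nuW σ ℓ W) := by
  constructor
  unfold nuW
  rw [withDensity_apply _ MeasurableSet.univ, Measure.restrict_univ]
  have h1 : ∫⁻ s, ENNReal.ofReal (ℓ s / ∫ u in W, ℓ u ∂σ) ∂σ.restrict W =
      ENNReal.ofReal (∫ s in W, ℓ s / ∫ u in W, ℓ u ∂σ ∂σ) := by
    rw [ofReal_integral_eq_lintegral_ofReal ((integrableOn_good hℓ).div_const _)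
      (Eventually.of_forall fun s => density_nonneg hℓ hpos s)]
  rw [h1, integral_div, div_self hpos.ne']
  simp

include hℓ hW hpos in
lemma isProb_muW : IsProbabilityMeasure (muW σ ℓ W) := by
  have := isProb_nuW hℓ hW hpos
  exact Measure.isProbabilityMeasure_map measurable_subtype_coe.aemeasurable

/-- integrals against `muW`. -/
lemma integral_muW (g : E d → ℝ) (hg : Measurable g) (hℓ : Potential.Good ℓ)
    (hpos : 0 < ∫ s in W, ℓ s ∂σ) :
    ∫ s, g s ∂(muW σ ℓ W) = ∫ s in W, (ℓ s / ∫ u in W, ℓ u ∂σ) * g (s : E d) ∂σ := by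
  unfold muW
  rw [integral_map measurable_subtype_coe.aemeasurable hg.aestronglyMeasurable]
  exact integral_nuW _ hℓ hpos

end

/-- **The bridge.** -/
theorem info_le_of_window (hd : 64 ≤ d)
    (f : (Fin (d / 16) → E d) → (Fin (d / 16) → ℝ) → ι) (hf : Measurable (Function.uncurry f))
    (σ : Measure (Sphere d)) [IsProbabilityMeasure σ] {ℓ : Sphere d → ℝ} (hℓ : Potential.Good ℓ)
    {W : Set (Sphere d)} (hW : MeasurableSet W) (hpos : 0 < ∫ s in W, ℓ s ∂σ)
    {Q : ℕ} {m0 : Fin d → ℤ} (hsub : ∀ s ∈ W, idx Q (s : E d) = m0)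
    {A : ℝ} (hA : ∫ s in W, ℓ s ∂σ ≤ A)
    (hFrost : ∀ q', Q ≤ q' → ∀ s ∈ W, ∫ u in {u : Sphere d | idx q' (u : E d) = idx q' (s : E d)}, ℓ u ∂σ ≤
      A * ((2⁻¹ : ℝ) ^ (q' - Q)) ^ (d / 2)) :
    Potential.LevelData.info ℓ (fun n s => Lk f n (s : E d)) W σ ≤
      11 * Real.log (Fintype.card ι) / d + 8 * d +
        (1 / 5) * Real.log (A / ∫ s in W, ℓ s ∂σ) := by
  classical
  set Z := ∫ s in W, ℓ s ∂σ with hZ
  have hprob : IsProbabilityMeasure (muW σ ℓ W) := isProb_muW hℓ hW hpos
  have hprobn : IsProbabilityMeasure (nuW σ ℓ W) := isProb_nuW hℓ hW hpos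
  have hK0 : 1 ≤ A / Z := by rwa [one_le_div hpos]
  -- the measure of a preimage
  have hmu : ∀ C : Set (E d), MeasurableSet C → muW σ ℓ W C =
      ∫⁻ s in W ∩ {s : Sphere d | (s : E d) ∈ C}, ENNReal.ofReal (ℓ s / Z) ∂σ := by
    intro C hC
    unfold muW
    rw [Measure.map_apply measurable_subtype_coe hC]
    unfold nuW
    rw [withDensity_apply _ (measurable_subtype_coe hC),
      Measure.restrict_restrict (measurable_subtype_coe hC), Set.inter_comm]
    rfl
  -- support
  have hsupp : ∀ᵐ s ∂(muW σ ℓ W), s ∈ cube Q m0 := by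
    have hm : MeasurableSet (cube (d := d) Q m0) := measurableSet_cube Q m0
    rw [ae_iff]
    have : {a | ¬ a ∈ cube Q m0} = (cube (d := d) Q m0)ᶜ := rfl
    rw [this, hmu _ hm.compl]
    have hemp : W ∩ {s : Sphere d | (s : E d) ∈ (cube (d := d) Q m0)ᶜ} = ∅ := by
      ext s
      simp only [Set.mem_inter_iff, Set.mem_empty_iff_false, iff_false, not_and]
      intro hs hs2
      exact hs2 (hsub s hs)
    rw [hemp]
    simp
  -- Frostman
  have hF : ∀ q' : ℕ, Q ≤ q' → ∀ m, muW σ ℓ W (cube q' m) ≤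
      ENNReal.ofReal ((A / Z) * ((2⁻¹ : ℝ) ^ (q' - Q)) ^ (d / 2)) := by
    intro q' hq' m
    rw [hmu _ (measurableSet_cube q' m)]
    by_cases hne : (W ∩ {s : Sphere d | (s : E d) ∈ cube q' m}).Nonempty
    · obtain ⟨s, hsW, hsC⟩ := hne
      have hsm : idx q' (s : E d) = m := hsC
      have hCset : {u : Sphere d | (u : E d) ∈ cube q' m} =
          {u : Sphere d | idx q' (u : E d) = idx q' (s : E d)} := by
        rw [hsm]; rfl
      have hCm : MeasurableSet {u : Sphere d | (u : E d) ∈ cube q' m} :=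
        measurable_subtype_coe (measurableSet_cube q' m)
      have hint : IntegrableOn (fun s => ℓ s / Z) (W ∩ {u : Sphere d | (u : E d) ∈ cube q' m}) σ := by
        refine Integrable.integrableOn ?_
        refine (Integrable.of_bound hℓ.meas.aestronglyMeasurable 1 (Eventually.of_forall fun s => ?_)).div_const _
        rw [Real.norm_eq_abs, abs_of_nonneg (hℓ.nonneg s)]; exact hℓ.le_one s
      rw [← ofReal_integral_eq_lintegral_ofReal hint
        (Eventually.of_forall fun s => div_nonneg (hℓ.nonneg s) hpos.le)]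
      apply ENNReal.ofReal_le_ofReal
      rw [integral_div, div_mul_eq_mul_div]
      apply div_le_div_of_nonneg_right _ hpos.le
      refine le_trans ?_ (hFrost q' hq' s hsW)
      rw [← hCset]
      refine setIntegral_mono_set ?_ (Eventually.of_forall fun s => hℓ.nonneg s) ?_
      · exact integrableOn_good hℓ
      · exact (Set.inter_subset_right).eventuallyLE
    · rw [Set.not_nonempty_iff_eq_empty.1 hne]
      simp
  -- measurability of `Lk`
  have hLm := measurable_Lk (E := E d) f hf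
  have hmain := window_cube hd (muW σ ℓ W) hsupp hK0 hF f hf
  refine le_trans (le_of_eq ?_) hmain
  -- identification with `info`
  unfold Potential.LevelData.info
  refine Finset.sum_congr rfl fun n _ => ?_
  have hP : ∫ x, Lk f n x ∂(muW σ ℓ W) = ∫ u in W, (ℓ u / ∫ v in W, ℓ v ∂σ) * Lk f n (u : E d) ∂σ :=
    integral_muW _ (hLm n) hℓ hpos
  rw [hP]
  have hgm : Measurable fun s : E d => Lk f n s *
      Real.log (Lk f n s / ∫ u in W, (ℓ u / ∫ v in W, ℓ v ∂σ) * Lk f n (u : E d) ∂σ) :=
    (hLm n).mul ((hLm n).div_const _).log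
  rw [integral_muW _ hgm hℓ hpos]
  refine integral_congr_ae (Eventually.of_forall fun s => ?_)
  simp only
  ring

end MemSample.WLBridge
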