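import Crest.Agent.Lib.MemSample.Potential
import Crest.Agent.Lib.MemSample.Combine
import Crest.Agent.Lib.MemSample.Cubes
import Crest.Agent.Lib.MemSample.WLBridge

/-!
# Row 322 (S0499): final bridge

Instantiates `Potential.LevelData` with the cubes of `Cubes`, the abstract chain with the block
chain of `BlockChain`, and deduces the block bound of `Combine.final_of_bound` from the Window
Lemma.
-/

set_option autoImplicit false

namespace MemSample.FinalBridge

open MeasureTheory Real Set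
open Crest.StreamLearn
open Crest.Agent.Lib.MemSample.SphereFacts Crest.Agent.Lib.MemSample.Cubes
open Crest.Agent.Lib.MemSample.ReduceChain
open MemSample.BlockChain MemSample.Potential
open scoped ENNReal

variable {d : ℕ}

/-! ### The level data on the sphere -/

/-- The level data: cubes of `Cubes`, exponent `β`. -/
noncomputable def LD (d β : ℕ) [NeZero d] (hβ : 1 ≤ β) (hβd : β + 2 ≤ d) :
    LevelData (sphereUniform d) (Fin d → ℤ) where
  cube q s := idx q (s : E d)
  cell_meas q c := ((measurable_idx q).comp measurable_subtype_coe) (measurableSet_singleton c)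
  a := ((d : ℝ) - 1 - β) * log 2
  b := β * log 2
  B := d * log 2
  a_pos := by
    have h1 : (β : ℝ) + 2 ≤ d := by exact_mod_cast hβd
    have h2 : 0 < log 2 := log_pos (by norm_num)
    apply mul_pos _ h2
    linarith
  b_pos := by
    have h1 : (1 : ℝ) ≤ β := by exact_mod_cast hβ
    have h2 : 0 < log 2 := log_pos (by norm_num)
    positivity
  B_nonneg := by
    have h2 : 0 < log 2 := log_pos (by norm_num)
    positivity
  size q c := by
    have h1 := sphere_cube_le (d := d) q c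
    have h2 : (sphereUniform d).real {s : Sphere d | idx q (s : E d) = c} ≤
        2 ^ d * mesh q ^ (d - 1) := by
      have : (sphereUniform d) {s : Sphere d | idx q (s : E d) = c} ≤
          ENNReal.ofReal (2 ^ d * mesh q ^ (d - 1)) := h1
      have hpos : (0 : ℝ) ≤ 2 ^ d * mesh q ^ (d - 1) := by
        have := mesh_pos q
        positivity
      have h3 := ENNReal.toReal_mono ENNReal.ofReal_ne_top this
      rw [ENNReal.toReal_ofReal hpos] at h3
      exact h3
    refine h2.trans (le_of_eq ?_)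
    have hlog2 : (0 : ℝ) < log 2 := log_pos (by norm_num)
    have hd1 : ((d - 1 : ℕ) : ℝ) = (d : ℝ) - 1 := by
      have : 1 ≤ d := by omega
      rw [Nat.cast_sub this]; simp
    have e1 : (2 : ℝ) ^ d = exp (d * log 2) := by
      rw [mul_comm, exp_mul, exp_log (by norm_num), rpow_natCast]
    have e2 : mesh q ^ (d - 1) = exp (-(((d : ℝ) - 1) * log 2 * q)) := by
      unfold mesh
      rw [← pow_mul, inv_pow, ← exp_log (show (0 : ℝ) < 2 ^ (q * (d - 1)) by positivity), ← exp_neg,
        log_pow]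
      congr 1
      push_cast
      rw [hd1]
      ring
    rw [e1, e2, ← exp_add]
    congr 1
    ring
  fin0 := by
    obtain ⟨F, -, hF⟩ := exists_cover_sphere (d := d)
    refine F.finite_toSet.subset ?_
    rintro _ ⟨s, rfl⟩
    exact hF s

/-! ### The chain -/

variable {Z : Type} [Fintype Z] [DecidableEq Z] {w : ℕ}

lemma measurable_τ {f : ℕ → Z → (Fin w → E d) → (Fin w → ℝ) → Z} (hf : FMeas f) (j : ℕ) (z z' : Z) :
    Measurable (τ f j z z') := by
  unfold τ
  have hm : MeasurableSet {p : E d × (Fin w → E d) | f j z p.2 (mv p.2 p.1) = z'} := by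
    have h1 : Measurable fun p : E d × (Fin w → E d) => (p.2, mv p.2 p.1) := by
      refine measurable_snd.prodMk (measurable_pi_iff.2 fun i => ?_)
      unfold mv
      exact ((measurable_pi_apply i).comp measurable_snd).inner measurable_fst
    exact h1 (hf j z z')
  exact measurable_measure_prodMk_left hm

lemma sum_τ {f : ℕ → Z → (Fin w → E d) → (Fin w → ℝ) → Z} (hf : FMeas f) (j : ℕ) (z : Z) (s : E d) :
    ∑ z', τ f j z z' s = 1 := by
  classical
  unfold τ
  have hm : ∀ z' ∈ (Finset.univ : Finset Z), MeasurableSet {x : Fin w → E d | f j z x (mv x s) = z'} :=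
    fun z' _ => measurableSet_f hf j z z' s
  have hdisj : Set.PairwiseDisjoint (↑(Finset.univ : Finset Z))
      (fun z' => {x : Fin w → E d | f j z x (mv x s) = z'}) := by
    intro a _ b _ hab
    refine Set.disjoint_left.2 fun X hXa hXb => hab ?_
    exact hXa.symm.trans hXb
  rw [← measure_biUnion_finset hdisj hm]
  have : (⋃ z' ∈ (Finset.univ : Finset Z), {x : Fin w → E d | f j z x (mv x s) = z'}) = univ := by
    ext X; simp
  rw [this]
  exact measure_univ

lemma τ_le_one {f : ℕ → Z → (Fin w → E d) → (Fin w → ℝ) → Z} (j : ℕ) (z z' : Z) (s : E d) :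
    τ f j z z' s ≤ 1 := prob_le_one

lemma τ_ne_top {f : ℕ → Z → (Fin w → E d) → (Fin w → ℝ) → Z} (j : ℕ) (z z' : Z) (s : E d) :
    τ f j z z' s ≠ ∞ := ne_top_of_le_ne_top ENNReal.one_ne_top (τ_le_one j z z' s)

/-- The abstract chain of the block chain on the sphere. -/
noncomputable def chainOf (f : ℕ → Z → (Fin w → E d) → (Fin w → ℝ) → Z) (hf : FMeas f) (z0 : Z) :
    LevelData.Chain (sphereUniform d) Z where
  z0 := z0
  τ j z z' s := (τ f j z z' (s : E d)).toReal
  good j z z' :=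
    ⟨((measurable_τ hf j z z').comp measurable_subtype_coe).ennreal_toReal,
      fun _ => ENNReal.toReal_nonneg,
      fun s => by
        have := ENNReal.toReal_mono ENNReal.one_ne_top (τ_le_one (f := f) j z z' (s : E d))
        simpa using this⟩
  sum_one j z s := by
    rw [← ENNReal.toReal_sum fun z' _ => τ_ne_top j z z' _, sum_τ hf]
    simp

lemma Lz_ne_top (f : ℕ → Z → (Fin w → E d) → (Fin w → ℝ) → Z) (z0 : Z) (j : ℕ) (z : Z) (s : E d) :
    Lz f z0 j z s ≠ ∞ := by
  induction j generalizing z with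
  | zero => simp only [Lz]; split_ifs <;> simp
  | succ j ih =>
    simp only [Lz]
    exact ENNReal.sum_ne_top.2 fun z' _ => ENNReal.mul_ne_top (ih z') (τ_ne_top _ _ _ _)

lemma chain_L_eq (f : ℕ → Z → (Fin w → E d) → (Fin w → ℝ) → Z) (hf : FMeas f) (z0 : Z) (j : ℕ)
    (z : Z) (s : Sphere d) :
    (chainOf f hf z0).L j z s = (Lz f z0 j z (s : E d)).toReal := by
  induction j generalizing z with
  | zero =>
    simp only [LevelData.Chain.L, Lz, chainOf]
    split_ifs <;> simp
  | succ j ih =>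
    simp only [LevelData.Chain.L, Lz]
    rw [ENNReal.toReal_sum fun z' _ => ENNReal.mul_ne_top (Lz_ne_top _ _ _ _ _) (τ_ne_top _ _ _ _)]
    refine Finset.sum_congr rfl fun z' _ => ?_
    rw [ENNReal.toReal_mul, ih z']
    rfl

lemma measurable_Lz {f : ℕ → Z → (Fin w → E d) → (Fin w → ℝ) → Z} (hf : FMeas f) (z0 : Z)
    (J : ℕ) (z : Z) : Measurable fun s : Sphere d => Lz f z0 J z (s : E d) := by
  induction J generalizing z with
  | zero => simp only [Lz]; exact measurable_const
  | succ J ih =>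
    simp only [Lz]
    refine Finset.measurable_fun_sum _ fun z' _ => ?_
    exact (ih z').mul ((measurable_τ hf J z' z).comp measurable_subtype_coe)

/-- Success in `ENNReal` gives success for the real chain. -/
lemma success_real [NeZero d] (f : ℕ → Z → (Fin w → E d) → (Fin w → ℝ) → Z) (hf : FMeas f) (z0 : Z)
    (J : ℕ) (T : Z → Set (Sphere d)) (hT : ∀ z, MeasurableSet (T z))
    [∀ z s, Decidable (s ∈ T z)]
    (hs : ENNReal.ofReal (2 / 3) ≤ ∫⁻ s : Sphere d, ∑ z : Z, (if s ∈ T z then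
        Lz f z0 J z (s : E d) else 0) ∂(sphereUniform d)) :
    2 / 3 ≤ ∑ z, ∫ s in T z, (chainOf f hf z0).L J z s ∂(sphereUniform d) := by
  have hLmeas : ∀ z, Measurable fun s : Sphere d => Lz f z0 J z (s : E d) :=
    fun z => measurable_Lz hf z0 J z
  have hexp : ∫⁻ s : Sphere d, ∑ z : Z, (if s ∈ T z then
        Lz f z0 J z (s : E d) else 0) ∂(sphereUniform d) =
      ∑ z, ∫⁻ s in T z, Lz f z0 J z (s : E d) ∂(sphereUniform d) := by
    rw [lintegral_finsetSum]
    · refine Finset.sum_congr rfl fun z _ => ?_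
      rw [← lintegral_indicator (hT z)]
      refine lintegral_congr fun s => ?_
      by_cases h : s ∈ T z <;> simp [h]
    · intro z _
      exact Measurable.ite (hT z) (hLmeas z) measurable_const
  rw [hexp] at hs
  have hconv : ∀ z, ∫ s in T z, (chainOf f hf z0).L J z s ∂(sphereUniform d) =
      (∫⁻ s in T z, Lz f z0 J z (s : E d) ∂(sphereUniform d)).toReal := by
    intro z
    simp_rw [chain_L_eq f hf z0 J z]
    exact integral_toReal (hLmeas z).aemeasurable
      (Filter.Eventually.of_forall fun s => (Lz_ne_top f z0 J z _).lt_top)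
  simp_rw [hconv]
  have hle1 : ∀ z, ∫⁻ s in T z, Lz f z0 J z (s : E d) ∂(sphereUniform d) ≠ ∞ := by
    intro z
    have h1 : ∀ s : Sphere d, Lz f z0 J z (s : E d) ≤ 1 := by
      intro s
      have h2 := chain_L_eq f hf z0 J z s
      have h3 := (LevelData.Chain.L_le_one (chainOf f hf z0) J z s)
      rw [h2] at h3
      have h4 := ENNReal.ofReal_le_ofReal h3
      rwa [ENNReal.ofReal_toReal (Lz_ne_top _ _ _ _ _), ENNReal.ofReal_one] at h4
    refine ne_top_of_le_ne_top (ENNReal.one_ne_top) ?_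
    calc ∫⁻ s in T z, Lz f z0 J z (s : E d) ∂(sphereUniform d)
        ≤ ∫⁻ _s in T z, 1 ∂(sphereUniform d) := lintegral_mono h1
      _ = (sphereUniform d) (T z) := by simp
      _ ≤ 1 := prob_le_one
  rw [← ENNReal.toReal_sum fun z _ => hle1 z]
  have hsumfin : ∑ z, ∫⁻ s in T z, Lz f z0 J z (s : E d) ∂(sphereUniform d) ≠ ∞ :=
    ENNReal.sum_ne_top.2 fun z _ => hle1 z
  have := ENNReal.toReal_mono hsumfin hs
  rwa [ENNReal.toReal_ofReal (by norm_num)] at this

/-! ### Arithmetic -/

lemma log_two_bounds : (0.69 : ℝ) ≤ log 2 ∧ log 2 ≤ 0.7 := by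
  have h1 := Real.log_two_gt_d9
  have h2 := Real.log_two_lt_d9
  constructor <;> linarith

lemma final_arith {d l2 u L2 J X a H B ell Δ : ℝ} (hd : 64 ≤ d) (hl2 : 0.69 ≤ l2)
    (hu : 0 ≤ u) (hJ : 1 ≤ J) (hX : L2 - 14 ≤ X) (hL2 : 20 ≤ L2) (ha : (d / 4) * l2 ≤ a)
    (hH : H ≤ 4 * d * l2) (hB : B = d * l2) (hell : ell ≤ d / 2 + u / 8)
    (hΔ : Δ = 11 * u * l2 + 8 * d)
    (main : a * ((1 / 2) * X) ≤ H + J * (Δ + (1 + 1 / 5) * ell) + B + ell) :
    (d / 8) * (L2 - 20) ≤ 20 * d + J * (12 * u + 20 * d) := by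
  have hl2pos : 0 < l2 := by linarith
  have hdpos : 0 < d := by linarith
  have hX0 : 0 ≤ X := by linarith
  -- lower bound for the left side
  have h1 : (d / 8) * l2 * (L2 - 14) ≤ a * ((1 / 2) * X) := by
    have h2 : (d / 4) * l2 * ((1 / 2) * X) ≤ a * ((1 / 2) * X) := by gcongr
    have h3 : (d / 8) * l2 * (L2 - 14) ≤ (d / 8) * l2 * X := by gcongr
    calc _ ≤ (d / 8) * l2 * X := h3
      _ = (d / 4) * l2 * ((1 / 2) * X) := by ring
      _ ≤ _ := h2
  -- upper bound for the state-dependent term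
  have hJpos : 0 < J := by linarith
  have hJterm : J * (Δ + (1 + 1 / 5) * ell) + u / 8 ≤ J * (l2 * (12 * u + 20 * d) - d / 2) := by
    have h4 : Δ + (1 + 1 / 5) * ell + u / 8 ≤ l2 * (12 * u + 20 * d) - d / 2 := by
      rw [hΔ]
      nlinarith
    have h5 : u / 8 ≤ J * (u / 8) := by nlinarith
    have h6 := mul_le_mul_of_nonneg_left h4 hJpos.le
    nlinarith
  have h7 : l2 * ((d / 8) * (L2 - 20)) ≤ l2 * (20 * d + J * (12 * u + 20 * d)) := by
    have h8 : J * (l2 * (12 * u + 20 * d) - d / 2) = l2 * (J * (12 * u + 20 * d)) - J * (d / 2) := by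
      ring
    have h9 : d / 2 ≤ J * (d / 2) := by nlinarith
    nlinarith
  exact le_of_mul_le_mul_left h7 hl2pos

lemma ell_arith {d l2 a N r : ℝ} (hd : 64 ≤ d) (hl2 : 0.69 ≤ l2) (hl2' : l2 ≤ 0.7)
    (hl : log 2 = l2) (ha : (d / 4) * l2 ≤ a)
    (hN : 1 ≤ N) (hr : 1 ≤ r) (hrlog : log r ≤ 4 * d * l2) :
    2 * log ((d * l2 + log (N * r)) / a + 2) ≤ d / 2 + (log N / l2 / d) / 8 := by
  have hl2pos : 0 < l2 := by linarith
  have hdpos : 0 < d := by linarith
  have hapos : 0 < a := lt_of_lt_of_le (by positivity) ha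
  set u := log N / l2 / d with hu
  have hlogN : 0 ≤ log N := log_nonneg hN
  have hu0 : 0 ≤ u := by positivity
  have hlogNu : log N = u * d * l2 := by rw [hu]; field_simp
  have hlogr0 : 0 ≤ log r := log_nonneg hr
  set y := (d * l2 + log (N * r)) / a + 2 with hy
  have hnum : d * l2 + log (N * r) = d * l2 + log N + log r := by
    rw [log_mul (by linarith) (by linarith)]; ring
  have hq : (d * l2 + log (N * r)) / a ≤ 20 + 4 * u := by
    rw [div_le_iff₀ hapos, hnum]
    have h1 : (20 + 4 * u) * ((d / 4) * l2) ≤ (20 + 4 * u) * a := by gcongr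
    nlinarith
  have hqnn : 0 ≤ (d * l2 + log (N * r)) / a := by
    rw [hnum]; positivity
  have hy0 : 0 < y := by rw [hy]; linarith
  have hyle : y ≤ 22 + 4 * u := by rw [hy]; linarith
  -- `log y ≤ y/d + log d - 1`
  have h1 : log y ≤ y / d + log d - 1 := by
    have := Real.log_le_sub_one_of_pos (div_pos hy0 hdpos)
    rw [log_div hy0.ne' hdpos.ne'] at this
    linarith
  -- `log d ≤ d/8 + 3 l2 - 1`
  have h2 : log d ≤ d / 8 + 3 * l2 - 1 := by
    have := Real.log_le_sub_one_of_pos (show 0 < d / 8 by positivity)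
    rw [log_div hdpos.ne' (by norm_num)] at this
    have h8 : log 8 = 3 * l2 := by
      rw [show (8 : ℝ) = 2 ^ 3 by norm_num, log_pow, hl]; norm_num
    rw [h8] at this
    linarith
  have h3 : y / d ≤ (22 + 4 * u) / d := by gcongr
  have h4 : (22 + 4 * u) / d ≤ 22 / 64 + u / 16 := by
    rw [div_le_iff₀ hdpos]
    have h5 : (22 : ℝ) / 64 * d ≥ 22 := by nlinarith
    have h6 : u / 16 * d ≥ 4 * u := by nlinarith
    nlinarith
  nlinarith

/-! ### Window Lemma on classes -/

omit [Fintype Z] [DecidableEq Z] in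
lemma measurable_uncurry_of_fibres (f : (Fin w → E d) → (Fin w → ℝ) → Z) [Countable Z]
    (hf : ∀ z', MeasurableSet {p : (Fin w → E d) × (Fin w → ℝ) | f p.1 p.2 = z'}) :
    @Measurable _ _ _ ⊤ (Function.uncurry f) := by
  letI : MeasurableSpace Z := ⊤
  haveI : MeasurableSingletonClass Z := ⟨fun _ => trivial⟩
  apply measurable_to_countable'
  intro z'
  exact hf z'

/-- The Window Lemma hypothesis of `final_bound`. -/
lemma hWL_chain [NeZero d] (hd : 64 ≤ d) (hβ : 1 ≤ d / 2) (hβd : d / 2 + 2 ≤ d)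
    (f : ℕ → Z → (Fin (d / 16) → E d) → (Fin (d / 16) → ℝ) → Z) (hf : FMeas f) (z0 : Z)
    (j : ℕ) (z : Z) (p : ℕ × (Fin d → ℤ))
    (hpos : 0 < ∫ s in (LD d (d / 2) hβ hβd).classSet ((chainOf f hf z0).L j z) p,
      (chainOf f hf z0).L j z s ∂(sphereUniform d)) :
    LevelData.info ((chainOf f hf z0).L j z) ((chainOf f hf z0).τ j z)
        ((LD d (d / 2) hβ hβd).classSet ((chainOf f hf z0).L j z) p) (sphereUniform d) ≤
      (11 * log (Fintype.card Z) / d + 8 * d) + (1 / 5) *
        log ((LD d (d / 2) hβ hβd).mass ((chainOf f hf z0).L j z) p.1 p.2 /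
          ∫ s in (LD d (d / 2) hβ hβd).classSet ((chainOf f hf z0).L j z) p,
            (chainOf f hf z0).L j z s ∂(sphereUniform d)) := by
  classical
  set D := LD d (d / 2) hβ hβd with hD
  set C := chainOf f hf z0 with hC
  set ℓ := C.L j z with hℓdef
  have hℓ : Good ℓ := C.L_good j z
  letI : MeasurableSpace Z := ⊤
  haveI : MeasurableSingletonClass Z := ⟨fun _ => trivial⟩
  have hfm : Measurable (Function.uncurry (f j z)) :=
    measurable_uncurry_of_fibres (f j z) (hf j z)
  have hWm : MeasurableSet (D.classSet ℓ p) := LevelData.measurableSet_classSet hℓ p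
  have hsub : ∀ s ∈ D.classSet ℓ p, idx p.1 (s : E d) = p.2 := fun s hs => hs.1
  have hA : ∫ s in D.classSet ℓ p, ℓ s ∂(sphereUniform d) ≤ D.mass ℓ p.1 p.2 :=
    setIntegral_mono_set (LevelData.Good.integrable hℓ).integrableOn
      (Filter.Eventually.of_forall fun s => hℓ.nonneg s)
      (LE.le.eventuallyLE (LevelData.classSet_subset ℓ p))
  have hFrost : ∀ q', p.1 ≤ q' → ∀ s ∈ D.classSet ℓ p,
      ∫ u in {u : Sphere d | idx q' (u : E d) = idx q' (s : E d)}, ℓ u ∂(sphereUniform d) ≤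
        D.mass ℓ p.1 p.2 * ((2⁻¹ : ℝ) ^ (q' - p.1)) ^ (d / 2) := by
    intro q' hq' s hs
    have h1 := LevelData.frostman_on_class (D := D) hℓ hs q'
    have hv1 : D.val ℓ q' s = (∫ u in {u : Sphere d | idx q' (u : E d) = idx q' (s : E d)},
        ℓ u ∂(sphereUniform d)) * exp (D.b * q') := rfl
    have hv2 : D.val ℓ p.1 s = D.mass ℓ p.1 p.2 * exp (D.b * p.1) := by
      unfold LevelData.val
      rw [show D.cube p.1 s = p.2 from hs.1]
    rw [hv1, hv2] at h1
    have hb : D.b = ((d / 2 : ℕ) : ℝ) * log 2 := rfl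
    have he : exp (D.b * p.1) = exp (D.b * q') * ((2⁻¹ : ℝ) ^ (q' - p.1)) ^ (d / 2) := by
      have h2 : ((2⁻¹ : ℝ) ^ (q' - p.1)) ^ (d / 2) = exp (-(D.b * ((q' : ℝ) - p.1))) := by
        rw [← pow_mul, inv_pow, ← exp_log (show (0 : ℝ) < 2 ^ ((q' - p.1) * (d / 2)) by positivity),
          ← exp_neg, log_pow, hb]
        congr 1
        rw [Nat.cast_mul, Nat.cast_sub hq']
        ring
      rw [h2, ← exp_add]
      congr 1
      ring
    rw [he, ← mul_assoc] at h1
    have hepos := exp_pos (D.b * q')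
    have h3 : (∫ u in {u : Sphere d | idx q' (u : E d) = idx q' (s : E d)},
        ℓ u ∂(sphereUniform d)) * exp (D.b * q') ≤
        (D.mass ℓ p.1 p.2 * ((2⁻¹ : ℝ) ^ (q' - p.1)) ^ (d / 2)) * exp (D.b * q') := by
      calc _ ≤ _ := h1
        _ = _ := by ring
    exact le_of_mul_le_mul_right h3 hepos
  have hmain := MemSample.WLBridge.info_le_of_window hd (f j z) hfm (sphereUniform d) hℓ hWm hpos
    (Q := p.1) (m0 := p.2) hsub hA hFrost
  have hτ : C.τ j z = fun n (s : Sphere d) => MemSample.WLAssemble.Lk (f j z) n (s : E d) := rfl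
  rw [hτ]
  exact hmain

/-! ### The block bound -/

/-- **The block bound** of `Combine.final_of_bound`. -/
theorem hbound : ∀ d ≥ 64, ∀ (T M : ℕ) (ε : ℝ) (L : RLearner d T M), 0 < ε → ε ≤ 1 / 10 →
    2 / 3 ≤ L.successProb ε → ∀ J : ℕ, 1 ≤ J → T ≤ J * (d / 16) →
      ((d : ℝ) / 8) * (logb 2 (1 / ε) - 20) ≤
        20 * d + J * (12 * logb 2 (Fintype.card (ZT L)) / d + 20 * d) := by
  intro d hd T M ε L h0 h1 hs J hJ1 hTJ
  classical
  haveI : NeZero d := ⟨by omega⟩
  have hdr : (64 : ℝ) ≤ d := by exact_mod_cast hd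
  have hdpos : (0 : ℝ) < d := by linarith
  obtain ⟨hl2, hl2'⟩ := log_two_bounds
  have hl2pos : 0 < log 2 := by linarith
  have hJR : (1 : ℝ) ≤ J := by exact_mod_cast hJ1
  -- seed
  have hπ : ε ≤ Real.pi := by linarith [Real.pi_gt_three]
  obtain ⟨ω, hω⟩ := exists_chain_blocks L h0.le hπ hs (w := d / 16) hTJ
  set N : ℝ := (Fintype.card (ZT L) : ℝ) with hN
  have hN1 : 1 ≤ N := by
    have : Nonempty (ZT L) := ⟨z0F L ω⟩
    have h2 : 0 < Fintype.card (ZT L) := Fintype.card_pos
    rw [hN]; exact_mod_cast h2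
  have hlogN : 0 ≤ log N := log_nonneg hN1
  set u : ℝ := log N / log 2 / d with hu
  have hu0 : 0 ≤ u := by positivity
  have hlogbN : 12 * logb 2 N / d = 12 * u := by
    rw [hu, logb]; ring
  rw [hlogbN]
  set L2 := logb 2 (1 / ε) with hL2
  -- the trivial case
  by_cases hL20 : L2 < 20
  · have hl : ((d : ℝ) / 8) * (L2 - 20) ≤ 0 :=
      mul_nonpos_of_nonneg_of_nonpos (by positivity) (by linarith)
    have hr : 0 ≤ 20 * (d : ℝ) + J * (12 * u + 20 * d) := by positivity
    linarith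
  push Not at hL20
  -- the chain
  set f := blockMap (w := d / 16) (gF L ω) with hfdef
  have hf : FMeas f := FMeas_blockMap fun t q z' => gF_measurable L ω t q z'
  have hβ : 1 ≤ d / 2 := by omega
  have hβd : d / 2 + 2 ≤ d := by omega
  set D := LD d (d / 2) hβ hβd with hD
  set C := chainOf f hf (z0F L ω) with hC
  set Tz : ZT L → Set (Sphere d) := fun z => {s | ‖outZ L ω z - (s : E d)‖ ≤ ε} with hTz
  have hTm : ∀ z, MeasurableSet (Tz z) := by
    intro z
    apply IsClosed.measurableSet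
    exact isClosed_le (by fun_prop) continuous_const
  -- the level of the target
  have hL2nn : 0 ≤ L2 := by linarith
  set qe : ℕ := ⌊L2⌋₊ with hqe
  have hqe1 : L2 - 1 ≤ (qe : ℝ) := by
    have := Nat.lt_floor_add_one L2
    rw [← hqe] at this
    linarith
  have hqe2 : (qe : ℝ) ≤ L2 := Nat.floor_le hL2nn
  have hmesh : ε ≤ Crest.Agent.Lib.MemSample.Cubes.mesh qe := by
    unfold Crest.Agent.Lib.MemSample.Cubes.mesh
    have h2 : (2 : ℝ) ^ qe ≤ 1 / ε := by
      have h3 : (2 : ℝ) ^ (qe : ℝ) ≤ 2 ^ L2 := rpow_le_rpow_of_exponent_le (by norm_num) hqe2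
      rw [rpow_natCast, hL2, rpow_logb (by norm_num) (by norm_num) (by positivity)] at h3
      exact h3
    rw [inv_pow, ← one_div, le_div_iff₀ (by positivity)]
    rw [le_div_iff₀ h0] at h2
    linarith
  -- cover
  have hcovex := fun z : ZT L => exists_cover (d := d) 1 qe (outZ L ω z)
  choose cov hcovcard hcovmem using hcovex
  have hcard : ∀ z, (cov z).card ≤ 12 ^ d := by
    intro z
    have h2 := hcovcard z
    have h3 : (3 * 2 ^ (1 + 1) : ℝ) = 12 := by norm_num
    rw [h3] at h2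
    exact_mod_cast h2
  have hcov : ∀ z s, s ∈ Tz z → D.cube qe s ∈ cov z := by
    intro z s hs
    apply hcovmem z
    have h2 : ‖(s : E d) - outZ L ω z‖ ≤ ε := by rw [norm_sub_rev]; exact hs
    have h3 : ((1 : ℕ) : ℝ) * Crest.Agent.Lib.MemSample.Cubes.mesh qe =
        Crest.Agent.Lib.MemSample.Cubes.mesh qe := by simp
    rw [h3]
    exact h2.trans hmesh
  have hnc : 0 < 12 ^ d := by positivity
  -- success
  have hsucc : 2 / 3 ≤ ∑ z, ∫ s in Tz z, C.L J z s ∂(sphereUniform d) :=
    success_real f hf (z0F L ω) J Tz hTm hω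
  -- main inequality
  have hWL : ∀ (j : ℕ), j < J → ∀ (z : ZT L) (p : ℕ × (Fin d → ℤ)),
      0 < ∫ s in D.classSet (C.L j z) p, C.L j z s ∂(sphereUniform d) →
      LevelData.info (C.L j z) (C.τ j z) (D.classSet (C.L j z) p) (sphereUniform d) ≤
        (11 * log N / d + 8 * d) + (1 / 5) * log (D.mass (C.L j z) p.1 p.2 /
          ∫ s in D.classSet (C.L j z) p, C.L j z s ∂(sphereUniform d)) :=
    fun j _ z p hpos => hWL_chain hd hβ hβd f hf (z0F L ω) j z p hpos
  have hmain := LevelData.Chain.final_bound C D (by norm_num : (0 : ℝ) ≤ 1 / 5) J hWL qe Tz hTm cov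
    (12 ^ d) hnc hcard hcov hsucc
  -- numerics
  have hDa : D.a = ((d : ℝ) - 1 - ((d / 2 : ℕ) : ℝ)) * log 2 := rfl
  have hDb : D.b = ((d / 2 : ℕ) : ℝ) * log 2 := rfl
  have hDB : D.B = d * log 2 := rfl
  have hβle : ((d / 2 : ℕ) : ℝ) ≤ (d : ℝ) / 2 := by
    have := Nat.cast_div_le (α := ℝ) (m := d) (n := 2)
    simpa using this
  have hβge : (d : ℝ) / 3 ≤ ((d / 2 : ℕ) : ℝ) := by
    have h2 : d ≤ 2 * (d / 2) + 1 := by omega
    have h3 : (d : ℝ) ≤ 2 * ((d / 2 : ℕ) : ℝ) + 1 := by exact_mod_cast h2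
    linarith
  have hala : ((d : ℝ) / 4) * log 2 ≤ D.a := by
    rw [hDa]
    apply mul_le_mul_of_nonneg_right _ hl2pos.le
    linarith
  have hlog12 : log 12 ≤ 4 * log 2 := by
    have h2 : log 12 ≤ log 16 := log_le_log (by norm_num) (by norm_num)
    have h3 : log 16 = 4 * log 2 := by
      rw [show (16 : ℝ) = 2 ^ 4 by norm_num, log_pow]; norm_num
    linarith
  have hlog6 : log 6 ≤ 3 * log 2 := by
    have h2 : log 6 ≤ log 8 := log_le_log (by norm_num) (by norm_num)
    have h3 : log 8 = 3 * log 2 := by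
      rw [show (8 : ℝ) = 2 ^ 3 by norm_num, log_pow]; norm_num
    linarith
  -- the level-zero count
  set r : ℝ := (D.fin0.toFinset.card : ℝ) with hr
  have hr1 : 1 ≤ r := by
    have h2 : 0 < D.fin0.toFinset.card := (LevelData.Chain.nonempty_R D).card_pos
    rw [hr]; exact_mod_cast h2
  have hrlog : log r ≤ 4 * d * log 2 := by
    obtain ⟨F, hFc, hF⟩ := exists_cover_sphere (d := d)
    have hsub : D.fin0.toFinset ⊆ F := by
      intro c hc
      simp only [Set.Finite.mem_toFinset, mem_range] at hc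
      obtain ⟨s, rfl⟩ := hc
      exact hF s
    have hc : (D.fin0.toFinset.card : ℝ) ≤ 12 ^ d :=
      le_trans (by exact_mod_cast Finset.card_le_card hsub) hFc
    have h2 := log_le_log (by linarith) hc
    rw [log_pow] at h2
    calc log r ≤ (d : ℝ) * log 12 := h2
      _ ≤ d * (4 * log 2) := by gcongr
      _ = _ := by ring
  have hH00 : LevelData.Chain.H00 D ≤ 4 * d * log 2 := hrlog
  have hell : LevelData.Chain.ell (Z := ZT L) D ≤ (d : ℝ) / 2 + u / 8 := by
    have := ell_arith (d := (d : ℝ)) (l2 := log 2) (a := D.a) (N := N) (r := r) hdr hl2 hl2' rfl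
      hala hN1 hr1 hrlog
    unfold LevelData.Chain.ell LevelData.Chain.Ebar
    rw [hDB]
    exact this
  have hX : L2 - 14 ≤ (qe : ℝ) - log (6 * ((12 ^ d : ℕ) : ℝ)) / D.b := by
    have h2 : log (6 * ((12 ^ d : ℕ) : ℝ)) ≤ (3 + 4 * (d : ℝ)) * log 2 := by
      push_cast
      rw [log_mul (by norm_num) (by positivity), log_pow]
      have : (d : ℝ) * log 12 ≤ d * (4 * log 2) := by gcongr
      nlinarith
    have hbpos : 0 < D.b := D.b_pos
    have h3 : log (6 * ((12 ^ d : ℕ) : ℝ)) / D.b ≤ 13 := by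
      rw [div_le_iff₀ hbpos, hDb]
      have h4 : (3 + 4 * (d : ℝ)) ≤ 13 * ((d / 2 : ℕ) : ℝ) := by nlinarith
      have h5 := mul_le_mul_of_nonneg_right h4 hl2pos.le
      nlinarith
    linarith
  have hΔ : 11 * log N / d + 8 * d = 11 * u * log 2 + 8 * (d : ℝ) := by
    rw [hu]; field_simp
  have hfinal := final_arith (d := (d : ℝ)) (l2 := log 2) (u := u) (L2 := L2) (J := (J : ℝ))
    (X := (qe : ℝ) - log (6 * ((12 ^ d : ℕ) : ℝ)) / D.b) (a := D.a)
    (H := LevelData.Chain.H00 D) (B := D.B) (ell := LevelData.Chain.ell (Z := ZT L) D)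
    (Δ := 11 * log N / d + 8 * d) hdr hl2 hu0 hJR hX hL20 hala hH00 hDB hell hΔ hmain
  simpa using hfinal

end MemSample.FinalBridge
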