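import Mathlib

/-!
# Small-ball bound for a Gaussian row (Gram-Schmidt peeling)

For a standard Gaussian `x` on a Euclidean space, and vectors `u 0, …, u (m-1)`:
`γ {x | ∀ l < m, |⟪x, u l⟫| < τ} ≤ ∏ l < m, (2τ/√(2π)) * (dist(u l, span(u j : j<l)))⁻¹`.
-/

set_option autoImplicit false

open MeasureTheory ProbabilityTheory
open scoped ENNReal RealInnerProductSpace

namespace MemSample

variable {E : Type*} [NormedAddCommGroup E] [InnerProductSpace ℝ E] [FiniteDimensional ℝ E]
  [MeasurableSpace E] [BorelSpace E]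

/-- `(t, x) ↦ t e + (x - ⟪e, x⟫ e)`: resample the coordinate along `e`. -/
noncomputable def splitMap (e : E) (p : ℝ × E) : E := p.1 • e + (p.2 - ⟪e, p.2⟫ • e)

omit [FiniteDimensional ℝ E] [BorelSpace E] [MeasurableSpace E] in
lemma inner_splitMap (e : E) (p : ℝ × E) (ξ : E) :
    ⟪splitMap e p, ξ⟫ = p.1 * ⟪e, ξ⟫ + ⟪p.2, ξ - ⟪e, ξ⟫ • e⟫ := by
  simp only [splitMap, inner_add_left, inner_sub_left, inner_smul_left, inner_sub_right,
    inner_smul_right, real_inner_comm e p.2, conj_trivial]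
  ring

omit [FiniteDimensional ℝ E] [BorelSpace E] [MeasurableSpace E] in
lemma inner_splitMap_left (e x : E) (t : ℝ) (u : E) :
    ⟪splitMap e (t, x), u⟫ = t * ⟪e, u⟫ + ⟪x, u - ⟪e, u⟫ • e⟫ := by
  simp only [splitMap, inner_add_left, inner_sub_left, inner_smul_left, inner_sub_right,
    inner_smul_right, real_inner_comm e x, conj_trivial]
  ring

lemma measurable_splitMap (e : E) : Measurable (splitMap e) := by
  unfold splitMap
  fun_prop

lemma map_splitMap (e : E) (he : ‖e‖ = 1) :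
    ((gaussianReal 0 1).prod (stdGaussian E)).map (splitMap e) = stdGaussian E := by
  apply Measure.ext_of_charFun
  ext ξ
  rw [charFun_stdGaussian, charFun_apply,
    integral_map (measurable_splitMap e).aemeasurable (by fun_prop)]
  simp_rw [inner_splitMap e]
  have h1 : ∀ p : ℝ × E, Complex.exp (((p.1 * ⟪e, ξ⟫ + ⟪p.2, ξ - ⟪e, ξ⟫ • e⟫ : ℝ) : ℂ) * Complex.I)
      = Complex.exp ((p.1 * ⟪e, ξ⟫ : ℝ) * Complex.I) * Complex.exp ((⟪p.2, ξ - ⟪e, ξ⟫ • e⟫ : ℝ) * Complex.I) := by
    intro p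
    rw [← Complex.exp_add]
    congr 1
    push_cast
    ring
  simp_rw [h1]
  rw [integral_prod_mul (μ := gaussianReal 0 1) (ν := stdGaussian E)
    (fun t : ℝ => Complex.exp ((t * ⟪e, ξ⟫ : ℝ) * Complex.I))
    (fun x : E => Complex.exp ((⟪x, ξ - ⟪e, ξ⟫ • e⟫ : ℝ) * Complex.I))]
  have h2 := charFun_stdGaussian (E := E) (ξ - ⟪e, ξ⟫ • e)
  rw [charFun_apply] at h2
  rw [h2]
  have h3 := charFun_gaussianReal (μ := 0) (v := 1) (⟪e, ξ⟫)
  rw [charFun_apply_real] at h3
  have h3' : ∫ (t : ℝ), Complex.exp (((t * ⟪e, ξ⟫ : ℝ) : ℂ) * Complex.I) ∂(gaussianReal 0 1)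
      = Complex.exp (((⟪e, ξ⟫ : ℝ) : ℂ) * ((0 : ℝ) : ℂ) * Complex.I
        - (((1 : NNReal) : ℝ) : ℂ) * ((⟪e, ξ⟫ : ℝ) : ℂ) ^ 2 / 2) := by
    rw [← h3]
    congr 1
    ext t
    congr 2
    push_cast
    ring
  rw [h3']
  have h4 : ‖ξ - ⟪e, ξ⟫ • e‖ ^ 2 = ‖ξ‖ ^ 2 - ⟪e, ξ⟫ ^ 2 := by
    rw [@norm_sub_sq_real, norm_smul, he, inner_smul_right, real_inner_comm e ξ]
    simp only [Real.norm_eq_abs, mul_one, sq_abs]
    ring
  rw [← Complex.exp_add]
  congr 1
  have h5 : (((‖ξ - ⟪e, ξ⟫ • e‖ : ℝ) : ℂ)) ^ 2 = ((‖ξ‖ : ℂ)) ^ 2 - ((⟪e, ξ⟫ : ℝ) : ℂ) ^ 2 := by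
    exact_mod_cast h4
  rw [h5]
  push_cast
  ring

/-- distance of `u` to the subspace `V`, via the orthogonal projection. -/
noncomputable def distOff (V : Submodule ℝ E) (u : E) : ℝ := ‖u - V.starProjection u‖

omit [MeasurableSpace E] [BorelSpace E] in
lemma distOff_nonneg (V : Submodule ℝ E) (u : E) : 0 ≤ distOff V u := norm_nonneg _

/-- mass of a Gaussian on a thin slab. -/
lemma gaussian_slab (δ c τ : ℝ) (hδ : 0 < δ) (hτ : 0 ≤ τ) :
    gaussianReal 0 1 {t | |δ * t + c| < τ} ≤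
      ENNReal.ofReal (2 * τ / √(2 * Real.pi)) * (ENNReal.ofReal δ)⁻¹ := by
  have hpdf : ∀ x : ℝ, gaussianPDF 0 1 x ≤ ENNReal.ofReal (√(2 * Real.pi))⁻¹ := by
    intro x
    rw [gaussianPDF_def]
    simp only
    apply ENNReal.ofReal_le_ofReal
    rw [gaussianPDFReal_def]
    simp only [NNReal.coe_one, mul_one]
    have : Real.exp (-(x - 0) ^ 2 / 2) ≤ 1 := by
      apply Real.exp_le_one_iff.2
      have := sq_nonneg (x - 0)
      linarith
    have h2 : 0 ≤ (√(2 * Real.pi))⁻¹ := by positivity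
    calc (√(2 * Real.pi))⁻¹ * Real.exp (-(x - 0) ^ 2 / 2) ≤ (√(2 * Real.pi))⁻¹ * 1 := by
          apply mul_le_mul_of_nonneg_left this h2
      _ = _ := by ring
  have hsub : {t : ℝ | |δ * t + c| < τ} ⊆ Set.Ioo ((-τ - c) / δ) ((τ - c) / δ) := by
    intro t ht
    have := abs_lt.1 (show |δ * t + c| < τ from ht)
    constructor
    · rw [div_lt_iff₀ hδ]; nlinarith [this.1]
    · rw [lt_div_iff₀ hδ]; nlinarith [this.2]
  calc gaussianReal 0 1 {t | |δ * t + c| < τ}
      ≤ gaussianReal 0 1 (Set.Ioo ((-τ - c) / δ) ((τ - c) / δ)) := measure_mono hsub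
    _ = ∫⁻ x in Set.Ioo ((-τ - c) / δ) ((τ - c) / δ), gaussianPDF 0 1 x := by
        rw [gaussianReal_apply 0 one_ne_zero]
    _ ≤ ∫⁻ _ in Set.Ioo ((-τ - c) / δ) ((τ - c) / δ), ENNReal.ofReal (√(2 * Real.pi))⁻¹ :=
        lintegral_mono (fun x => hpdf x)
    _ = ENNReal.ofReal (√(2 * Real.pi))⁻¹ * ENNReal.ofReal ((τ - c) / δ - (-τ - c) / δ) := by
        rw [setLIntegral_const, Real.volume_Ioo]
    _ = ENNReal.ofReal (2 * τ / √(2 * Real.pi)) * (ENNReal.ofReal δ)⁻¹ := by
        have hs : 0 < √(2 * Real.pi) := by positivity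
        have e1 : (τ - c) / δ - (-τ - c) / δ = 2 * τ * δ⁻¹ := by
          field_simp
          ring
        rw [e1, ← ENNReal.ofReal_inv_of_pos hδ, ← ENNReal.ofReal_mul (by positivity),
          ← ENNReal.ofReal_mul (by positivity)]
        congr 1
        field_simp

/-- One Gram-Schmidt step: a set `S` depending only on the `V`-part of `x`, and a slab in a
direction at distance `distOff V u` from `V`. -/
theorem gauss_slab_step (V : Submodule ℝ E) (S : Set E) (hSm : MeasurableSet S)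
    (hS : ∀ x, ∀ w ∈ Vᗮ, x + w ∈ S ↔ x ∈ S) (u : E) (τ : ℝ) (hτ : 0 < τ) :
    stdGaussian E (S ∩ {x | |⟪x, u⟫| < τ}) ≤
      stdGaussian E S * (ENNReal.ofReal (2 * τ / √(2 * Real.pi)) * (ENNReal.ofReal (distOff V u))⁻¹) := by
  by_cases hδ0 : distOff V u = 0
  · by_cases hS0 : stdGaussian E S = 0
    · have : stdGaussian E (S ∩ {x | |⟪x, u⟫| < τ}) ≤ stdGaussian E S :=
        measure_mono Set.inter_subset_left
      rw [hS0] at this ⊢
      simp only [zero_mul]
      exact this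
    · have hpos : ENNReal.ofReal (2 * τ / √(2 * Real.pi)) ≠ 0 := by
        have : 0 < 2 * τ / √(2 * Real.pi) := by positivity
        simpa using this
      rw [hδ0]
      simp only [ENNReal.ofReal_zero, ENNReal.inv_zero]
      rw [ENNReal.mul_top hpos, ENNReal.mul_top hS0]
      exact le_top
  have hδ : 0 < distOff V u := lt_of_le_of_ne (distOff_nonneg V u) (Ne.symm hδ0)
  set δ := distOff V u with hδdef
  set e : E := δ⁻¹ • (u - V.starProjection u) with hedef
  have hperp : u - V.starProjection u ∈ Vᗮ := by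
    simpa using V.sub_starProjection_mem_orthogonal u
  have heperp : e ∈ Vᗮ := V.orthogonal.smul_mem _ hperp
  have he : ‖e‖ = 1 := by
    rw [hedef, norm_smul, norm_inv, Real.norm_eq_abs, abs_of_pos hδ]
    exact inv_mul_cancel₀ hδ0
  have heu : ⟪e, u⟫ = δ := by
    have h1 : u = V.starProjection u + (u - V.starProjection u) := by abel
    have h2 : ⟪u - V.starProjection u, V.starProjection u⟫ = 0 := by
      rw [real_inner_comm]
      exact (Submodule.mem_orthogonal _ _).1 hperp _ (by simp)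
    have h3 : ⟪u - V.starProjection u, u⟫ = δ ^ 2 := by
      have h6 : ⟪u - V.starProjection u, u⟫ = ⟪u - V.starProjection u, V.starProjection u⟫
          + ⟪u - V.starProjection u, u - V.starProjection u⟫ := by
        rw [← inner_add_right]
        congr 1
      rw [h6, h2, zero_add, real_inner_self_eq_norm_sq]
      rfl
    rw [hedef, inner_smul_left, h3]
    simp only [conj_trivial]
    field_simp
  have hAm : MeasurableSet (S ∩ {x | |⟪x, u⟫| < τ}) := by
    apply hSm.inter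
    apply measurableSet_lt <;> fun_prop
  have hmap := map_splitMap (E := E) e he
  conv_lhs => rw [← hmap]
  rw [Measure.map_apply (measurable_splitMap e) hAm,
    Measure.prod_apply_symm ((measurable_splitMap e) hAm)]
  have hfib : ∀ x : E, gaussianReal 0 1 ((fun t : ℝ => (t, x)) ⁻¹' (splitMap e ⁻¹' (S ∩ {x | |⟪x, u⟫| < τ})))
      ≤ S.indicator (fun _ => ENNReal.ofReal (2 * τ / √(2 * Real.pi)) * (ENNReal.ofReal δ)⁻¹) x := by
    intro x
    by_cases hx : x ∈ S
    · rw [Set.indicator_of_mem hx]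
      refine le_trans (measure_mono ?_) (gaussian_slab δ (⟪x, u - ⟪e, u⟫ • e⟫) τ hδ hτ.le)
      intro t ht
      have ht2 : |⟪splitMap e (t, x), u⟫| < τ := ht.2
      rw [inner_splitMap_left e x t u, heu] at ht2
      rw [heu] at *
      simpa [mul_comm] using ht2
    · rw [Set.indicator_of_notMem hx]
      have : (fun t : ℝ => (t, x)) ⁻¹' (splitMap e ⁻¹' (S ∩ {x | |⟪x, u⟫| < τ})) = ∅ := by
        ext t
        simp only [Set.mem_preimage, Set.mem_inter_iff, Set.mem_empty_iff_false, iff_false, not_and]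
        intro ht
        exfalso
        apply hx
        have hw : (t - ⟪e, x⟫) • e ∈ Vᗮ := V.orthogonal.smul_mem _ heperp
        have h4 := (hS x _ hw).1
        apply h4
        have h5 : x + (t - ⟪e, x⟫) • e = splitMap e (t, x) := by
          simp only [splitMap, sub_smul]
          abel
        rw [h5]
        exact ht
      rw [this]
      simp
  calc ∫⁻ x, gaussianReal 0 1 ((fun t : ℝ => (t, x)) ⁻¹' (splitMap e ⁻¹' (S ∩ {x | |⟪x, u⟫| < τ}))) ∂stdGaussian E
      ≤ ∫⁻ x, S.indicator (fun _ => ENNReal.ofReal (2 * τ / √(2 * Real.pi)) * (ENNReal.ofReal δ)⁻¹) x ∂stdGaussian E :=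
        lintegral_mono hfib
    _ = _ := by
        rw [lintegral_indicator hSm, setLIntegral_const, mul_comm]

/-- the span of the vectors before index `l`. -/
noncomputable def spanBefore (u : ℕ → E) (l : ℕ) : Submodule ℝ E :=
  Submodule.span ℝ (u '' Set.Iio l)

/-- **Gram-Schmidt small-ball bound** for one Gaussian row. -/
theorem gauss_small_ball (u : ℕ → E) (τ : ℝ) (hτ : 0 < τ) (m : ℕ) :
    stdGaussian E {x | ∀ l < m, |⟪x, u l⟫| < τ} ≤
      ∏ l ∈ Finset.range m, (ENNReal.ofReal (2 * τ / √(2 * Real.pi)) *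
        (ENNReal.ofReal (distOff (spanBefore u l) (u l)))⁻¹) := by
  induction m with
  | zero => simp
  | succ m ih =>
    rw [Finset.prod_range_succ]
    have hset : {x : E | ∀ l < m + 1, |⟪x, u l⟫| < τ} =
        {x : E | ∀ l < m, |⟪x, u l⟫| < τ} ∩ {x | |⟪x, u m⟫| < τ} := by
      ext x
      simp only [Set.mem_ofPred_eq, Set.mem_inter_iff, Nat.lt_succ_iff_lt_or_eq]
      constructor
      · intro h
        exact ⟨fun l hl => h l (Or.inl hl), h m (Or.inr rfl)⟩
      · rintro ⟨h1, h2⟩ l (hl | rfl)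
        · exact h1 l hl
        · exact h2
    rw [hset]
    have hSm : MeasurableSet {x : E | ∀ l < m, |⟪x, u l⟫| < τ} := by
      have : {x : E | ∀ l < m, |⟪x, u l⟫| < τ} = ⋂ l, ⋂ (_ : l < m), {x | |⟪x, u l⟫| < τ} := by
        ext x; simp
      rw [this]
      refine MeasurableSet.iInter fun l => MeasurableSet.iInter fun _ => ?_
      apply measurableSet_lt <;> fun_prop
    have hinv : ∀ x, ∀ w ∈ (spanBefore u m)ᗮ, x + w ∈ {x : E | ∀ l < m, |⟪x, u l⟫| < τ} ↔
        x ∈ {x : E | ∀ l < m, |⟪x, u l⟫| < τ} := by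
      intro x w hw
      have hz : ∀ l < m, ⟪w, u l⟫ = 0 := by
        intro l hl
        have : u l ∈ spanBefore u m := Submodule.subset_span ⟨l, hl, rfl⟩
        rw [real_inner_comm]
        exact (Submodule.mem_orthogonal _ _).1 hw _ this
      simp only [Set.mem_ofPred_eq]
      constructor
      · intro h l hl
        have := h l hl
        rwa [inner_add_left, hz l hl, add_zero] at this
      · intro h l hl
        rw [inner_add_left, hz l hl, add_zero]
        exact h l hl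
    calc _ ≤ _ := gauss_slab_step (spanBefore u m) _ hSm hinv (u m) τ hτ
      _ ≤ _ := by gcongr

end MemSample
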