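import Crest.Agent.Lib.MemSample.Unroll

/-!
# Row 322 (S0499): the rank lemma

With at most `d/4` samples a learner cannot recover the signal to accuracy `1/10`:
`4 T ≤ d`, `ε ≤ 1/10` imply `successProb < 2/3`.
-/

set_option autoImplicit false

namespace Crest.Agent.Lib.MemSample.Rank

open MeasureTheory Set
open Crest.StreamLearn
open Crest.Agent.Lib.MemSample.SphereFacts Crest.Agent.Lib.MemSample.Unroll

variable {d T M : ℕ}

lemma run_congr (L : RLearner d T M) (ω : L.Ω) {s s' : E d} (xs : Fin T → E d)
    (h : ∀ t, inner ℝ (xs t) s = inner ℝ (xs t) s') : L.run ω s xs = L.run ω s' xs := by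
  rw [run_eq, run_eq]
  congr 1
  funext st t
  simp only [step, h t]

lemma output_congr (L : RLearner d T M) (ω : L.Ω) {s s' : E d} (xs : Fin T → E d)
    (h : ∀ t, inner ℝ (xs t) s = inner ℝ (xs t) s') : L.output ω s xs = L.output ω s' xs := by
  simp only [RLearner.output, run_congr L ω xs h]

/-- Section bound. -/
theorem section_bound [NeZero d] (hT : 4 * T ≤ d) {ε : ℝ} (hε : 0 < ε) (hε' : ε ≤ 1 / 10)
    (L : RLearner d T M) (ω : L.Ω) (xs : Fin T → E d) :
    sphereUniform d {s : Sphere d | Real.arccos (inner ℝ (L.output ω s xs) (s : E d)) ≤ ε} ≤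
      ENNReal.ofReal (63 / 100) := by
  letI := L.mΩ
  set A : Set (Sphere d) := {s : Sphere d | Real.arccos (inner ℝ (L.output ω s xs) (s : E d)) ≤ ε}
    with hA
  have hAm : MeasurableSet A := by
    have hm : Measurable fun s : Sphere d =>
        ((ω, ((s : E d), xs)) : RunSpace (d := d) (T := T) (M := M) L) :=
      measurable_const.prodMk (measurable_subtype_coe.prodMk measurable_const)
    have h1 : Measurable fun s : Sphere d => L.output ω s xs := (measurable_output L).comp hm
    have h2 : Measurable fun s : Sphere d => inner ℝ (L.output ω s xs) (s : E d) :=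
      Measurable.inner h1 measurable_subtype_coe
    exact measurableSet_le (Real.continuous_arccos.measurable.comp h2) measurable_const
  let V : Submodule ℝ (E d) := Submodule.span ℝ (range xs)
  let ι : E d ≃ₗᵢ[ℝ] E d := V.reflection
  have hinv : ∀ (s : E d) t, inner ℝ (xs t) (ι s) = inner ℝ (xs t) s := by
    intro s t
    have hx : xs t ∈ V := Submodule.subset_span (mem_range_self t)
    have h1 : ι (xs t) = xs t := Submodule.reflection_mem_subspace_eq_self hx
    calc inner ℝ (xs t) (ι s) = inner ℝ (ι (xs t)) (ι s) := by rw [h1]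
      _ = inner ℝ (xs t) s := LinearIsometryEquiv.inner_map_map _ _ _
  set A' : Set (Sphere d) := sphMap ι ⁻¹' A with hA'
  have hA'm : MeasurableSet A' := sphMap_measurable ι hAm
  have hA'eq : (sphereUniform d).real A' = (sphereUniform d).real A := by
    simp only [Measure.real, hA', sphereUniform_preimage ι hAm]
  set Bad : Set (Sphere d) := {s : Sphere d | (99 / 100 : ℝ) ≤ ‖V.starProjection (s : E d)‖ ^ 2} with hBad
  have hsub : A ∩ A' ⊆ Bad := by
    rintro s ⟨hs1, hs2⟩
    have hs2' : Real.arccos (inner ℝ (L.output ω (ι (s : E d)) xs) (ι (s : E d))) ≤ ε := hs2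
    have hout : L.output ω (ι (s : E d)) xs = L.output ω (s : E d) xs :=
      output_congr L ω xs (fun t => hinv _ t)
    rw [hout] at hs2'
    have hs1' : Real.arccos (inner ℝ (L.output ω s xs) (s : E d)) ≤ ε := hs1
    have hsn : ‖(s : E d)‖ = 1 := by simpa using s.2
    have hon : ‖L.output ω (s : E d) xs‖ = 1 := L.out_unit _ _ _
    have hιn : ‖ι (s : E d)‖ = 1 := by rw [LinearIsometryEquiv.norm_map, hsn]
    have hpi : ε ≤ Real.pi := by linarith [Real.pi_gt_three]
    have c1 := chord_le_of_arccos_le hon hsn hε.le hpi hs1'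
    have c2 := chord_le_of_arccos_le hon hιn hε.le hpi hs2'
    -- the projection
    set P := V.starProjection (s : E d) with hP
    have hrefl : ι (s : E d) = (2 : ℕ) • P - (s : E d) := Submodule.reflection_apply _
    have hdiff : (s : E d) - ι (s : E d) = (2 : ℝ) • ((s : E d) - P) := by
      rw [hrefl]
      simp only [two_smul, smul_sub]
      abel
    have hn : 2 * ‖(s : E d) - P‖ ≤ 2 * ε := by
      have h3 : ‖(s : E d) - ι (s : E d)‖ ≤ ε + ε := by
        calc ‖(s : E d) - ι (s : E d)‖
            = ‖((s : E d) - L.output ω (s : E d) xs) + (L.output ω (s : E d) xs - ι (s : E d))‖ := by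
              congr 1; abel
          _ ≤ ‖(s : E d) - L.output ω (s : E d) xs‖ + ‖L.output ω (s : E d) xs - ι (s : E d)‖ :=
              norm_add_le _ _
          _ ≤ ε + ε := by
              rw [norm_sub_rev (s : E d)]
              exact add_le_add c1 c2
      rw [hdiff, norm_smul] at h3
      simp only [Real.norm_eq_abs, abs_two] at h3
      linarith
    have hn' : ‖(s : E d) - P‖ ≤ 1 / 10 := by linarith
    have horth : inner ℝ ((s : E d) - P) P = 0 :=
      Submodule.starProjection_inner_eq_zero _ _ (Submodule.starProjection_apply_mem V _)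
    have hpyth : ‖(s : E d)‖ ^ 2 = ‖(s : E d) - P‖ ^ 2 + ‖P‖ ^ 2 := by
      have : (s : E d) = ((s : E d) - P) + P := by abel
      conv_lhs => rw [this]
      rw [norm_add_sq_real, horth]
      ring
    rw [hsn] at hpyth
    have hsq : ‖(s : E d) - P‖ ^ 2 ≤ (1 / 10) ^ 2 := by gcongr
    show (99 / 100 : ℝ) ≤ ‖P‖ ^ 2
    nlinarith
  have hBadle : (sphereUniform d).real Bad ≤ ((Module.finrank ℝ V : ℝ) / d) / (99 / 100) :=
    measure_proj_ge V (by norm_num)
  have hfin : Module.finrank ℝ V ≤ T := by
    classical
    have h1 : Module.finrank ℝ V ≤ (range xs).toFinset.card :=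
      finrank_span_le_card (R := ℝ) (range xs)
    refine h1.trans ?_
    have h2 : (range xs).toFinset.card ≤ Fintype.card (Fin T) := by
      rw [Set.toFinset_card]
      exact Fintype.card_range_le xs
    simpa using h2
  have hdpos : (0 : ℝ) < d := by exact_mod_cast Nat.pos_of_ne_zero (NeZero.ne d)
  have hratio : ((Module.finrank ℝ V : ℝ) / d) ≤ 1 / 4 := by
    rw [div_le_iff₀ hdpos]
    have h1 : (Module.finrank ℝ V : ℝ) ≤ T := by exact_mod_cast hfin
    have h2 : (4 : ℝ) * T ≤ d := by exact_mod_cast hT
    linarith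
  have hBadle' : (sphereUniform d).real Bad ≤ (1 / 4) / (99 / 100) :=
    hBadle.trans (by gcongr)
  have hunion := measureReal_union_add_inter (μ := sphereUniform d) (s := A) hA'm
  have h1 : (sphereUniform d).real (A ∪ A') ≤ 1 := by
    exact measureReal_le_one
  have h2 : (sphereUniform d).real (A ∩ A') ≤ (sphereUniform d).real Bad :=
    measureReal_mono hsub
  have h3 : (sphereUniform d).real A ≤ 63 / 100 := by
    rw [hA'eq] at hunion
    norm_num at hBadle'
    linarith
  rw [← ENNReal.ofReal_toReal (measure_ne_top (sphereUniform d) A)]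
  exact ENNReal.ofReal_le_ofReal h3

/-- The rank lemma. -/
theorem rank_lemma [NeZero d] (hT : 4 * T ≤ d) {ε : ℝ} (hε : 0 < ε) (hε' : ε ≤ 1 / 10)
    (L : RLearner d T M) : L.successProb ε < 2 / 3 := by
  have h := successProb_le_of_section L ε (B := ENNReal.ofReal (63 / 100)) ENNReal.ofReal_ne_top
    (fun ω xs => section_bound hT hε hε' L ω xs)
  rw [ENNReal.toReal_ofReal (by norm_num)] at h
  linarith

end Crest.Agent.Lib.MemSample.Rank
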