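import Crest.Agent.Lib.MemSample.Rank
import Crest.Agent.Lib.MemSample.BlockChain

/-!
# Row 322 (S0499): an `RLearner` at a fixed seed as a finite step function

`L : RLearner d T M`, `ω` a seed. The state is `L.St × Option (Fin (T+1))`, the step `gF`, the output
`outZ`. Main theorem `exists_chain`: from `2/3 ≤ L.successProb ε` there are a finite `Z`
(`card ≤ 2^M (T+2)`), a measurable step `g`, an initial state and unit outputs with
`2/3 ≤ (σ × γ^T).real {(s,xs) | ‖out (runT g z0 s xs) - s‖ ≤ ε}`.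
-/

set_option autoImplicit false

namespace Crest.Agent.Lib.MemSample.ReduceChain

open MeasureTheory Set
open Crest.StreamLearn
open Crest.Agent.Lib.MemSample.SphereFacts Crest.Agent.Lib.MemSample.Unroll
open MemSample.BlockChain

variable {d T M : ℕ}

/-- The state space at a fixed seed. -/
abbrev ZT (L : RLearner d T M) : Type := L.St × Option (Fin (T + 1))

noncomputable instance instFintypeZT (L : RLearner d T M) : Fintype (ZT L) :=
  @instFintypeProd _ _ L.fin _

noncomputable instance instDecEqZT (L : RLearner d T M) : DecidableEq (ZT L) := Classical.decEq _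

lemma card_ZT (L : RLearner d T M) : Fintype.card (ZT L) ≤ 2 ^ M * (T + 2) := by
  classical
  have h : Fintype.card (ZT L) = @Fintype.card L.St L.fin * (T + 2) := by
    show @Fintype.card (L.St × Option (Fin (T + 1))) (instFintypeZT L) = _
    unfold instFintypeZT
    rw [@Fintype.card_prod _ _ L.fin _]
    simp
  rw [h]
  exact Nat.mul_le_mul_right _ L.card_le

/-- The step at a fixed seed. -/
noncomputable def gF (L : RLearner d T M) (ω : L.Ω) (t : Fin T) (z : ZT L) (x : E d) (y : ℝ) : ZT L :=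
  if z.2.isSome then z else
    if (L.trans t ω z.1 x y).2 then ((L.trans t ω z.1 x y).1, some ⟨t.val + 1, by omega⟩)
    else ((L.trans t ω z.1 x y).1, none)

/-- The initial state at a fixed seed. -/
noncomputable def z0F (L : RLearner d T M) (ω : L.Ω) : ZT L :=
  (L.init ω, if L.stopFirst ω then some ⟨0, by omega⟩ else none)

/-- Forget the bound on the stopping index. -/
def toRun (L : RLearner d T M) (z : ZT L) : L.St × Option ℕ := (z.1, z.2.map Fin.val)

/-- The output as a function of the state. -/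
noncomputable def outZ (L : RLearner d T M) (ω : L.Ω) (z : ZT L) : E d :=
  L.out ((z.2.map Fin.val).getD T) ω z.1

lemma outZ_unit (L : RLearner d T M) (ω : L.Ω) (z : ZT L) : ‖outZ L ω z‖ = 1 := L.out_unit _ _ _

lemma toRun_gF (L : RLearner d T M) (ω : L.Ω) (s : E d) (xs : Fin T → E d) (t : Fin T) (z : ZT L) :
    toRun L (gF L ω t z (xs t) (inner ℝ (xs t) s)) = step L ω s xs (toRun L z) t := by
  rcases z with ⟨q, o⟩
  cases o with
  | some o => simp [gF, step, toRun]
  | none =>
    by_cases h : (L.trans t ω q (xs t) (inner ℝ (xs t) s)).2 = true <;>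
      simp [gF, step, toRun, h]

lemma toRun_foldl (L : RLearner d T M) (ω : L.Ω) (s : E d) (xs : Fin T → E d) (l : List (Fin T))
    (z : ZT L) :
    toRun L (l.foldl (fun q t => gF L ω t q (xs t) (inner ℝ (xs t) s)) z) =
      l.foldl (step L ω s xs) (toRun L z) := by
  induction l generalizing z with
  | nil => rfl
  | cons t l ih =>
    simp only [List.foldl_cons]
    rw [ih, toRun_gF]

lemma toRun_z0 (L : RLearner d T M) (ω : L.Ω) :
    toRun L (z0F L ω) = (L.init ω, if L.stopFirst ω then some 0 else none) := by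
  by_cases h : L.stopFirst ω = true <;> simp [toRun, z0F, h]

/-- The run of the fixed-seed chain is the run of the learner. -/
theorem toRun_runT (L : RLearner d T M) (ω : L.Ω) (s : E d) (xs : Fin T → E d) :
    toRun L (runT (gF L ω) (z0F L ω) s xs) = L.run ω s xs := by
  rw [run_eq, ← toRun_z0]
  exact toRun_foldl L ω s xs _ _

theorem output_eq (L : RLearner d T M) (ω : L.Ω) (s : E d) (xs : Fin T → E d) :
    L.output ω s xs = outZ L ω (runT (gF L ω) (z0F L ω) s xs) := by
  unfold RLearner.output outZ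
  rw [← toRun_runT L ω s xs]
  rfl

/-- Measurability of the step (for a fixed seed and old state). -/
theorem gF_measurable (L : RLearner d T M) (ω : L.Ω) (t : Fin T) (z z' : ZT L) :
    MeasurableSet {p : E d × ℝ | gF L ω t z p.1 p.2 = z'} := by
  letI := L.mΩ
  have hm : Measurable fun p : E d × ℝ => ((ω, p) : L.Ω × (E d × ℝ)) :=
    measurable_const.prodMk measurable_id
  have h1 : ∀ c : L.St, MeasurableSet {p : E d × ℝ | (L.trans t ω z.1 p.1 p.2).1 = c} := by
    intro c
    have h := (L.trans_measurable t z.1).1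
    have h' := @Measurable.comp _ _ _ _ _ (⊤ : MeasurableSpace L.St) _ _ h hm
    exact h' (show MeasurableSet[⊤] ({c} : Set L.St) from trivial)
  have h2 : Measurable fun p : E d × ℝ => (L.trans t ω z.1 p.1 p.2).2 :=
    (L.trans_measurable t z.1).2.comp hm
  have hT := h2 (measurableSet_singleton true)
  have hF := h2 (measurableSet_singleton false)
  rcases z with ⟨q, o⟩
  rcases z' with ⟨c1, c2⟩
  cases o with
  | some o =>
    have : {p : E d × ℝ | gF L ω t (q, some o) p.1 p.2 = (c1, c2)} =
        {_p | (q, some o) = (c1, c2)} := by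
      ext p; simp [gF]
    rw [this]; exact MeasurableSet.const _
  | none =>
    have : {p : E d × ℝ | gF L ω t (q, none) p.1 p.2 = (c1, c2)} =
        {p | (L.trans t ω q p.1 p.2).1 = c1} ∩
          (((fun p : E d × ℝ => (L.trans t ω q p.1 p.2).2) ⁻¹' {true} ∩
              {_p | some (⟨t.val + 1, by omega⟩ : Fin (T + 1)) = c2}) ∪
           ((fun p : E d × ℝ => (L.trans t ω q p.1 p.2).2) ⁻¹' {false} ∩ {_p | none = c2})) := by
      ext p
      simp only [gF, mem_setOf_eq, mem_inter_iff, mem_union, mem_preimage, mem_singleton_iff,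
        Option.isSome_none, Bool.false_eq_true, if_false]
      cases hb : (L.trans t ω q p.1 p.2).2 <;> simp [Prod.ext_iff]
    rw [this]
    exact (h1 c1).inter ((hT.inter (MeasurableSet.const _)).union (hF.inter (MeasurableSet.const _)))

/-- **Reduction to a chain.** -/
theorem exists_chain [NeZero d] (L : RLearner d T M) {ε : ℝ} (h0 : 0 ≤ ε) (hπ : ε ≤ Real.pi)
    (hs : 2 / 3 ≤ L.successProb ε) :
    ∃ (ω : L.Ω), 2 / 3 ≤ ((sphereUniform d).prod (gaussT d T)).real
      {p : Sphere d × (Fin T → E d) |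
        ‖outZ L ω (runT (gF L ω) (z0F L ω) (p.1 : E d) p.2) - (p.1 : E d)‖ ≤ ε} := by
  obtain ⟨ω, hω⟩ := exists_good_seed L ε hs
  refine ⟨ω, hω.trans ?_⟩
  apply measureReal_mono _ (measure_ne_top _ _)
  rintro ⟨s, xs⟩ hp
  have hp' : Real.arccos (inner ℝ (L.output ω (s : E d) xs) (s : E d)) ≤ ε := hp
  rw [output_eq] at hp'
  have hsn : ‖(s : E d)‖ = 1 := by simpa using s.2
  exact chord_le_of_arccos_le (outZ_unit _ _ _) hsn h0 hπ hp'

/-- The block-chain form of the reduction, in `ENNReal`. -/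
theorem exists_chain_blocks [NeZero d] (L : RLearner d T M) {ε : ℝ} (h0 : 0 ≤ ε) (hπ : ε ≤ Real.pi)
    (hs : 2 / 3 ≤ L.successProb ε) {w J : ℕ} (hJ : T ≤ J * w) :
    ∃ (ω : L.Ω), ENNReal.ofReal (2 / 3) ≤
      ∫⁻ s : Sphere d, ∑ z : ZT L, (if ‖outZ L ω z - (s : E d)‖ ≤ ε then
        Lz (blockMap (w := w) (gF L ω)) (z0F L ω) J z (s : E d) else 0) ∂(sphereUniform d) := by
  classical
  obtain ⟨ω, hω⟩ := exists_chain L h0 hπ hs
  refine ⟨ω, ?_⟩
  let A : Sphere d → ZT L → Prop := fun s z => ‖outZ L ω z - (s : E d)‖ ≤ ε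
  have hA : ∀ z, MeasurableSet {s | A s z} := by
    intro z
    apply IsClosed.measurableSet
    exact isClosed_le (by fun_prop) continuous_const
  have key := prod_run_eq (w := w) (sphereUniform d) (fun t q z' => gF_measurable L ω t q z')
    (z0F L ω) hJ A hA
  simp only [A] at key
  rw [← key]
  rw [← ENNReal.ofReal_toReal (measure_ne_top _ _)]
  exact ENNReal.ofReal_le_ofReal hω

/-- **Counting**: a learner with `N` states has success probability at most `N 2^d ε^(d-1)`. -/
theorem counting [NeZero d] (L : RLearner d T M) {ε : ℝ} (h0 : 0 < ε) (hπ : ε ≤ Real.pi)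
    (hs : 2 / 3 ≤ L.successProb ε) :
    2 / 3 ≤ (Fintype.card (ZT L) : ℝ) * (2 ^ d * ε ^ (d - 1)) := by
  obtain ⟨ω, hω⟩ := exists_chain L h0.le hπ hs
  have hsub : {p : Sphere d × (Fin T → E d) |
        ‖outZ L ω (runT (gF L ω) (z0F L ω) (p.1 : E d) p.2) - (p.1 : E d)‖ ≤ ε} ⊆
      ⋃ z : ZT L, ({s : Sphere d | ‖(s : E d) - outZ L ω z‖ ≤ ε} ×ˢ univ) := by
    rintro ⟨s, xs⟩ hp
    have hp' : ‖outZ L ω (runT (gF L ω) (z0F L ω) (s : E d) xs) - (s : E d)‖ ≤ ε := hp
    refine mem_iUnion.2 ⟨runT (gF L ω) (z0F L ω) (s : E d) xs, ?_⟩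
    refine ⟨?_, mem_univ _⟩
    show ‖(s : E d) - _‖ ≤ ε
    rwa [norm_sub_rev]
  have hle : ((sphereUniform d).prod (gaussT d T)) {p : Sphere d × (Fin T → E d) |
        ‖outZ L ω (runT (gF L ω) (z0F L ω) (p.1 : E d) p.2) - (p.1 : E d)‖ ≤ ε} ≤
      ∑ _z : ZT L, ENNReal.ofReal (2 ^ d * ε ^ (d - 1)) := by
    refine (measure_mono hsub).trans ?_
    refine (measure_iUnion_fintype_le _ _).trans ?_
    refine Finset.sum_le_sum fun z _ => ?_
    rw [Measure.prod_prod, measure_univ, mul_one]
    exact cap_le _ h0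
  simp only [Finset.sum_const, Finset.card_univ, nsmul_eq_mul] at hle
  have hle' := ENNReal.toReal_mono (ENNReal.mul_ne_top (ENNReal.natCast_ne_top _) ENNReal.ofReal_ne_top) hle
  rw [ENNReal.toReal_mul, ENNReal.toReal_natCast, ENNReal.toReal_ofReal (by positivity)] at hle'
  exact hω.trans hle'

end Crest.Agent.Lib.MemSample.ReduceChain
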