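import Crest.Prelude.Def_StreamLearn

/-!
# Row 322 (S0499): facts on the uniform measure on the sphere

`sphereUniform d` is a probability measure for `d ≥ 1`, it is invariant under linear isometries, the
cap bound `σ(B(x,ρ)) ≤ 2^d ρ^(d-1)` holds, and `∫ ⟪e,s⟫² dσ = 1/d` for unit vectors.
-/

set_option autoImplicit false

namespace Crest.Agent.Lib.MemSample.SphereFacts

open MeasureTheory Metric Set
open scoped Pointwise
open Crest.StreamLearn

variable {d : ℕ}


lemma finrank_E : Module.finrank ℝ (E d) = d := finrank_euclideanSpace_fin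

lemma nontrivial_E [NeZero d] : Nontrivial (E d) := by
  haveI : Nonempty (Fin d) := ⟨⟨0, Nat.pos_of_ne_zero (NeZero.ne d)⟩⟩
  infer_instance

lemma toSphere_univ [NeZero d] : (volume : Measure (E d)).toSphere univ = (d : ENNReal) * (volume : Measure (E d)) (ball 0 1) := by
  rw [Measure.toSphere_apply_univ, finrank_E]

lemma ball_pos : (volume : Measure (E d)) (ball 0 1) ≠ 0 := (measure_ball_pos _ _ one_pos).ne'

lemma ball_top : (volume : Measure (E d)) (ball 0 1) ≠ ⊤ := measure_ball_lt_top.ne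

lemma toSphere_univ_ne_zero [NeZero d] : (volume : Measure (E d)).toSphere univ ≠ 0 := by
  rw [toSphere_univ]
  exact mul_ne_zero (by simpa using NeZero.ne d) ball_pos

lemma toSphere_univ_ne_top [NeZero d] : (volume : Measure (E d)).toSphere univ ≠ ⊤ := by
  rw [toSphere_univ]
  exact ENNReal.mul_ne_top (ENNReal.natCast_ne_top _) ball_top

instance isProb [NeZero d] : IsProbabilityMeasure (sphereUniform d) := by
  constructor
  simp only [sphereUniform, Measure.smul_apply, smul_eq_mul]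
  exact ENNReal.inv_mul_cancel toSphere_univ_ne_zero toSphere_univ_ne_top

/-- The action of a linear isometry on the sphere. -/
noncomputable def sphMap (U : E d ≃ₗᵢ[ℝ] E d) : Sphere d → Sphere d :=
  fun x => ⟨U x, by simpa using x.2⟩

@[simp] lemma sphMap_coe (U : E d ≃ₗᵢ[ℝ] E d) (x : Sphere d) : ((sphMap U x : Sphere d) : E d) = U x := rfl

lemma sphMap_measurable (U : E d ≃ₗᵢ[ℝ] E d) : Measurable (sphMap U) := by
  refine Measurable.subtype_mk ?_
  exact U.continuous.measurable.comp measurable_subtype_coe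

lemma toSphere_preimage (U : E d ≃ₗᵢ[ℝ] E d) {s : Set (Sphere d)} (hs : MeasurableSet s) :
    (volume : Measure (E d)).toSphere (sphMap U ⁻¹' s) = (volume : Measure (E d)).toSphere s := by
  rw [Measure.toSphere_apply' _ hs, Measure.toSphere_apply' _ ((sphMap_measurable U) hs)]
  congr 1
  have himg : Ioo (0 : ℝ) 1 • ((↑) '' (sphMap U ⁻¹' s) : Set (E d)) =
      U ⁻¹' (Ioo (0 : ℝ) 1 • ((↑) '' s : Set (E d))) := by
    ext y
    simp only [mem_smul, mem_image, mem_preimage]
    constructor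
    · rintro ⟨r, hr, _, ⟨x, hx, rfl⟩, rfl⟩
      refine ⟨r, hr, U x, ⟨sphMap U x, hx, rfl⟩, ?_⟩
      simp
    · rintro ⟨r, hr, _, ⟨x, hx, rfl⟩, hy⟩
      refine ⟨r, hr, U.symm x, ⟨sphMap U.symm x, ?_, rfl⟩, ?_⟩
      · have : sphMap U (sphMap U.symm x) = x := by
          ext1; simp
        show sphMap U (sphMap U.symm x) ∈ s
        rwa [this]
      · apply U.injective
        rw [← hy]; simp
  rw [himg]
  exact MeasurePreserving.measure_preimage_emb U.measurePreserving U.toHomeomorph.measurableEmbedding _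

/-- Invariance of `sphereUniform` under linear isometries: measure of preimages. -/
lemma sphereUniform_preimage (U : E d ≃ₗᵢ[ℝ] E d) {s : Set (Sphere d)} (hs : MeasurableSet s) :
    sphereUniform d (sphMap U ⁻¹' s) = sphereUniform d s := by
  simp only [sphereUniform, Measure.smul_apply, smul_eq_mul]
  rw [toSphere_preimage U hs]

lemma map_sphMap (U : E d ≃ₗᵢ[ℝ] E d) : (sphereUniform d).map (sphMap U) = sphereUniform d := by
  ext s hs
  rw [Measure.map_apply (sphMap_measurable U) hs, sphereUniform_preimage U hs]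

lemma measurePreserving_sphMap (U : E d ≃ₗᵢ[ℝ] E d) :
    MeasurePreserving (sphMap U) (sphereUniform d) (sphereUniform d) :=
  ⟨sphMap_measurable U, map_sphMap U⟩

/-- The cap bound `σ(B(x,ρ)) ≤ 2^d ρ^(d-1)` (any centre `x`, any `ρ>0`). -/
theorem cap_le [NeZero d] (x : E d) {ρ : ℝ} (hρ : 0 < ρ) :
    sphereUniform d {s : Sphere d | ‖(s : E d) - x‖ ≤ ρ} ≤ ENNReal.ofReal (2 ^ d * ρ ^ (d - 1)) := by
  have hd1 : 1 ≤ d := Nat.pos_of_ne_zero (NeZero.ne d)
  by_cases hρ2 : 1 / 2 ≤ ρ
  · -- the bound is `≥ 1`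
    refine (prob_le_one).trans ?_
    rw [← ENNReal.ofReal_one]
    apply ENNReal.ofReal_le_ofReal
    have h1 : (1 / 2 : ℝ) ^ (d - 1) ≤ ρ ^ (d - 1) := by gcongr
    have h2 : (2 : ℝ) ^ d * (1 / 2 : ℝ) ^ (d - 1) = 2 := by
      obtain ⟨e, rfl⟩ : ∃ e, d = e + 1 := ⟨d - 1, by omega⟩
      simp only [Nat.add_sub_cancel, pow_succ, one_div, inv_pow]
      field_simp
    have h3 : (2 : ℝ) ^ d * (1 / 2 : ℝ) ^ (d - 1) ≤ 2 ^ d * ρ ^ (d - 1) := by gcongr
    linarith
  push Not at hρ2
  set A : Set (Sphere d) := {s : Sphere d | ‖(s : E d) - x‖ ≤ ρ} with hA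
  have hAm : MeasurableSet A := by
    apply IsClosed.measurableSet
    exact isClosed_le (by fun_prop) continuous_const
  -- radial shell
  have hρ1 : 0 < 1 - ρ := by linarith
  let a : Ioi (0 : ℝ) := ⟨1 - ρ, mem_Ioi.2 hρ1⟩
  let b : Ioi (0 : ℝ) := ⟨1, mem_Ioi.2 one_pos⟩
  have hab : a ≤ b := by
    show (1 - ρ) ≤ 1
    linarith
  let R : Set (Ioi (0 : ℝ)) := Iio b \ Iio a
  have hRm : MeasurableSet R := measurableSet_Iio.diff measurableSet_Iio
  have hRval : Measure.volumeIoiPow (d - 1) R = ENNReal.ofReal ((1 - (1 - ρ) ^ d) / d) := by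
    have hle : Iio a ⊆ Iio b := Iio_subset_Iio hab
    rw [measure_diff hle measurableSet_Iio.nullMeasurableSet
      (by rw [Measure.volumeIoiPow_apply_Iio]; exact ENNReal.ofReal_ne_top),
      Measure.volumeIoiPow_apply_Iio, Measure.volumeIoiPow_apply_Iio]
    have hd' : d - 1 + 1 = d := by omega
    rw [hd', ← ENNReal.ofReal_sub]
    · congr 1
      have hc : ((d - 1 : ℕ) : ℝ) + 1 = d := by
        rw [← Nat.cast_succ, Nat.succ_eq_add_one, hd']
      simp only [hc, b, a, one_pow]
      ring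
    · positivity [a.2]
  -- polar coordinates
  have hmp := Measure.measurePreserving_homeomorphUnitSphereProd (volume : Measure (E d))
  have hprod : ((volume : Measure (E d)).comap ((↑) : ({0}ᶜ : Set (E d)) → E d))
      ((homeomorphUnitSphereProd (E d)) ⁻¹' (A ×ˢ R)) =
      (volume : Measure (E d)).toSphere A * Measure.volumeIoiPow (d - 1) R := by
    rw [hmp.measure_preimage (hAm.prod hRm).nullMeasurableSet]
    rw [finrank_E, Measure.prod_prod]
  have hsub : ((↑) '' ((homeomorphUnitSphereProd (E d)) ⁻¹' (A ×ˢ R)) : Set (E d)) ⊆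
      closedBall x (2 * ρ) := by
    rintro _ ⟨y, hy, rfl⟩
    simp only [mem_preimage, mem_prod] at hy
    obtain ⟨hy1, hy2⟩ := hy
    have hyne : (y : E d) ≠ 0 := y.2
    have hn : 0 < ‖(y : E d)‖ := norm_pos_iff.2 hyne
    have hfst : ((homeomorphUnitSphereProd (E d) y).1 : E d) = ‖(y : E d)‖⁻¹ • (y : E d) := by
      simp [homeomorphUnitSphereProd_apply_fst_coe]
    have hsnd : ((homeomorphUnitSphereProd (E d) y).2 : ℝ) = ‖(y : E d)‖ := by
      simp [homeomorphUnitSphereProd_apply_snd_coe]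
    have hr1 : ‖(y : E d)‖ < 1 := by
      have h : ((homeomorphUnitSphereProd (E d) y).2 : ℝ) < 1 := hy2.1
      rwa [hsnd] at h
    have hr2 : 1 - ρ ≤ ‖(y : E d)‖ := by
      have h : ¬ ((homeomorphUnitSphereProd (E d) y).2 : ℝ) < 1 - ρ := hy2.2
      rw [hsnd] at h
      linarith
    have hcap : ‖‖(y : E d)‖⁻¹ • (y : E d) - x‖ ≤ ρ := by
      have : ‖((homeomorphUnitSphereProd (E d) y).1 : E d) - x‖ ≤ ρ := hy1
      rwa [hfst] at this
    rw [mem_closedBall, dist_eq_norm]
    have hkey : (y : E d) - ‖(y : E d)‖⁻¹ • (y : E d) = (‖(y : E d)‖ - 1) • (‖(y : E d)‖⁻¹ • (y : E d)) := by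
      rw [sub_smul, smul_smul, mul_inv_cancel₀ hn.ne', one_smul, one_smul]
    have hnorm1 : ‖‖(y : E d)‖⁻¹ • (y : E d)‖ = 1 := by
      rw [norm_smul, norm_inv, norm_norm, inv_mul_cancel₀ hn.ne']
    calc ‖(y : E d) - x‖ = ‖((y : E d) - ‖(y : E d)‖⁻¹ • (y : E d)) + (‖(y : E d)‖⁻¹ • (y : E d) - x)‖ := by
          congr 1; abel
      _ ≤ ‖(y : E d) - ‖(y : E d)‖⁻¹ • (y : E d)‖ + ‖‖(y : E d)‖⁻¹ • (y : E d) - x‖ := norm_add_le _ _
      _ ≤ ρ + ρ := by
          apply add_le_add _ hcap
          rw [hkey, norm_smul, hnorm1, mul_one, Real.norm_eq_abs, abs_le]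
          constructor <;> linarith
      _ = 2 * ρ := by ring
  have hvol : (volume : Measure (E d)).toSphere A * Measure.volumeIoiPow (d - 1) R ≤
      ENNReal.ofReal ((2 * ρ) ^ d) * (volume : Measure (E d)) (ball 0 1) := by
    rw [← hprod, Measure.comap_apply _ Subtype.val_injective _ _
      ((homeomorphUnitSphereProd (E d)).measurable (hAm.prod hRm))]
    · refine (measure_mono hsub).trans ?_
      rw [Measure.addHaar_closedBall _ _ (by positivity), finrank_E]
    · intro s hs
      exact (MeasurableEmbedding.subtype_coe (measurableSet_singleton _).compl).measurableSet_image.2 hs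
  -- lower bound for the shell
  have hshell : (ρ / d) ≤ (1 - (1 - ρ) ^ d) / d := by
    have : (1 - ρ) ^ d ≤ 1 - ρ := pow_le_of_le_one hρ1.le (by linarith) (by omega)
    gcongr
    linarith
  have hdpos : (0 : ℝ) < d := by exact_mod_cast hd1
  have hshell' : ENNReal.ofReal (ρ / d) ≤ Measure.volumeIoiPow (d - 1) R := by
    rw [hRval]; exact ENNReal.ofReal_le_ofReal hshell
  have h1 : (volume : Measure (E d)).toSphere A * ENNReal.ofReal (ρ / d) ≤ ENNReal.ofReal ((2 * ρ) ^ d) * (volume : Measure (E d)) (ball 0 1) :=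
    (mul_le_mul_right hshell' _).trans hvol
  -- conclude
  have hρd : ENNReal.ofReal (ρ / d) ≠ 0 := by
    simp only [ne_eq, ENNReal.ofReal_eq_zero, not_le]; positivity
  have hv0 : (volume : Measure (E d)) (ball 0 1) ≠ 0 := ball_pos
  have hvt : (volume : Measure (E d)) (ball 0 1) ≠ ⊤ := ball_top
  have hd0 : (d : ENNReal) ≠ 0 := by simpa using NeZero.ne d
  have hdt : (d : ENNReal) ≠ ⊤ := ENNReal.natCast_ne_top _
  simp only [sphereUniform, Measure.smul_apply, smul_eq_mul]
  rw [toSphere_univ]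
  rw [ENNReal.mul_inv (Or.inl hd0) (Or.inl hdt)]
  -- rewrite target
  have htarget : ENNReal.ofReal (2 ^ d * ρ ^ (d - 1)) * (ENNReal.ofReal (ρ / d)) * (d : ENNReal) =
      ENNReal.ofReal ((2 * ρ) ^ d) := by
    rw [← ENNReal.ofReal_natCast, ← ENNReal.ofReal_mul (by positivity), ← ENNReal.ofReal_mul (by positivity)]
    congr 1
    obtain ⟨e, rfl⟩ : ∃ e, d = e + 1 := ⟨d - 1, by omega⟩
    simp only [Nat.add_sub_cancel]
    rw [mul_pow, pow_succ ρ e]
    field_simp
  have h2 : (volume : Measure (E d)).toSphere A * ENNReal.ofReal (ρ / d) ≤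
      ENNReal.ofReal (2 ^ d * ρ ^ (d - 1)) * ENNReal.ofReal (ρ / d) * (d : ENNReal) * (volume : Measure (E d)) (ball 0 1) := by
    rw [htarget]; exact h1
  have h3 : (volume : Measure (E d)).toSphere A ≤ ENNReal.ofReal (2 ^ d * ρ ^ (d - 1)) * (d : ENNReal) * (volume : Measure (E d)) (ball 0 1) := by
    have h4 : ENNReal.ofReal (2 ^ d * ρ ^ (d - 1)) * ENNReal.ofReal (ρ / d) * (d : ENNReal) * (volume : Measure (E d)) (ball 0 1) =
      (ENNReal.ofReal (2 ^ d * ρ ^ (d - 1)) * (d : ENNReal) * (volume : Measure (E d)) (ball 0 1)) * ENNReal.ofReal (ρ / d) := by ring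
    rw [h4] at h2
    exact (ENNReal.mul_le_mul_iff_left hρd ENNReal.ofReal_ne_top).1 h2
  calc (↑d)⁻¹ * ((volume : Measure (E d)) (ball 0 1))⁻¹ * (volume : Measure (E d)).toSphere A
      ≤ (↑d)⁻¹ * ((volume : Measure (E d)) (ball 0 1))⁻¹ * (ENNReal.ofReal (2 ^ d * ρ ^ (d - 1)) * (d : ENNReal) * (volume : Measure (E d)) (ball 0 1)) := by
        gcongr
    _ = ENNReal.ofReal (2 ^ d * ρ ^ (d - 1)) * (((d : ENNReal))⁻¹ * d) * (((volume : Measure (E d)) (ball 0 1))⁻¹ * (volume : Measure (E d)) (ball 0 1)) := by ring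
    _ = ENNReal.ofReal (2 ^ d * ρ ^ (d - 1)) := by
        rw [ENNReal.inv_mul_cancel hd0 hdt, ENNReal.inv_mul_cancel hv0 hvt]; simp

/-- `sphMap` as a measurable equivalence. -/
noncomputable def sphEquiv (U : E d ≃ₗᵢ[ℝ] E d) : Sphere d ≃ᵐ Sphere d where
  toFun := sphMap U
  invFun := sphMap U.symm
  left_inv x := by ext1; simp
  right_inv x := by ext1; simp
  measurable_toFun := sphMap_measurable U
  measurable_invFun := sphMap_measurable U.symm

lemma measurePreserving_sphEquiv (U : E d ≃ₗᵢ[ℝ] E d) :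
    MeasurePreserving (sphEquiv U) (sphereUniform d) (sphereUniform d) :=
  measurePreserving_sphMap U

/-! ### Second moments -/

lemma integrable_inner_sq [NeZero d] (b : E d) :
    Integrable (fun s : Sphere d => (inner ℝ b (s : E d)) ^ 2) (sphereUniform d) := by
  refine Integrable.of_bound (C := ‖b‖ ^ 2) ?_ ?_
  · apply Continuous.aestronglyMeasurable
    fun_prop
  · refine Filter.Eventually.of_forall fun s => ?_
    have h1 : |inner ℝ b (s : E d)| ≤ ‖b‖ * ‖(s : E d)‖ := abs_real_inner_le_norm _ _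
    have h2 : ‖(s : E d)‖ = 1 := by simpa using s.2
    rw [h2, mul_one] at h1
    rw [Real.norm_eq_abs, abs_pow]
    gcongr

/-- For vectors of equal norm, `∫⟪b,s⟫²` agrees. -/
lemma integral_inner_sq_eq (b b' : E d) (hb : ‖b‖ = ‖b'‖) :
    ∫ s : Sphere d, (inner ℝ b (s : E d)) ^ 2 ∂(sphereUniform d) =
      ∫ s : Sphere d, (inner ℝ b' (s : E d)) ^ 2 ∂(sphereUniform d) := by
  let U : E d ≃ₗᵢ[ℝ] E d := Submodule.reflection (Submodule.span ℝ {b - b'})ᗮ
  have hU : U b = b' := Submodule.reflection_sub hb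
  have hm := MeasurePreserving.integral_comp' (measurePreserving_sphEquiv U)
    (fun s : Sphere d => (inner ℝ b' (s : E d)) ^ 2)
  rw [← hm]
  congr 1
  ext s
  show _ = (inner ℝ b' (U (s : E d))) ^ 2
  rw [← hU, LinearIsometryEquiv.inner_map_map]

/-- `∫⟪b,s⟫² dσ = 1/d` for a unit vector `b`. -/
theorem integral_inner_sq [NeZero d] (b : E d) (hb : ‖b‖ = 1) :
    ∫ s : Sphere d, (inner ℝ b (s : E d)) ^ 2 ∂(sphereUniform d) = 1 / d := by
  have hd0 : (d : ℝ) ≠ 0 := by exact_mod_cast NeZero.ne d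
  let e := EuclideanSpace.basisFun (Fin d) ℝ
  have hsum : ∀ s : Sphere d, ∑ i, (inner ℝ (e i) (s : E d)) ^ 2 = 1 := by
    intro s
    have h2 : ‖(s : E d)‖ = 1 := by simpa using s.2
    have := e.sum_sq_inner_left (s : E d)
    rw [h2] at this
    simpa [real_inner_comm] using this
  have hint : ∫ s : Sphere d, ∑ i, (inner ℝ (e i) (s : E d)) ^ 2 ∂(sphereUniform d) = 1 := by
    simp [hsum]
  rw [integral_finset_sum _ (fun i _ => integrable_inner_sq (e i))] at hint
  have heq : ∀ i, ∫ s : Sphere d, (inner ℝ (e i) (s : E d)) ^ 2 ∂(sphereUniform d) =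
      ∫ s : Sphere d, (inner ℝ b (s : E d)) ^ 2 ∂(sphereUniform d) := by
    intro i
    apply integral_inner_sq_eq
    rw [hb]; exact e.orthonormal.1 i
  simp only [heq, Finset.sum_const, Finset.card_univ, Fintype.card_fin, nsmul_eq_mul] at hint
  field_simp
  linarith

/-- The projection onto a subspace `V`: second moment is `dim V / d`. -/
theorem integral_norm_proj_sq [NeZero d] (V : Submodule ℝ (E d)) :
    ∫ s : Sphere d, ‖V.starProjection (s : E d)‖ ^ 2 ∂(sphereUniform d) =
      (Module.finrank ℝ V : ℝ) / d := by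
  let b := stdOrthonormalBasis ℝ V
  have hexp : ∀ s : Sphere d, ‖V.starProjection (s : E d)‖ ^ 2 =
      ∑ i, (inner ℝ ((b i : V) : E d) (s : E d)) ^ 2 := by
    intro s
    have h := b.sum_sq_inner_right (V.orthogonalProjectionOnto (s : E d))
    have hn : ‖V.starProjection (s : E d)‖ = ‖V.orthogonalProjectionOnto (s : E d)‖ := by
      rw [V.starProjection_apply]; rfl
    rw [hn, ← h]
    refine Finset.sum_congr rfl fun i _ => ?_
    rw [Submodule.inner_orthogonalProjectionOnto_eq_of_mem_left]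
  simp_rw [hexp]
  rw [integral_finset_sum _ (fun i _ => integrable_inner_sq _)]
  have hi : ∀ i, ∫ s : Sphere d, (inner ℝ ((b i : V) : E d) (s : E d)) ^ 2 ∂(sphereUniform d) = 1 / d := by
    intro i
    apply integral_inner_sq
    exact b.orthonormal.1 i
  simp only [hi, Finset.sum_const, Finset.card_univ, Fintype.card_fin, nsmul_eq_mul]
  ring

/-- Markov for the projection: `σ{‖P_V s‖² ≥ c} ≤ (dim V / d)/c`. -/
theorem measure_proj_ge [NeZero d] (V : Submodule ℝ (E d)) {c : ℝ} (hc : 0 < c) :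
    (sphereUniform d).real {s : Sphere d | c ≤ ‖V.starProjection (s : E d)‖ ^ 2} ≤
      ((Module.finrank ℝ V : ℝ) / d) / c := by
  have hint : Integrable (fun s : Sphere d => ‖V.starProjection (s : E d)‖ ^ 2) (sphereUniform d) := by
    refine Integrable.of_bound (C := 1) ?_ ?_
    · apply Continuous.aestronglyMeasurable
      fun_prop
    · refine Filter.Eventually.of_forall fun s => ?_
      have h2 : ‖(s : E d)‖ = 1 := by simpa using s.2
      have h3 : ‖V.starProjection (s : E d)‖ ≤ ‖(s : E d)‖ := Submodule.norm_starProjection_apply_le V _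
      rw [h2] at h3
      rw [Real.norm_eq_abs, abs_pow, abs_norm]
      exact pow_le_one₀ (norm_nonneg _) h3
  have := mul_meas_ge_le_integral_of_nonneg (Filter.Eventually.of_forall fun s => by positivity) hint c
  rw [integral_norm_proj_sq] at this
  rw [le_div_iff₀ hc, mul_comm]
  exact this

end Crest.Agent.Lib.MemSample.SphereFacts
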