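import Crest.Agent.Lib.MemSample.SphereFacts

/-!
# Row 322 (S0499): measurability of the run of an `RLearner`, fixing the seed, chord ≤ angle
-/

set_option autoImplicit false

namespace Crest.Agent.Lib.MemSample.Unroll

open MeasureTheory Set
open Crest.StreamLearn

variable {d T M : ℕ}

/-- A map into a discrete countable type composed into a family of measurable maps. -/
lemma measurable_of_discrete {P Q R : Type*} [MeasurableSpace P] [MeasurableSpace R] [Countable Q]
    {g : P → Q} (hg : ∀ q, MeasurableSet (g ⁻¹' {q})) {Φ : P → Q → R}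
    (hΦ : ∀ q, Measurable fun p => Φ p q) : Measurable fun p => Φ p (g p) := by
  intro S hS
  have : (fun p => Φ p (g p)) ⁻¹' S = ⋃ q, (g ⁻¹' {q}) ∩ ((fun p => Φ p q) ⁻¹' S) := by
    ext p
    simp only [mem_preimage, mem_iUnion, mem_inter_iff, mem_singleton_iff, exists_and_left,
      exists_eq_left']
  rw [this]
  exact MeasurableSet.iUnion fun q => (hg q).inter (hΦ q hS)

/-- A discrete-valued version: preimages of points stay measurable. -/
lemma discrete_of_discrete {P Q R : Type*} [MeasurableSpace P] [Countable Q]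
    {g : P → Q} (hg : ∀ q, MeasurableSet (g ⁻¹' {q})) {Φ : P → Q → R}
    (hΦ : ∀ q r, MeasurableSet {p | Φ p q = r}) (r : R) :
    MeasurableSet {p | Φ p (g p) = r} := by
  have : {p | Φ p (g p) = r} = ⋃ q, (g ⁻¹' {q}) ∩ {p | Φ p q = r} := by
    ext p
    simp only [mem_setOf_eq, mem_iUnion, mem_inter_iff, mem_preimage, mem_singleton_iff,
      exists_and_left, exists_eq_left']
  rw [this]
  exact MeasurableSet.iUnion fun q => (hg q).inter (hΦ q r)

/-- The one-step function of the run. -/
noncomputable def step (L : RLearner d T M) (ω : L.Ω) (s : E d) (xs : Fin T → E d)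
    (st : L.St × Option ℕ) (t : Fin T) : L.St × Option ℕ :=
  if st.2.isSome then st else
    if (L.trans t ω st.1 (xs t) (inner ℝ (xs t) s)).2
    then ((L.trans t ω st.1 (xs t) (inner ℝ (xs t) s)).1, some (t.val + 1))
    else ((L.trans t ω st.1 (xs t) (inner ℝ (xs t) s)).1, none)

lemma run_eq (L : RLearner d T M) (ω : L.Ω) (s : E d) (xs : Fin T → E d) :
    L.run ω s xs = (List.finRange T).foldl (step L ω s xs)
      (L.init ω, if L.stopFirst ω then some 0 else none) := rfl

section measurable

variable (L : RLearner d T M)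

local instance instΩ : MeasurableSpace L.Ω := L.mΩ

/-- The sample-space of one run (seed, signal, samples). -/
abbrev RunSpace := L.Ω × (E d × (Fin T → E d))

local instance instFin : Fintype L.St := L.fin

lemma trans_fst_discrete (t : Fin T) (q : L.St) (c : L.St) :
    MeasurableSet {p : RunSpace (d := d) (T := T) (M := M) L |
      (L.trans t p.1 q (p.2.2 t) (inner ℝ (p.2.2 t) p.2.1)).1 = c} := by
  have h := (L.trans_measurable t q).1
  have hm : Measurable fun p : RunSpace (d := d) (T := T) (M := M) L =>
      ((p.1, (p.2.2 t, inner ℝ (p.2.2 t) p.2.1)) : L.Ω × (E d × ℝ)) := by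
    refine measurable_fst.prodMk (Measurable.prodMk ?_ ?_)
    · exact (measurable_pi_apply t).comp (measurable_snd.comp measurable_snd)
    · exact Measurable.inner ((measurable_pi_apply t).comp (measurable_snd.comp measurable_snd))
        (measurable_fst.comp measurable_snd)
  have h' := @Measurable.comp _ _ _ _ _ (⊤ : MeasurableSpace L.St) _ _ h hm
  exact h' (show MeasurableSet[⊤] ({c} : Set L.St) from trivial)

lemma trans_snd_measurable (t : Fin T) (q : L.St) :
    Measurable fun p : RunSpace (d := d) (T := T) (M := M) L =>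
      (L.trans t p.1 q (p.2.2 t) (inner ℝ (p.2.2 t) p.2.1)).2 := by
  have h := (L.trans_measurable t q).2
  have hm : Measurable fun p : RunSpace (d := d) (T := T) (M := M) L =>
      ((p.1, (p.2.2 t, inner ℝ (p.2.2 t) p.2.1)) : L.Ω × (E d × ℝ)) := by
    refine measurable_fst.prodMk (Measurable.prodMk ?_ ?_)
    · exact (measurable_pi_apply t).comp (measurable_snd.comp measurable_snd)
    · exact Measurable.inner ((measurable_pi_apply t).comp (measurable_snd.comp measurable_snd))
        (measurable_fst.comp measurable_snd)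
  exact h.comp hm

lemma step_discrete (q : L.St × Option ℕ) (t : Fin T) (c : L.St × Option ℕ) :
    MeasurableSet {p : RunSpace (d := d) (T := T) (M := M) L |
      step L p.1 p.2.1 p.2.2 q t = c} := by
  rcases q with ⟨q1, q2⟩
  rcases c with ⟨c1, c2⟩
  by_cases hq : q2.isSome
  · by_cases hc : (q1, q2) = (c1, c2)
    · have : {p : RunSpace (d := d) (T := T) (M := M) L | step L p.1 p.2.1 p.2.2 (q1, q2) t = (c1, c2)} = univ := by
        ext p; simp [step, hq, hc]
      rw [this]; exact MeasurableSet.univ
    · have : {p : RunSpace (d := d) (T := T) (M := M) L | step L p.1 p.2.1 p.2.2 (q1, q2) t = (c1, c2)} = ∅ := by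
        ext p; simp [step, hq]
        simpa using hc
      rw [this]; exact MeasurableSet.empty
  · have hB := trans_snd_measurable L t q1
    have hT : MeasurableSet {p : RunSpace (d := d) (T := T) (M := M) L |
        (L.trans t p.1 q1 (p.2.2 t) (inner ℝ (p.2.2 t) p.2.1)).2 = true} :=
      hB (measurableSet_singleton true)
    have hF : MeasurableSet {p : RunSpace (d := d) (T := T) (M := M) L |
        (L.trans t p.1 q1 (p.2.2 t) (inner ℝ (p.2.2 t) p.2.1)).2 = false} :=
      hB (measurableSet_singleton false)
    have h1 := trans_fst_discrete L t q1 c1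
    have : {p : RunSpace (d := d) (T := T) (M := M) L | step L p.1 p.2.1 p.2.2 (q1, q2) t = (c1, c2)} =
        {p | (L.trans t p.1 q1 (p.2.2 t) (inner ℝ (p.2.2 t) p.2.1)).1 = c1} ∩
        (({p | (L.trans t p.1 q1 (p.2.2 t) (inner ℝ (p.2.2 t) p.2.1)).2 = true} ∩ {_p | some (t.val + 1) = c2}) ∪
         ({p | (L.trans t p.1 q1 (p.2.2 t) (inner ℝ (p.2.2 t) p.2.1)).2 = false} ∩ {_p | none = c2})) := by
      ext p
      simp only [step, hq, mem_setOf_eq, mem_inter_iff, mem_union]
      cases hb : (L.trans t p.1 q1 (p.2.2 t) (inner ℝ (p.2.2 t) p.2.1)).2 <;>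
        simp [Prod.ext_iff]
    rw [this]
    refine h1.inter ((hT.inter (MeasurableSet.const _)).union (hF.inter (MeasurableSet.const _)))

lemma foldl_discrete (l : List (Fin T)) :
    ∀ (g : RunSpace (d := d) (T := T) (M := M) L → L.St × Option ℕ),
      (∀ c, MeasurableSet (g ⁻¹' {c})) →
      ∀ c, MeasurableSet {p : RunSpace (d := d) (T := T) (M := M) L |
        l.foldl (step L p.1 p.2.1 p.2.2) (g p) = c} := by
  induction l with
  | nil => intro g hg c; exact hg c
  | cons t l ih =>
    intro g hg c
    simp only [List.foldl_cons]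
    refine ih (fun p => step L p.1 p.2.1 p.2.2 (g p) t) ?_ c
    intro c'
    exact discrete_of_discrete hg (Φ := fun p q => step L p.1 p.2.1 p.2.2 q t)
      (fun q r => step_discrete L q t r) c'

/-- The run is measurable into the discrete space. -/
theorem run_discrete (c : L.St × Option ℕ) :
    MeasurableSet {p : RunSpace (d := d) (T := T) (M := M) L | L.run p.1 p.2.1 p.2.2 = c} := by
  refine foldl_discrete L (List.finRange T)
    (fun p => (L.init p.1, if L.stopFirst p.1 then some 0 else none)) ?_ c
  rintro ⟨c1, c2⟩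
  have hi : MeasurableSet {p : RunSpace (d := d) (T := T) (M := M) L | L.init p.1 = c1} := by
    have h := L.init_measurable
    have hm : Measurable fun p : RunSpace (d := d) (T := T) (M := M) L => p.1 := measurable_fst
    have h' := @Measurable.comp _ _ _ _ _ (⊤ : MeasurableSpace L.St) _ _ h hm
    exact h' (show MeasurableSet[⊤] ({c1} : Set L.St) from trivial)
  have hs : Measurable fun p : RunSpace (d := d) (T := T) (M := M) L => L.stopFirst p.1 :=
    L.stopFirst_measurable.comp measurable_fst
  have hT := hs (measurableSet_singleton true)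
  have hF := hs (measurableSet_singleton false)
  have : (fun p : RunSpace (d := d) (T := T) (M := M) L =>
      (L.init p.1, if L.stopFirst p.1 then some 0 else none)) ⁻¹' {(c1, c2)} =
      {p | L.init p.1 = c1} ∩ (((fun p => L.stopFirst p.1) ⁻¹' {true} ∩ {_p | some 0 = c2}) ∪
        ((fun p => L.stopFirst p.1) ⁻¹' {false} ∩ {_p | none = c2})) := by
    ext p
    simp only [mem_preimage, mem_singleton_iff, mem_inter_iff, mem_setOf_eq, mem_union]
    cases hb : L.stopFirst p.1 <;> simp [Prod.ext_iff]
  rw [this]
  exact hi.inter ((hT.inter (MeasurableSet.const _)).union (hF.inter (MeasurableSet.const _)))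

/-- The output is jointly measurable. -/
theorem measurable_output :
    Measurable fun p : RunSpace (d := d) (T := T) (M := M) L => L.output p.1 p.2.1 p.2.2 := by
  refine measurable_of_discrete (P := RunSpace (d := d) (T := T) (M := M) L)
    (Q := L.St × Option ℕ) (g := fun p => L.run p.1 p.2.1 p.2.2)
    (Φ := fun p q => L.out (q.2.getD T) p.1 q.1) (fun q => run_discrete L q) ?_
  intro q
  exact (L.out_measurable _ _).comp measurable_fst


/-- The success set (seed, signal, samples form). -/
def succSet (ε : ℝ) : Set (Sphere d × (L.Ω × (Fin T → E d))) :=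
  {p | Real.arccos (inner ℝ (L.output p.2.1 p.1 p.2.2) (p.1 : E d)) ≤ ε}

theorem measurableSet_succSet (ε : ℝ) : MeasurableSet (succSet L ε) := by
  have hm : Measurable fun p : Sphere d × (L.Ω × (Fin T → E d)) =>
      ((p.2.1, ((p.1 : E d), p.2.2)) : RunSpace (d := d) (T := T) (M := M) L) := by
    refine (measurable_fst.comp measurable_snd).prodMk (Measurable.prodMk ?_ ?_)
    · exact measurable_subtype_coe.comp measurable_fst
    · exact measurable_snd.comp measurable_snd
  have h1 : Measurable fun p : Sphere d × (L.Ω × (Fin T → E d)) => L.output p.2.1 p.1 p.2.2 :=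
    (measurable_output L).comp hm
  have h2 : Measurable fun p : Sphere d × (L.Ω × (Fin T → E d)) =>
      inner ℝ (L.output p.2.1 p.1 p.2.2) (p.1 : E d) :=
    Measurable.inner h1 (measurable_subtype_coe.comp measurable_fst)
  exact measurableSet_le (Real.continuous_arccos.measurable.comp h2) measurable_const

/-- The law of the samples. -/
noncomputable abbrev gaussT (d T : ℕ) : Measure (Fin T → E d) :=
  Measure.pi fun _ : Fin T => ProbabilityTheory.stdGaussian (E d)

theorem successProb_eq (ε : ℝ) :
    L.successProb ε = ((sphereUniform d).prod (L.ρ.prod (gaussT d T))).real (succSet L ε) := rfl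

/-- Section bound: if every section (fixed seed and samples) has `σ`-measure at most `B`,
then the success probability is at most `B`. -/
theorem successProb_le_of_section [NeZero d] (ε : ℝ) {B : ENNReal} (hB : B ≠ ⊤)
    (h : ∀ (ω : L.Ω) (xs : Fin T → E d),
      sphereUniform d {s : Sphere d | Real.arccos (inner ℝ (L.output ω s xs) (s : E d)) ≤ ε} ≤ B) :
    L.successProb ε ≤ B.toReal := by
  haveI := L.prob
  rw [successProb_eq, Measure.real]
  apply ENNReal.toReal_mono hB
  rw [Measure.prod_apply_symm (measurableSet_succSet L ε)]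
  calc ∫⁻ y, sphereUniform d ((fun x => (x, y)) ⁻¹' succSet L ε) ∂(L.ρ.prod (gaussT d T))
      ≤ ∫⁻ _, B ∂(L.ρ.prod (gaussT d T)) := lintegral_mono fun y => h y.1 y.2
    _ = B := by simp

/-- Fubini: the success probability as an average over seeds. -/
theorem measure_succSet_eq [NeZero d] (ε : ℝ) :
    haveI := L.prob
    ((sphereUniform d).prod (L.ρ.prod (gaussT d T))) (succSet L ε) =
      ∫⁻ ω, ((sphereUniform d).prod (gaussT d T)) {p : Sphere d × (Fin T → E d) |
        Real.arccos (inner ℝ (L.output ω p.1 p.2) (p.1 : E d)) ≤ ε} ∂L.ρ := by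
  haveI := L.prob
  let φ : L.Ω × (Sphere d × (Fin T → E d)) → Sphere d × (L.Ω × (Fin T → E d)) :=
    fun p => (p.2.1, (p.1, p.2.2))
  have hφ : MeasurePreserving φ (L.ρ.prod ((sphereUniform d).prod (gaussT d T)))
      ((sphereUniform d).prod (L.ρ.prod (gaussT d T))) := by
    have e1 := (measurePreserving_prodAssoc L.ρ (sphereUniform d) (gaussT d T)).symm
    have e2 : MeasurePreserving (Prod.map Prod.swap id)
        ((L.ρ.prod (sphereUniform d)).prod (gaussT d T))
        (((sphereUniform d).prod L.ρ).prod (gaussT d T)) :=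
      MeasurePreserving.prod Measure.measurePreserving_swap (MeasurePreserving.id _)
    have e3 := measurePreserving_prodAssoc (sphereUniform d) L.ρ (gaussT d T)
    exact e3.comp (e2.comp e1)
  rw [← hφ.measure_preimage (measurableSet_succSet L ε).nullMeasurableSet]
  rw [Measure.prod_apply (hφ.measurable (measurableSet_succSet L ε))]
  rfl

/-- Fixing the seed. -/
theorem exists_good_seed [NeZero d] (ε : ℝ) (hs : 2 / 3 ≤ L.successProb ε) :
    ∃ ω : L.Ω, 2 / 3 ≤ ((sphereUniform d).prod (gaussT d T)).real
      {p : Sphere d × (Fin T → E d) |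
        Real.arccos (inner ℝ (L.output ω p.1 p.2) (p.1 : E d)) ≤ ε} := by
  haveI := L.prob
  let f : L.Ω → ENNReal := fun ω =>
    ((sphereUniform d).prod (gaussT d T)) {p : Sphere d × (Fin T → E d) |
      Real.arccos (inner ℝ (L.output ω p.1 p.2) (p.1 : E d)) ≤ ε}
  have hint : ∫⁻ ω, f ω ∂L.ρ ≠ ⊤ := by
    rw [← measure_succSet_eq L ε]
    exact measure_ne_top _ _
  obtain ⟨ω, hω⟩ := exists_lintegral_le (μ := L.ρ) hint
  refine ⟨ω, ?_⟩
  rw [← measure_succSet_eq L ε] at hω
  rw [successProb_eq, Measure.real] at hs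
  refine hs.trans ?_
  exact ENNReal.toReal_mono (measure_ne_top _ _) hω

end measurable

/-- chord ≤ angle on the unit sphere. -/
lemma chord_le_of_arccos_le {o s : E d} (ho : ‖o‖ = 1) (hs : ‖s‖ = 1) {ε : ℝ} (h0 : 0 ≤ ε)
    (hπ : ε ≤ Real.pi) (h : Real.arccos (inner ℝ o s) ≤ ε) : ‖o - s‖ ≤ ε := by
  have hcs := abs_real_inner_le_norm o s
  rw [ho, hs, one_mul, abs_le] at hcs
  have hcos : Real.cos ε ≤ inner ℝ o s := by
    have h1 := Real.cos_le_cos_of_nonneg_of_le_pi (Real.arccos_nonneg _) hπ h
    rwa [Real.cos_arccos hcs.1 hcs.2] at h1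
  have hsq : ‖o - s‖ ^ 2 = 2 - 2 * inner ℝ o s := by
    rw [norm_sub_sq_real, ho, hs]; ring
  have h2 := Real.one_sub_sq_div_two_le_cos (x := ε)
  have h3 : ‖o - s‖ ^ 2 ≤ ε ^ 2 := by rw [hsq]; linarith
  exact (pow_le_pow_iff_left₀ (norm_nonneg _) h0 (by norm_num)).1 h3

end Crest.Agent.Lib.MemSample.Unroll
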